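import Mathlib
import Vale.Agent.Lib.P084.Str.Compare
import Vale.Agent.Lib.P084.Str.TwoPath

/-! Norming functionals of a general norm: uniqueness gives strict differentiability. -/

namespace Vale.Agent.Lib.P084.Gen

open Set Metric Filter Topology
open Vale.Agent.Lib.P084

section Norming

variable {E : Type*} [NormedAddCommGroup E] [NormedSpace ℝ E]

/-- A norming functional of `z`. -/
structure Norming (ψ : StrongDual ℝ E) (z : E) : Prop where
  le : ‖ψ‖ ≤ 1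
  val : ψ z = ‖z‖

lemma exists_norming (z : E) : ∃ ψ : StrongDual ℝ E, Norming ψ z := by
  obtain ⟨ψ, h1, h2⟩ := exists_dual_vector'' ℝ z
  exact ⟨ψ, h1, by simpa using h2⟩

lemma Norming.apply_le {ψ : StrongDual ℝ E} {z : E} (h : Norming ψ z) (v : E) : ψ v ≤ ‖v‖ :=
  Far.fle ψ h.le v

lemma Norming.abs_le {ψ : StrongDual ℝ E} {z : E} (h : Norming ψ z) (v : E) : |ψ v| ≤ ‖v‖ :=
  functional_le ψ h.le

lemma Norming.support {ψ : StrongDual ℝ E} {z : E} (h : Norming ψ z) (v : E) :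
    ‖z‖ + ψ v ≤ ‖z + v‖ := by
  have h1 := h.apply_le (z + v)
  rw [map_add, h.val] at h1
  exact h1

lemma Norming.smul {ψ : StrongDual ℝ E} {z : E} (h : Norming ψ z) {t : ℝ} (ht : 0 ≤ t) :
    Norming ψ (t • z) := by
  refine ⟨h.le, ?_⟩
  rw [map_smul, h.val, norm_smul, Real.norm_of_nonneg ht, smul_eq_mul]

lemma norm_le_of_forall {ψ : StrongDual ℝ E} (h : ∀ v, ψ v ≤ ‖v‖) : ‖ψ‖ ≤ 1 := by
  refine ψ.opNorm_le_bound zero_le_one fun v => ?_
  rw [one_mul, Real.norm_eq_abs, abs_le]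
  constructor
  · have := h (-v)
    rw [map_neg, norm_neg] at this
    linarith
  · exact h v

/-- From a derivative of the norm to a norming functional. -/
lemma norming_of_hasFDerivAt {p : E} {χ : StrongDual ℝ E}
    (h : HasFDerivAt (fun z : E => ‖z‖) χ p) : Norming χ p := by
  have h1 : fderiv ℝ (fun z : E => ‖z‖) p = χ := h.fderiv
  refine ⟨?_, ?_⟩
  · rw [← h1]
    exact chi_norm_le p
  · exact hasFDerivAt_norm_self h

lemma norming_unique {p : E} {χ ψ : StrongDual ℝ E}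
    (h : HasFDerivAt (fun z : E => ‖z‖) χ p) (hψ : Norming ψ p) : ψ = χ := by
  have h1 := norming_of_hasFDerivAt h
  exact functional_eq_of_differentiableAt h.differentiableAt hψ.le h1.le hψ.val h1.val

variable [FiniteDimensional ℝ E]

/-- Norming functionals of nearby points are close to the unique norming functional. -/
theorem norming_close {p : E} {χ : StrongDual ℝ E} (huniq : ∀ ψ, Norming ψ p → ψ = χ) {ε : ℝ}
    (hε : 0 < ε) : ∃ δ : ℝ, 0 < δ ∧ ∀ v, ‖v - p‖ < δ → ∀ ψ, Norming ψ v → ‖ψ - χ‖ < ε := by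
  by_contra hcon
  push Not at hcon
  have hex : ∀ n : ℕ, ∃ v ψ, ‖v - p‖ < 1 / ((n : ℝ) + 1) ∧ Norming ψ v ∧ ε ≤ ‖ψ - χ‖ := by
    intro n
    obtain ⟨v, h1, ψ, h2, h3⟩ := hcon (1 / ((n : ℝ) + 1)) (by positivity)
    exact ⟨v, ψ, h1, h2, h3⟩
  choose v ψ h1 h2 h3 using hex
  have hmem : ∀ n, ψ n ∈ closedBall (0 : StrongDual ℝ E) 1 := fun n => by
    simpa using (h2 n).le
  obtain ⟨ψ₀, hψ₀, φ, hφ, hlim⟩ :=
    (isCompact_closedBall (0 : StrongDual ℝ E) 1).tendsto_subseq hmem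
  have hvlim : Tendsto v atTop (𝓝 p) := by
    rw [tendsto_iff_norm_sub_tendsto_zero]
    refine squeeze_zero (fun n => norm_nonneg _) (fun n => (h1 n).le) ?_
    exact tendsto_one_div_add_atTop_nhds_zero_nat
  have hvφ : Tendsto (v ∘ φ) atTop (𝓝 p) := hvlim.comp hφ.tendsto_atTop
  have happ : Tendsto (fun n => (ψ ∘ φ) n ((v ∘ φ) n)) atTop (𝓝 (ψ₀ p)) := by
    have hcb : Continuous fun q : StrongDual ℝ E × E => q.1 q.2 := by fun_prop
    exact (hcb.tendsto (ψ₀, p)).comp (hlim.prodMk_nhds hvφ)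
  have hnorm : Tendsto (fun n => ‖(v ∘ φ) n‖) atTop (𝓝 ‖p‖) := hvφ.norm
  have hval : ψ₀ p = ‖p‖ := by
    refine tendsto_nhds_unique happ (hnorm.congr fun n => ?_)
    exact ((h2 (φ n)).val).symm
  have hle : ‖ψ₀‖ ≤ 1 := by simpa using hψ₀
  have hψ₀χ : ψ₀ = χ := huniq ψ₀ ⟨hle, hval⟩
  have hd : Tendsto (fun n => ‖(ψ ∘ φ) n - χ‖) atTop (𝓝 ‖ψ₀ - χ‖) := (hlim.sub_const χ).norm
  rw [hψ₀χ, sub_self, norm_zero] at hd
  have : ∀ᶠ n in atTop, ‖(ψ ∘ φ) n - χ‖ < ε := hd.eventually (gt_mem_nhds hε)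
  obtain ⟨n, hn⟩ := this.exists
  exact absurd (h3 (φ n)) (not_le.2 hn)

/-- Strict differentiability at a point with a unique norming functional. -/
theorem strict_of_unique {p : E} {χ : StrongDual ℝ E} (huniq : ∀ ψ, Norming ψ p → ψ = χ) {ε : ℝ}
    (hε : 0 < ε) : ∃ δ : ℝ, 0 < δ ∧ ∀ v v', ‖v - p‖ < δ → ‖v' - p‖ < δ →
      |‖v'‖ - ‖v‖ - χ (v' - v)| ≤ ε * ‖v' - v‖ := by
  obtain ⟨δ, hδ, hb⟩ := norming_close huniq hε
  refine ⟨δ, hδ, fun v v' hv hv' => ?_⟩
  obtain ⟨ψ, hψ⟩ := exists_norming v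
  obtain ⟨ψ', hψ'⟩ := exists_norming v'
  have h1 := hb v hv ψ hψ
  have h2 := hb v' hv' ψ' hψ'
  have h3 : |(ψ - χ) (v' - v)| ≤ ε * ‖v' - v‖ := by
    have := (ψ - χ).le_opNorm (v' - v)
    rw [Real.norm_eq_abs] at this
    exact this.trans (mul_le_mul_of_nonneg_right h1.le (norm_nonneg _))
  have h4 : |(ψ' - χ) (v' - v)| ≤ ε * ‖v' - v‖ := by
    have := (ψ' - χ).le_opNorm (v' - v)
    rw [Real.norm_eq_abs] at this
    exact this.trans (mul_le_mul_of_nonneg_right h2.le (norm_nonneg _))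
  simp only [_root_.sub_apply] at h3 h4
  have h5 := hψ.support (v' - v)
  rw [add_sub_cancel] at h5
  have h6 := hψ'.support (v - v')
  rw [add_sub_cancel, ← neg_sub v' v, map_neg] at h6
  rw [abs_le] at h3 h4 ⊢
  constructor <;> [linarith [h3.1]; linarith [h4.2]]

/-- Differentiability at a point with a unique norming functional. -/
theorem hasFDerivAt_of_unique {p : E} {χ : StrongDual ℝ E} (huniq : ∀ ψ, Norming ψ p → ψ = χ) :
    HasFDerivAt (fun z : E => ‖z‖) χ p := by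
  rw [hasFDerivAt_iff_isLittleO_nhds_zero, Asymptotics.isLittleO_iff]
  intro c hc
  obtain ⟨δ, hδ, hb⟩ := strict_of_unique huniq hc
  have h1 : ∀ᶠ v in 𝓝 (0 : E), ‖v‖ < δ := by
    have h0 := (continuous_norm (E := E)).tendsto 0
    rw [norm_zero] at h0
    exact h0.eventually (gt_mem_nhds hδ)
  filter_upwards [h1] with v hv
  have h2 := hb p (p + v) (by simpa using hδ) (by simpa using hv)
  rw [add_sub_cancel_left] at h2
  rw [Real.norm_eq_abs]
  exact h2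

/-- Differentiability from a strict estimate. -/
lemma hasFDerivAt_of_strict {p : E} {χ : StrongDual ℝ E}
    (h : ∀ ε : ℝ, 0 < ε → ∃ δ : ℝ, 0 < δ ∧ ∀ v v', ‖v - p‖ < δ → ‖v' - p‖ < δ →
      |‖v'‖ - ‖v‖ - χ (v' - v)| ≤ ε * ‖v' - v‖) :
    HasFDerivAt (fun z : E => ‖z‖) χ p := by
  rw [hasFDerivAt_iff_isLittleO_nhds_zero, Asymptotics.isLittleO_iff]
  intro c hc
  obtain ⟨δ, hδ, hb⟩ := h c hc
  have h1 : ∀ᶠ v in 𝓝 (0 : E), ‖v‖ < δ := by
    have h0 := (continuous_norm (E := E)).tendsto 0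
    rw [norm_zero] at h0
    exact h0.eventually (gt_mem_nhds hδ)
  filter_upwards [h1] with v hv
  have h2 := hb p (p + v) (by simpa using hδ) (by simpa using hv)
  rw [add_sub_cancel_left] at h2
  rw [Real.norm_eq_abs]
  exact h2

end Norming

end Vale.Agent.Lib.P084.Gen
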