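import Mathlib
import Vale.Agent.Lib.P084.Gen.Basic

/-! First order data at a point of differentiability of the norm of `X`. -/

namespace Vale.Agent.Lib.P084.Gen

open Set Metric Filter Topology
open Vale.Agent.Lib.P084
open Vale.Agent.Lib.P084.Str (curve curve_zero BigO hasDerivAt_zero_of_sq)

section Curve

variable {E : Type*} [NormedAddCommGroup E] [NormedSpace ℝ E]

lemma line_ne {x₀ w : E} {χ₀ : StrongDual ℝ E} (hχ : χ₀ x₀ = 1) (hw : χ₀ w = 0) (ε : ℝ) :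
    x₀ + ε • w ≠ 0 := by
  intro h
  have h1 := congrArg χ₀ h
  rw [map_add, map_smul, hw, hχ] at h1
  simp at h1

lemma curve_unit {x₀ w : E} {χ₀ : StrongDual ℝ E} (hχ : χ₀ x₀ = 1) (hw : χ₀ w = 0) (ε : ℝ) :
    ‖curve x₀ w ε‖ = 1 := unit_of_ne (line_ne hχ hw ε)

lemma curve_deriv {x₀ w : E} {χ₀ : StrongDual ℝ E} (hd : HasFDerivAt (fun z : E => ‖z‖) χ₀ x₀)
    (hx₀ : ‖x₀‖ = 1) (hw : χ₀ w = 0) : HasDerivAt (curve x₀ w) w 0 := by
  have hl : HasDerivAt (fun ε : ℝ => x₀ + ε • w) w 0 := by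
    simpa using ((hasDerivAt_id (0 : ℝ)).smul_const w).const_add x₀
  have hn : HasDerivAt (fun ε : ℝ => ‖x₀ + ε • w‖) (χ₀ w) 0 :=
    HasFDerivAt.comp_hasDerivAt_of_eq (0 : ℝ) hd hl (by simp)
  rw [hw] at hn
  have hne : ‖x₀ + (0 : ℝ) • w‖ ≠ 0 := by simp [hx₀]
  have hi := hn.fun_inv hne
  have h := hi.smul hl
  refine h.congr_deriv ?_
  simp [hx₀]

end Curve

section Pre

variable {X Y : Type*} [NormedAddCommGroup X] [NormedSpace ℝ X]
  [NormedAddCommGroup Y] [NormedSpace ℝ Y]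

/-- First order data at a point of differentiability of the norm. -/
structure Pre (g : X → Y) (h : Y → X) (x₀ : X) (A : X →L[ℝ] Y) (χ₀ : StrongDual ℝ X) : Prop where
  iso : SphereIso g h
  unit : ‖x₀‖ = 1
  Ax : A x₀ = g x₀
  der : HasFDerivAt (fun z : X => ‖z‖) χ₀ x₀
  big : BigO g x₀ A

variable {g : X → Y} {h : Y → X} {x₀ : X} {A : X →L[ℝ] Y} {χ₀ : StrongDual ℝ X}

lemma Pre.x0_ne (B : Pre g h x₀ A χ₀) : x₀ ≠ 0 := by
  intro h0
  have := B.unit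
  rw [h0, norm_zero] at this
  exact zero_ne_one this

lemma Pre.y_unit (B : Pre g h x₀ A χ₀) : ‖g x₀‖ = 1 := B.iso.map_g _ B.unit

lemma Pre.y0_ne (B : Pre g h x₀ A χ₀) : g x₀ ≠ 0 := by
  intro h0
  have := B.y_unit
  rw [h0, norm_zero] at this
  exact zero_ne_one this

lemma Pre.norming (B : Pre g h x₀ A χ₀) : Norming χ₀ x₀ := norming_of_hasFDerivAt B.der

lemma Pre.self (B : Pre g h x₀ A χ₀) : χ₀ x₀ = 1 := by
  rw [B.norming.val, B.unit]

lemma Pre.chi_le (B : Pre g h x₀ A χ₀) (v : X) : χ₀ v ≤ ‖v‖ := B.norming.apply_le v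

lemma Pre.chi_abs (B : Pre g h x₀ A χ₀) (v : X) : |χ₀ v| ≤ ‖v‖ := B.norming.abs_le v

lemma Pre.tan (B : Pre g h x₀ A χ₀) (z : X) : χ₀ (z - χ₀ z • x₀) = 0 := by
  rw [map_sub, map_smul, B.self]
  simp

/-- The image curve has derivative `A w`. -/
lemma Pre.image_deriv (B : Pre g h x₀ A χ₀) {w : X} (hw : χ₀ w = 0) (v : Y) :
    HasDerivAt (fun ε : ℝ => g (curve x₀ w ε) - v) (A w) 0 := by
  have hcd := curve_deriv B.der B.unit hw
  obtain ⟨K, hK⟩ := B.big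
  obtain ⟨C, hC⟩ := hcd.isBigO_sub.bound
  have hc : Tendsto (curve x₀ w) (𝓝 0) (𝓝 x₀) := by
    have := hcd.continuousAt.tendsto
    rwa [curve_zero B.unit] at this
  have h1 : HasDerivAt (fun ε : ℝ => g (curve x₀ w ε) - A (curve x₀ w ε)) 0 0 := by
    refine hasDerivAt_zero_of_sq (C := |K| * ‖C‖ ^ 2) ?_ ?_
    · rw [curve_zero B.unit, B.Ax, sub_self]
    · filter_upwards [hc.eventually hK, hC] with ε h1 h2
      refine (h1 (curve_unit B.self hw ε)).trans ?_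
      rw [curve_zero B.unit] at h2
      have h2' : ‖curve x₀ w ε - x₀‖ ≤ ‖C‖ * |ε| := by
        have h5 := le_abs_self C
        have h6 : C * ‖ε - 0‖ ≤ ‖C‖ * |ε| := by
          rw [sub_zero, Real.norm_eq_abs]
          exact mul_le_mul_of_nonneg_right (by rw [Real.norm_eq_abs]; exact h5) (abs_nonneg _)
        exact h2.trans h6
      have h3 : ‖curve x₀ w ε - x₀‖ ^ 2 ≤ (‖C‖ * |ε|) ^ 2 := pow_le_pow_left₀ (norm_nonneg _) h2' 2
      have h4 : (‖C‖ * |ε|) ^ 2 = ‖C‖ ^ 2 * ε ^ 2 := by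
        rw [mul_pow, sq_abs]
      rw [h4] at h3
      calc K * ‖curve x₀ w ε - x₀‖ ^ 2 ≤ |K| * ‖curve x₀ w ε - x₀‖ ^ 2 :=
            mul_le_mul_of_nonneg_right (le_abs_self K) (by positivity)
        _ ≤ |K| * (‖C‖ ^ 2 * ε ^ 2) := mul_le_mul_of_nonneg_left h3 (abs_nonneg K)
        _ = |K| * ‖C‖ ^ 2 * ε ^ 2 := by ring
  have h2 : HasDerivAt (fun ε : ℝ => A (curve x₀ w ε)) (A w) 0 :=
    A.hasFDerivAt.comp_hasDerivAt (0 : ℝ) hcd
  have h3 := (h1.fun_add h2).sub_const v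
  refine (h3.congr_deriv (by simp)).congr_of_eventuallyEq ?_
  exact Filter.Eventually.of_forall fun ε => by simp

/-- `A` preserves the norm on the tangent hyperplane. -/
theorem Pre.normA (B : Pre g h x₀ A χ₀) {w : X} (hw : χ₀ w = 0) : ‖A w‖ = ‖w‖ := by
  have h1 := (B.image_deriv hw (g x₀)).tendsto_slope_zero
  have h2 := (curve_deriv B.der B.unit hw).tendsto_slope_zero
  have h3 := h1.norm
  have h4 := h2.norm
  refine tendsto_nhds_unique h3 (h4.congr fun t => ?_)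
  simp only [zero_add, curve_zero B.unit, sub_self, sub_zero, norm_smul]
  rw [B.iso.iso _ _ (curve_unit B.self hw t) B.unit]

/-- Tangential subgradients are transported along a chord. -/
theorem Pre.tan_transfer (B : Pre g h x₀ A χ₀) {u : X} (hu : ‖u‖ = 1) {ξ : StrongDual ℝ X}
    (hξ : ∀ v, χ₀ v = 0 → ‖x₀ - u‖ + ξ v ≤ ‖x₀ - u + v‖) {v : X} (hv : χ₀ v = 0) :
    ‖g x₀ - g u‖ + ξ v ≤ ‖g x₀ - g u + A v‖ := by
  obtain ⟨Z, hZ⟩ : ∃ Z, Z = g x₀ - g u := ⟨_, rfl⟩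
  obtain ⟨z, hz⟩ : ∃ z, z = x₀ - u := ⟨_, rfl⟩
  rw [← hZ]
  rw [← hz] at hξ
  have hZz : ‖Z‖ = ‖z‖ := by
    rw [hZ, hz]
    exact B.iso.iso _ _ B.unit hu
  refine le_of_forall_pos_le_add fun e he => ?_
  have hc := curve_deriv B.der B.unit hv
  have hi := B.image_deriv hv (g x₀)
  have hc1 := (hasDerivAt_iff_isLittleO_nhds_zero.1 hc)
  have hi1 := (hasDerivAt_iff_isLittleO_nhds_zero.1 hi)
  have h1 := Asymptotics.isLittleO_iff.1 hc1 (show 0 < e / 4 by positivity)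
  have h2 := Asymptotics.isLittleO_iff.1 hi1 (show 0 < e / 4 by positivity)
  have hpos : ∀ᶠ s : ℝ in 𝓝[>] 0, s ∈ Ioo (0 : ℝ) 1 := Ioo_mem_nhdsGT one_pos
  have hev := ((h1.and h2).filter_mono nhdsWithin_le_nhds).and hpos
  obtain ⟨s, ⟨hs1, hs2⟩, hs3⟩ := hev.exists
  simp only [zero_add, curve_zero B.unit, sub_self, sub_zero, Real.norm_eq_abs] at hs1 hs2
  have hs0 : 0 < s := hs3.1
  rw [abs_of_pos hs0] at hs1 hs2
  obtain ⟨y, hy⟩ : ∃ y, y = curve x₀ v s := ⟨_, rfl⟩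
  rw [← hy] at hs1 hs2
  have hy1 : ‖y‖ = 1 := by
    rw [hy]
    exact curve_unit B.self hv s
  have hiso : ‖g y - g u‖ = ‖y - u‖ := B.iso.iso _ _ hy1 hu
  have e1 : g y - g u = Z + s • A v + (g y - g x₀ - s • A v) := by
    rw [hZ]
    abel
  have e2 : y - u = z + s • v + (y - x₀ - s • v) := by
    rw [hz]
    abel
  have h3 : ‖g y - g u‖ ≤ ‖Z + s • A v‖ + ‖g y - g x₀ - s • A v‖ := by
    rw [e1]
    exact norm_add_le _ _
  have h4 : ‖z + s • v‖ ≤ ‖y - u‖ + ‖y - x₀ - s • v‖ := by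
    have := norm_sub_le (y - u) (y - x₀ - s • v)
    have e3 : y - u - (y - x₀ - s • v) = z + s • v := by
      rw [e2]
      abel
    rwa [e3] at this
  have h5 := hξ (s • v) (by rw [map_smul, hv]; simp)
  rw [map_smul, smul_eq_mul] at h5
  -- convexity
  have h6 : ‖Z + s • A v‖ ≤ (1 - s) * ‖Z‖ + s * ‖Z + A v‖ := by
    have e3 : Z + s • A v = (1 - s) • Z + s • (Z + A v) := by
      module
    rw [e3]
    refine (norm_add_le _ _).trans ?_
    rw [norm_smul, norm_smul, Real.norm_of_nonneg hs0.le,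
      Real.norm_of_nonneg (by linarith [hs3.2])]
  have h7 : s * ‖Z‖ + s * ξ v ≤ s * ‖Z + A v‖ + s * (e / 2) := by
    nlinarith
  have h8 : s * (‖Z‖ + ξ v) ≤ s * (‖Z + A v‖ + e) := by
    nlinarith
  linarith [le_of_mul_le_mul_left h8 hs0]

/-- `A` is injective. -/
theorem Pre.inj [FiniteDimensional ℝ X] (B : Pre g h x₀ A χ₀) : Function.Injective A := by
  have : Nontrivial X := ⟨⟨x₀, 0, B.x0_ne⟩⟩
  rw [injective_iff_map_eq_zero]
  intro z hz
  obtain ⟨s, hs⟩ : ∃ s, s = χ₀ z := ⟨_, rfl⟩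
  obtain ⟨w, hw⟩ : ∃ w, w = z - s • x₀ := ⟨_, rfl⟩
  have hw0 : χ₀ w = 0 := by
    rw [hw, hs]
    exact B.tan z
  have hAw : A w = -(s • g x₀) := by
    rw [hw, map_sub, hz, map_smul, B.Ax, zero_sub]
  by_cases hs0 : s = 0
  · have h1 := B.normA hw0
    rw [hw, hs0, zero_smul, sub_zero, hz, norm_zero] at h1
    exact norm_eq_zero.1 h1.symm
  exfalso
  obtain ⟨k, hk⟩ : ∃ k, k = (-s⁻¹) • w := ⟨_, rfl⟩
  have hk0 : χ₀ k = 0 := by
    rw [hk, map_smul, hw0]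
    simp
  have hAk : A k = g x₀ := by
    rw [hk, map_smul, hAw, smul_neg, smul_smul, neg_mul, inv_mul_cancel₀ hs0, neg_smul, one_smul, neg_neg]
  have hc := curve_deriv B.der B.unit hk0
  have hi := B.image_deriv hk0 (g x₀)
  rw [hAk] at hi
  -- the two sides at a small positive parameter
  have h2 : HasFDerivAt (fun z : X => ‖z‖) χ₀ ((2 : ℝ) • x₀) :=
    B.der.hasFDerivAt_norm_smul_pos two_pos
  have hc2 : HasDerivAt (fun ε : ℝ => ‖curve x₀ k ε + x₀‖) 0 0 := by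
    have h3 := hc.add_const x₀
    have h4 := HasFDerivAt.comp_hasDerivAt_of_eq (0 : ℝ) h2 h3 (by
      rw [curve_zero B.unit, two_smul])
    rw [hk0] at h4
    exact h4
  have h5 := Asymptotics.isLittleO_iff.1 (hasDerivAt_iff_isLittleO_nhds_zero.1 hc2)
    (show (0 : ℝ) < 1 / 4 by norm_num)
  have h6 := Asymptotics.isLittleO_iff.1 (hasDerivAt_iff_isLittleO_nhds_zero.1 hi)
    (show (0 : ℝ) < 1 / 4 by norm_num)
  have hpos : ∀ᶠ s : ℝ in 𝓝[>] 0, s ∈ Ioo (0 : ℝ) 1 := Ioo_mem_nhdsGT one_pos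
  have hev := ((h5.and h6).filter_mono nhdsWithin_le_nhds).and hpos
  obtain ⟨ε, ⟨he1, he2⟩, he3⟩ := hev.exists
  have hε : 0 < ε := he3.1
  simp only [zero_add, curve_zero B.unit, sub_self, sub_zero, Real.norm_eq_abs, smul_zero] at he1 he2
  rw [abs_of_pos hε] at he2
  have he1' : |‖curve x₀ k ε + x₀‖ - ‖x₀ + x₀‖| ≤ 1 / 4 * ε := by
    have := he1
    rwa [abs_of_pos hε] at this
  have h7 : ‖x₀ + x₀‖ = 2 := by
    rw [← two_smul ℝ x₀, norm_smul, B.unit]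
    norm_num
  rw [h7] at he1'
  have hy1 := curve_unit (w := k) (x₀ := x₀) B.self hk0 ε
  have h8 := Far.norm_add_image B.iso hy1 B.unit
  -- lower bound in the target
  have h9 : (2 + ε) - ‖g (curve x₀ k ε) - g x₀ - ε • g x₀‖ ≤ ‖g (curve x₀ k ε) + g x₀‖ := by
    have e1 : (2 + ε) • g x₀ = (g (curve x₀ k ε) + g x₀) - (g (curve x₀ k ε) - g x₀ - ε • g x₀) := by
      rw [add_smul, two_smul]
      abel
    have h10 : ‖(2 + ε) • g x₀‖ ≤ ‖g (curve x₀ k ε) + g x₀‖ +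
        ‖g (curve x₀ k ε) - g x₀ - ε • g x₀‖ := by
      rw [e1]
      exact norm_sub_le _ _
    rw [norm_smul, B.y_unit, mul_one, Real.norm_of_nonneg (by linarith)] at h10
    linarith
  have h11 := (abs_le.1 he1').2
  rw [h8] at h9
  linarith

/-- `A` has a continuous linear inverse. -/
theorem Pre.inverse [FiniteDimensional ℝ X] [FiniteDimensional ℝ Y] (B : Pre g h x₀ A χ₀) :
    ∃ Λ : Y →L[ℝ] X, (∀ x, Λ (A x) = x) ∧ ∀ y, A (Λ y) = y := by
  have : Nontrivial X := ⟨⟨x₀, 0, B.x0_ne⟩⟩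
  have hinj := B.inj
  have hsurj : Function.Surjective A :=
    (LinearMap.injective_iff_surjective_of_finrank_eq_finrank (f := (A : X →ₗ[ℝ] Y))
      (Far.finrank_eq B.iso)).1 hinj
  let e : X ≃L[ℝ] Y := (LinearEquiv.ofBijective (A : X →ₗ[ℝ] Y) ⟨hinj, hsurj⟩).toContinuousLinearEquiv
  have he : ∀ x, e x = A x := fun x => rfl
  refine ⟨(e.symm : Y →L[ℝ] X), fun x => ?_, fun y => ?_⟩
  · rw [← he]
    simp
  · rw [← he]
    simp

end Pre

section Fst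

variable {X Y : Type*} [NormedAddCommGroup X] [NormedSpace ℝ X]
  [NormedAddCommGroup Y] [NormedSpace ℝ Y]

/-- First order data with an inverse. -/
structure Fst (g : X → Y) (h : Y → X) (x₀ : X) (A : X →L[ℝ] Y) (Λ : Y →L[ℝ] X)
    (χ₀ : StrongDual ℝ X) : Prop extends Pre g h x₀ A χ₀ where
  left : ∀ x, Λ (A x) = x
  right : ∀ y, A (Λ y) = y

variable {g : X → Y} {h : Y → X} {x₀ : X} {A : X →L[ℝ] Y} {Λ : Y →L[ℝ] X} {χ₀ : StrongDual ℝ X}

lemma Fst.hgx (B : Fst g h x₀ A Λ χ₀) : h (g x₀) = x₀ := B.iso.left _ B.unit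

lemma Fst.Lx (B : Fst g h x₀ A Λ χ₀) : Λ (g x₀) = x₀ := by
  rw [← B.Ax, B.left]

lemma Fst.self' (B : Fst g h x₀ A Λ χ₀) : (χ₀.comp Λ) (g x₀) = 1 := by
  simp [B.Lx, B.self]

lemma Fst.comp_A (B : Fst g h x₀ A Λ χ₀) (z : X) : (χ₀.comp Λ) (A z) = χ₀ z := by
  simp [B.left]

/-- A norming functional at the image point is the transported one. -/
theorem Fst.norming_eq (B : Fst g h x₀ A Λ χ₀) {Φ : StrongDual ℝ Y} (hΦ : Norming Φ (g x₀)) :
    Φ = χ₀.comp Λ := by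
  have hval : Φ (g x₀) = 1 := by rw [hΦ.val, B.y_unit]
  have htan : ∀ w, χ₀ w = 0 → Φ (A w) = 0 := by
    intro w hw
    have h1 : HasDerivAt (fun ε : ℝ => Φ (g (curve x₀ w ε) - g x₀)) (Φ (A w)) 0 :=
      Φ.hasFDerivAt.comp_hasDerivAt (0 : ℝ) (B.image_deriv hw (g x₀))
    have hmax : IsLocalMax (fun ε : ℝ => Φ (g (curve x₀ w ε) - g x₀)) 0 := by
      refine Filter.Eventually.of_forall fun ε => ?_
      simp only [curve_zero B.unit, sub_self, map_zero, map_sub, hval]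
      have h2 := hΦ.apply_le (g (curve x₀ w ε))
      rw [B.iso.map_g _ (curve_unit B.self hw ε)] at h2
      linarith
    exact hmax.hasDerivAt_eq_zero h1
  ext V
  obtain ⟨z, hz⟩ : ∃ z, z = Λ V := ⟨_, rfl⟩
  have hV : V = A z := by rw [hz, B.right]
  have h1 := htan _ (B.tan z)
  rw [map_sub, map_sub, map_smul, map_smul, B.Ax, smul_eq_mul, hval, mul_one] at h1
  rw [hV, B.comp_A]
  linarith

/-- The transported functional norms the image point. -/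
lemma Fst.norming' (B : Fst g h x₀ A Λ χ₀) : Norming (χ₀.comp Λ) (g x₀) := by
  obtain ⟨Φ, hΦ⟩ := exists_norming (g x₀)
  rwa [B.norming_eq hΦ] at hΦ

/-- The inverse map has the same first order data. -/
lemma Fst.symm [FiniteDimensional ℝ Y] (B : Fst g h x₀ A Λ χ₀) :
    Fst h g (g x₀) Λ A (χ₀.comp Λ) := by
  refine { iso := B.iso.symm, unit := B.y_unit, Ax := ?_, der := ?_, big := ?_, left := B.right,
           right := B.left }
  · rw [B.Lx, B.hgx]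
  · exact hasFDerivAt_of_unique fun ψ hψ => B.norming_eq hψ
  · obtain ⟨K, hK⟩ := B.big
    obtain ⟨δ, hδ, hb⟩ := Metric.eventually_nhds_iff.1 hK
    refine ⟨‖Λ‖ * K, Metric.eventually_nhds_iff.2 ⟨δ, hδ, fun {y'} hy' hy'1 => ?_⟩⟩
    have hx1 : ‖h y'‖ = 1 := B.iso.map_h _ hy'1
    have hgy : g (h y') = y' := B.iso.right _ hy'1
    have hd : ‖h y' - x₀‖ = ‖y' - g x₀‖ := by
      have := B.iso.iso _ _ hx1 B.unit
      rw [hgy] at this
      exact this.symm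
    rw [dist_eq_norm, ← hd] at hy'
    have h2 := @hb (h y') (by rwa [dist_eq_norm]) hx1
    rw [hgy] at h2
    have e : h y' - Λ y' = -Λ (y' - A (h y')) := by
      rw [map_sub, B.left]
      abel
    rw [e, norm_neg, ← hd, mul_assoc]
    exact (Λ.le_opNorm _).trans (mul_le_mul_of_nonneg_left h2 (norm_nonneg _))

end Fst

end Vale.Agent.Lib.P084.Gen
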