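import Mathlib
import Vale.Agent.Lib.P084.Gen.First

/-! Minimisers of `‖y‖ - ξ y` on a slice `{χ₀ = 1}`, without any regularity of the norm. -/

namespace Vale.Agent.Lib.P084.Gen

open Set Metric Filter Topology
open Vale.Agent.Lib.P084

section Min

variable {E : Type*} [NormedAddCommGroup E] [NormedSpace ℝ E]

/-- `y` minimises `‖y‖ - ξ y` on `{χ₀ = 1}`, with value `a`. -/
structure IsM (χ₀ ξ : StrongDual ℝ E) (y : E) (a : ℝ) : Prop where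
  aff : χ₀ y = 1
  val : ‖y‖ - ξ y = a
  le : ∀ v, χ₀ v = 1 → a ≤ ‖v‖ - ξ v

variable {χ₀ ξ ξ' : StrongDual ℝ E} {y y' : E} {a a' : ℝ} {x₀ : E}

lemma IsM.ne_zero (hm : IsM χ₀ ξ y a) : y ≠ 0 := by
  rintro rfl
  have := hm.aff
  rw [map_zero] at this
  exact zero_ne_one this

lemma IsM.norm_pos (hm : IsM χ₀ ξ y a) : 0 < ‖y‖ := norm_pos_iff.2 hm.ne_zero

lemma IsM.val_unique (hm : IsM χ₀ ξ y a) (hm' : IsM χ₀ ξ y' a') : a' = a := by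
  have h1 := hm.le y' hm'.aff
  have h2 := hm'.le y hm.aff
  rw [hm'.val] at h1
  rw [hm.val] at h2
  exact le_antisymm h2 h1

lemma IsM.support (hm : IsM χ₀ ξ y a) {v : E} (hv : χ₀ v = 0) : ‖y‖ + ξ v ≤ ‖y + v‖ := by
  have h1 := hm.le (y + v) (by rw [map_add, hm.aff, hv, add_zero])
  rw [map_add, ← hm.val] at h1
  linarith

lemma IsM.of_support (hy : χ₀ y = 1) (h : ∀ v, χ₀ v = 0 → ‖y‖ + ξ v ≤ ‖y + v‖) :
    IsM χ₀ ξ y (‖y‖ - ξ y) := by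
  refine ⟨hy, rfl, fun v hv => ?_⟩
  have h1 := h (v - y) (by rw [map_sub, hv, hy, sub_self])
  rw [add_sub_cancel, map_sub] at h1
  linarith

lemma IsM.dual_le (hm : IsM χ₀ ξ y a) (v : E) : ξ v + a * χ₀ v ≤ ‖v‖ := by
  obtain ⟨c, hc⟩ : ∃ c, c = χ₀ v := ⟨_, rfl⟩
  rw [← hc]
  rcases lt_trichotomy c 0 with hneg | h0 | hpos
  · -- reduce to the kernel through `y`
    have hv' : χ₀ (v + (-c) • y) = 0 := by
      rw [map_add, map_smul, hm.aff, ← hc]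
      simp
    have h1 := hm.support (v := v + (-c) • y) hv'
    have h2 : ‖y + (v + (-c) • y)‖ ≤ ‖y‖ + ‖v‖ + (-c) * ‖y‖ := by
      refine (norm_add_le _ _).trans ?_
      have := norm_add_le v ((-c) • y)
      rw [norm_smul, Real.norm_of_nonneg (by linarith)] at this
      linarith
    rw [map_add, map_smul, smul_eq_mul] at h1
    have h3 := hm.val
    nlinarith
  · have h1 := hm.support (v := v) (by rw [← hc, h0])
    have h2 : ‖y + v‖ ≤ ‖y‖ + ‖v‖ := norm_add_le _ _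
    rw [h0, mul_zero, add_zero]
    linarith
  · have h1 := hm.le (c⁻¹ • v) (by rw [map_smul, ← hc, smul_eq_mul, inv_mul_cancel₀ hpos.ne'])
    rw [map_smul, norm_smul, norm_inv, Real.norm_of_nonneg hpos.le, smul_eq_mul] at h1
    have h2 := mul_le_mul_of_nonneg_left h1 hpos.le
    have e : c * (c⁻¹ * ‖v‖ - c⁻¹ * ξ v) = ‖v‖ - ξ v := by
      field_simp
    rw [e] at h2
    nlinarith

lemma IsM.norming (hm : IsM χ₀ ξ y a) : Norming (ξ + a • χ₀) y := by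
  refine ⟨norm_le_of_forall fun v => ?_, ?_⟩
  · simpa using hm.dual_le v
  · simp only [_root_.add_apply, _root_.smul_apply, smul_eq_mul, hm.aff, mul_one]
    have := hm.val
    linarith

lemma IsM.le_of_norm (hm : IsM χ₀ ξ y a) {b : ℝ} (h : ‖ξ + b • χ₀‖ ≤ 1) : b ≤ a := by
  have h1 := Far.fle _ h y
  simp only [_root_.add_apply, _root_.smul_apply, smul_eq_mul, hm.aff, mul_one] at h1
  have := hm.val
  linarith

lemma IsM.of_norming {φ : StrongDual ℝ E} (hφ : Norming φ y) (hy : χ₀ y = 1) (b : ℝ) :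
    IsM χ₀ (φ - b • χ₀) y b := by
  refine ⟨hy, ?_, fun v hv => ?_⟩
  · simp only [_root_.sub_apply, _root_.smul_apply, smul_eq_mul, hy, hφ.val]
    ring
  · simp only [_root_.sub_apply, _root_.smul_apply, smul_eq_mul, hv]
    have := hφ.apply_le v
    linarith

/-- Points on a segment between minimisers. -/
lemma IsM.segment (hm : IsM χ₀ ξ y a) (hm' : IsM χ₀ ξ y' a) {s : ℝ} (hs0 : 0 ≤ s) (hs1 : s ≤ 1) :
    IsM χ₀ ξ ((1 - s) • y + s • y') a := by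
  have h1 : χ₀ ((1 - s) • y + s • y') = 1 := by
    rw [map_add, map_smul, map_smul, hm.aff, hm'.aff]
    simp
  refine ⟨h1, ?_, hm.le⟩
  refine le_antisymm ?_ (hm.le _ h1)
  have h2 : ‖(1 - s) • y + s • y'‖ ≤ (1 - s) * ‖y‖ + s * ‖y'‖ := by
    refine (norm_add_le _ _).trans ?_
    rw [norm_smul, norm_smul, Real.norm_of_nonneg hs0, Real.norm_of_nonneg (by linarith)]
  rw [map_add, map_smul, map_smul, smul_eq_mul, smul_eq_mul]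
  have h3 := hm.val
  have h4 := hm'.val
  nlinarith

section Slice

variable (hx₀ : ‖x₀‖ = 1) (hχ : χ₀ x₀ = 1)
include hx₀ hχ

lemma IsM.val_le (hξ0 : ξ x₀ = 0) (hm : IsM χ₀ ξ y a) : a ≤ 1 := by
  have h1 := hm.le x₀ hχ
  rw [hx₀, hξ0] at h1
  linarith

lemma IsM.abs_val (hξ0 : ξ x₀ = 0) (hm : IsM χ₀ ξ y a) : |a| ≤ 1 := by
  have h1 := functional_le _ hm.norming.le (x := x₀)
  simp only [_root_.add_apply, _root_.smul_apply, smul_eq_mul, hχ, hξ0, mul_one, zero_add,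
    hx₀] at h1
  exact h1

lemma IsM.bound (hξ0 : ξ x₀ = 0) {θ : ℝ} (hb : ∀ w, χ₀ w = 0 → ξ w ≤ θ * ‖w‖)
    (hm : IsM χ₀ ξ y a) : (1 - θ) * ‖y - x₀‖ ≤ 2 := by
  have h1 := hm.val_le hx₀ hχ hξ0
  have h2 := hb (y - x₀) (by rw [map_sub, hm.aff, hχ, sub_self])
  rw [map_sub, hξ0, sub_zero] at h2
  have h3 : ‖y - x₀‖ ≤ ‖y‖ + 1 := by
    have := norm_sub_le y x₀
    rwa [hx₀] at this
  have h4 := hm.val
  nlinarith

variable [FiniteDimensional ℝ E]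

/-- Existence of minimisers. -/
theorem exists_isM (hξ0 : ξ x₀ = 0) {θ : ℝ} (hθ : θ < 1) (hb : ∀ w, χ₀ w = 0 → ξ w ≤ θ * ‖w‖) :
    ∃ y a, IsM χ₀ ξ y a := by
  obtain ⟨R, hR⟩ : ∃ R, R = 3 / (1 - θ) := ⟨_, rfl⟩
  have h1θ : 0 < 1 - θ := by linarith
  have hR0 : 0 < R := by
    rw [hR]
    positivity
  let K : Set E := closedBall x₀ R ∩ {v | χ₀ v = 1}
  have hKc : IsCompact K :=
    (isCompact_closedBall x₀ R).inter_right
      (isClosed_eq χ₀.continuous continuous_const)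
  have hKne : K.Nonempty := ⟨x₀, mem_closedBall_self hR0.le, hχ⟩
  have hcont : ContinuousOn (fun v : E => ‖v‖ - ξ v) K := by
    refine Continuous.continuousOn ?_
    fun_prop
  obtain ⟨y, hyK, hmin⟩ := hKc.exists_isMinOn hKne hcont
  have hyaff : χ₀ y = 1 := hyK.2
  have hyval : ‖y‖ - ξ y ≤ 1 := by
    have h1 : (fun v : E => ‖v‖ - ξ v) y ≤ (fun v : E => ‖v‖ - ξ v) x₀ :=
      hmin ⟨mem_closedBall_self hR0.le, hχ⟩
    simpa [hx₀, hξ0] using h1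
  refine ⟨y, _, hyaff, rfl, fun v hv => ?_⟩
  by_cases hvK : ‖v - x₀‖ ≤ R
  · exact hmin ⟨by rwa [mem_closedBall, dist_eq_norm], hv⟩
  · push Not at hvK
    have hd : χ₀ (v - x₀) = 0 := by
      rw [map_sub, hv, hχ, sub_self]
    have h2 := hb _ hd
    rw [map_sub, hξ0, sub_zero] at h2
    have h3 : ‖v - x₀‖ ≤ ‖v‖ + 1 := by
      have := norm_sub_le v x₀
      rwa [hx₀] at this
    have h4 : (1 - θ) * R < (1 - θ) * ‖v - x₀‖ := mul_lt_mul_of_pos_left hvK h1θ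
    have h5 : (1 - θ) * R = 3 := by
      rw [hR]
      field_simp
    nlinarith

/-- Upper semicontinuity of the set of minimisers. -/
theorem IsM.usc (hξ0 : ξ x₀ = 0) {θ : ℝ} (hθ : θ < 1) (hb : ∀ w, χ₀ w = 0 → ξ w ≤ θ * ‖w‖)
    {δ : ℝ} (hδ : 0 < δ) : ∃ η : ℝ, 0 < η ∧ ∀ ξ' y' a', ‖ξ' - ξ‖ < η → ξ' x₀ = 0 → IsM χ₀ ξ' y' a' →
      ∃ y a, IsM χ₀ ξ y a ∧ ‖y' - y‖ < δ := by
  by_contra hcon
  push Not at hcon
  have hhalf : 0 < (1 - θ) / 2 := by linarith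
  obtain ⟨θ', hθ'⟩ : ∃ θ', θ' = (1 + θ) / 2 := ⟨_, rfl⟩
  have hex : ∀ n : ℕ, ∃ ξ' y' a', ‖ξ' - ξ‖ < min ((1 - θ) / 2) (1 / ((n : ℝ) + 1)) ∧ ξ' x₀ = 0 ∧
      IsM χ₀ ξ' y' a' ∧ ∀ y a, IsM χ₀ ξ y a → δ ≤ ‖y' - y‖ := by
    intro n
    exact hcon _ (by positivity)
  choose ξn yn an h1 h2 h3 h4 using hex
  have hξlim : Tendsto ξn atTop (𝓝 ξ) := by
    rw [tendsto_iff_norm_sub_tendsto_zero]
    refine squeeze_zero (fun n => norm_nonneg _) (fun n => ((h1 n).trans_le (min_le_right _ _)).le) ?_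
    exact tendsto_one_div_add_atTop_nhds_zero_nat
  have hbn : ∀ n w, χ₀ w = 0 → ξn n w ≤ θ' * ‖w‖ := by
    intro n w hw
    have h5 := hb w hw
    have h6 : ξn n w = ξ w + (ξn n - ξ) w := by
      simp
    have h7 : (ξn n - ξ) w ≤ ‖ξn n - ξ‖ * ‖w‖ := (le_abs_self _).trans ((ξn n - ξ).le_opNorm w)
    have h8 : ‖ξn n - ξ‖ * ‖w‖ ≤ (1 - θ) / 2 * ‖w‖ :=
      mul_le_mul_of_nonneg_right ((h1 n).trans_le (min_le_left _ _)).le (norm_nonneg _)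
    rw [h6, hθ']
    nlinarith
  have hbd : ∀ n, (1 - θ') * ‖yn n - x₀‖ ≤ 2 := fun n => (h3 n).bound hx₀ hχ (h2 n) (hbn n)
  have h1θ' : 0 < 1 - θ' := by
    rw [hθ']
    linarith
  have hmem : ∀ n, yn n ∈ closedBall x₀ (2 / (1 - θ')) := by
    intro n
    rw [mem_closedBall, dist_eq_norm, le_div_iff₀ h1θ', mul_comm]
    exact hbd n
  obtain ⟨y₀, -, φ, hφ, hlim⟩ := (isCompact_closedBall x₀ (2 / (1 - θ'))).tendsto_subseq hmem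
  have hξφ : Tendsto (ξn ∘ φ) atTop (𝓝 ξ) := hξlim.comp hφ.tendsto_atTop
  have happ : ∀ v : E, Tendsto (fun n => (ξn ∘ φ) n v) atTop (𝓝 (ξ v)) := by
    intro v
    have hcb : Continuous fun q : StrongDual ℝ E => q v := by fun_prop
    exact (hcb.tendsto ξ).comp hξφ
  have happ2 : Tendsto (fun n => (ξn ∘ φ) n ((yn ∘ φ) n)) atTop (𝓝 (ξ y₀)) := by
    have hcb : Continuous fun q : StrongDual ℝ E × E => q.1 q.2 := by fun_prop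
    exact (hcb.tendsto (ξ, y₀)).comp (hξφ.prodMk_nhds hlim)
  have hval : Tendsto (fun n => ‖(yn ∘ φ) n‖ - (ξn ∘ φ) n ((yn ∘ φ) n)) atTop
      (𝓝 (‖y₀‖ - ξ y₀)) := hlim.norm.sub happ2
  have hy₀ : χ₀ y₀ = 1 := by
    have h5 : Tendsto (fun n => χ₀ ((yn ∘ φ) n)) atTop (𝓝 (χ₀ y₀)) := χ₀.continuous.tendsto _ |>.comp hlim
    refine tendsto_nhds_unique h5 (tendsto_const_nhds.congr fun n => ?_)
    exact ((h3 (φ n)).aff).symm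
  have hM : IsM χ₀ ξ y₀ (‖y₀‖ - ξ y₀) := by
    refine ⟨hy₀, rfl, fun v hv => ?_⟩
    refine le_of_tendsto_of_tendsto hval ((happ v).const_sub ‖v‖) (Eventually.of_forall fun n => ?_)
    simp only [Function.comp_apply]
    rw [(h3 (φ n)).val]
    exact (h3 (φ n)).le v hv
  have h5 : Tendsto (fun n => ‖(yn ∘ φ) n - y₀‖) atTop (𝓝 0) := by
    have := (hlim.sub_const y₀).norm
    simpa using this
  obtain ⟨n, hn⟩ := (h5.eventually (gt_mem_nhds hδ)).exists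
  exact absurd (h4 (φ n) _ _ hM) (not_le.2 hn)

/-- Closeness of minimisers when the minimiser is unique. -/
theorem IsM.close (hξ0 : ξ x₀ = 0) {θ : ℝ} (hθ : θ < 1) (hb : ∀ w, χ₀ w = 0 → ξ w ≤ θ * ‖w‖)
    {y₀ : E} (hu : ∀ y a, IsM χ₀ ξ y a → y = y₀) {δ : ℝ} (hδ : 0 < δ) :
    ∃ η : ℝ, 0 < η ∧ ∀ ξ' y' a', ‖ξ' - ξ‖ < η → ξ' x₀ = 0 → IsM χ₀ ξ' y' a' → ‖y' - y₀‖ < δ := by
  obtain ⟨η, hη, hbd⟩ := IsM.usc hx₀ hχ hξ0 hθ hb hδ
  refine ⟨η, hη, fun ξ' y' a' h1 h2 h3 => ?_⟩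
  obtain ⟨y, a, h4, h5⟩ := hbd ξ' y' a' h1 h2 h3
  rwa [hu y a h4] at h5

end Slice

end Min

section Ray

variable {E : Type*} [NormedAddCommGroup E] [NormedSpace ℝ E]
  {χ₀ ξ₁ : StrongDual ℝ E} {x₀ : E} {y : ℝ → E} {α : ℝ → ℝ}

lemma ray_anti (hm : ∀ τ ∈ Ioo (0 : ℝ) 1, IsM χ₀ (τ • ξ₁) (y τ) (α τ)) (τ₁ τ₂ : ℝ) (h0 : 0 < τ₁)
    (h12 : τ₁ < τ₂) (h2 : τ₂ < 1) : α τ₂ / τ₂ < α τ₁ / τ₁ := by
  have hτ₁ : τ₁ ∈ Ioo (0 : ℝ) 1 := ⟨h0, h12.trans h2⟩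
  have hτ₂ : τ₂ ∈ Ioo (0 : ℝ) 1 := ⟨h0.trans h12, h2⟩
  have h3 := (hm τ₂ hτ₂).le _ (hm τ₁ hτ₁).aff
  have h4 := (hm τ₁ hτ₁).val
  have h5 := (hm τ₁ hτ₁).norm_pos
  simp only [_root_.smul_apply, smul_eq_mul] at h3 h4
  have hτ₂0 : 0 < τ₂ := hτ₂.1
  rw [div_lt_div_iff₀ hτ₂0 h0]
  have e : α τ₁ * τ₂ = (‖y τ₁‖ - τ₁ * ξ₁ (y τ₁)) * τ₂ := by rw [h4]
  rw [e]
  have h6 : α τ₂ * τ₁ ≤ (‖y τ₁‖ - τ₂ * ξ₁ (y τ₁)) * τ₁ := mul_le_mul_of_nonneg_right h3 h0.le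
  nlinarith

variable [FiniteDimensional ℝ E]

lemma ray_cont (hx₀ : ‖x₀‖ = 1) (hχ : χ₀ x₀ = 1) (hξ : ξ₁ x₀ = 0)
    (hb : ∀ w, χ₀ w = 0 → ξ₁ w ≤ ‖w‖) (hm : ∀ τ ∈ Ioo (0 : ℝ) 1, IsM χ₀ (τ • ξ₁) (y τ) (α τ)) :
    ContinuousOn α (Ioo 0 1) := by
  intro τ₀ hτ₀
  refine ContinuousAt.continuousWithinAt ?_
  obtain ⟨b, hbd⟩ : ∃ b, b = (1 + τ₀) / 2 := ⟨_, rfl⟩
  have hb1 : b < 1 := by
    rw [hbd]
    linarith [hτ₀.2]
  have hb0 : τ₀ < b := by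
    rw [hbd]
    linarith [hτ₀.2]
  obtain ⟨M, hM⟩ : ∃ M, M = ‖ξ₁‖ * (1 + 2 / (1 - b)) + 1 := ⟨_, rfl⟩
  have hb1' : 0 < 1 - b := by linarith
  have hM0 : 0 < M := by
    rw [hM]
    positivity
  have hbound : ∀ τ ∈ Ioo (0 : ℝ) b, |ξ₁ (y τ)| ≤ M := by
    intro τ hτ
    have hτ' : τ ∈ Ioo (0 : ℝ) 1 := ⟨hτ.1, hτ.2.trans hb1⟩
    have h1 := (hm τ hτ').bound hx₀ hχ (by simp [hξ]) (θ := τ) (fun w hw => by
      simp only [_root_.smul_apply, smul_eq_mul]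
      exact mul_le_mul_of_nonneg_left (hb w hw) hτ.1.le)
    have h2 : (1 - b) * ‖y τ - x₀‖ ≤ 2 := by
      refine le_trans ?_ h1
      exact mul_le_mul_of_nonneg_right (by linarith [hτ.2]) (norm_nonneg _)
    have h3 : ‖y τ - x₀‖ ≤ 2 / (1 - b) := by
      rw [le_div_iff₀ hb1']
      linarith
    have h4 : ‖y τ‖ ≤ 1 + 2 / (1 - b) := by
      have e : y τ = x₀ + (y τ - x₀) := by abel
      rw [e]
      refine (norm_add_le _ _).trans ?_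
      rw [hx₀]
      linarith
    have h5 := ξ₁.le_opNorm (y τ)
    rw [Real.norm_eq_abs] at h5
    refine h5.trans ?_
    rw [hM]
    have := mul_le_mul_of_nonneg_left h4 (norm_nonneg ξ₁)
    linarith
  have hlip : ∀ τ ∈ Ioo (0 : ℝ) b, ∀ τ' ∈ Ioo (0 : ℝ) b, |α τ' - α τ| ≤ M * |τ' - τ| := by
    have key : ∀ τ ∈ Ioo (0 : ℝ) b, ∀ τ' ∈ Ioo (0 : ℝ) b, α τ' - α τ ≤ M * |τ' - τ| := by
      intro τ hτ τ' hτ'
      have h1 : τ ∈ Ioo (0 : ℝ) 1 := ⟨hτ.1, hτ.2.trans hb1⟩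
      have h2 : τ' ∈ Ioo (0 : ℝ) 1 := ⟨hτ'.1, hτ'.2.trans hb1⟩
      have h3 := (hm τ' h2).le _ (hm τ h1).aff
      have h4 := (hm τ h1).val
      simp only [_root_.smul_apply, smul_eq_mul] at h3 h4
      have h5 : (τ - τ') * ξ₁ (y τ) ≤ |τ - τ'| * |ξ₁ (y τ)| := by
        rw [← abs_mul]
        exact le_abs_self _
      have h6 : |τ - τ'| * |ξ₁ (y τ)| ≤ |τ - τ'| * M :=
        mul_le_mul_of_nonneg_left (hbound τ hτ) (abs_nonneg _)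
      rw [abs_sub_comm τ τ'] at h5 h6
      nlinarith
    intro τ hτ τ' hτ'
    rw [abs_le]
    constructor
    · have := key τ' hτ' τ hτ
      rw [abs_sub_comm] at this
      linarith
    · exact key τ hτ τ' hτ'
  rw [Metric.continuousAt_iff]
  intro ε hε
  refine ⟨min (min τ₀ (b - τ₀)) (ε / M), lt_min (lt_min hτ₀.1 (by linarith)) (by positivity),
    fun {τ} hτ => ?_⟩
  rw [Real.dist_eq] at hτ ⊢
  have h1 : |τ - τ₀| < τ₀ := hτ.trans_le ((min_le_left _ _).trans (min_le_left _ _))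
  have h2 : |τ - τ₀| < b - τ₀ := hτ.trans_le ((min_le_left _ _).trans (min_le_right _ _))
  have h3 : |τ - τ₀| * M < ε := by
    have := hτ.trans_le (min_le_right _ _)
    rwa [lt_div_iff₀ hM0] at this
  have h4 := abs_lt.1 h1
  have h5 := abs_lt.1 h2
  have hI : τ ∈ Ioo (0 : ℝ) b := ⟨by linarith [h4.1], by linarith [h5.2]⟩
  have h6 := hlip τ₀ ⟨hτ₀.1, hb0⟩ τ hI
  nlinarith

/-- The value near zero. -/
lemma ray_zero (hx₀ : ‖x₀‖ = 1) (hχ : χ₀ x₀ = 1) (hχle : ∀ v, χ₀ v ≤ ‖v‖) (hξ : ξ₁ x₀ = 0)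
    (hexp : ∀ v, ‖v‖ = 1 → χ₀ v = 1 → v = x₀)
    (hm : ∀ τ ∈ Ioo (0 : ℝ) 1, IsM χ₀ (τ • ξ₁) (y τ) (α τ)) :
    Tendsto (fun τ : ℝ => (α τ - 1) / τ) (𝓝[>] 0) (𝓝 0) := by
  rw [Metric.tendsto_nhds]
  intro ε hε
  have hu : ∀ y' a', IsM χ₀ (0 : StrongDual ℝ E) y' a' → y' = x₀ := by
    intro y' a' h
    have h1 := h.val
    simp only [_root_.zero_apply, sub_zero] at h1
    have h2 := h.le x₀ hχ
    simp only [_root_.zero_apply, sub_zero, hx₀] at h2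
    have h3 := hχle y'
    rw [h.aff] at h3
    exact hexp y' (by linarith) h.aff
  obtain ⟨η, hη, hb⟩ := IsM.close (ξ := (0 : StrongDual ℝ E)) hx₀ hχ (by simp) (θ := 0) zero_lt_one
    (fun w _ => by simp) hu (δ := ε / (2 * (‖ξ₁‖ + 1))) (by positivity)
  have hτs : ∀ᶠ τ : ℝ in 𝓝[>] 0, τ ∈ Ioo (0 : ℝ) 1 ∧ τ * (‖ξ₁‖ + 1) < η := by
    have h1 : ∀ᶠ τ : ℝ in 𝓝[>] 0, τ ∈ Ioo (0 : ℝ) 1 := Ioo_mem_nhdsGT one_pos
    have h2 : ∀ᶠ τ : ℝ in 𝓝 0, τ * (‖ξ₁‖ + 1) < η := by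
      have hc : Continuous fun τ : ℝ => τ * (‖ξ₁‖ + 1) := by fun_prop
      exact hc.continuousAt.eventually (gt_mem_nhds (by simpa using hη))
    exact h1.and (h2.filter_mono nhdsWithin_le_nhds)
  filter_upwards [hτs] with τ hτs
  obtain ⟨hτ, hτη⟩ := hτs
  have hy := hb (τ • ξ₁) (y τ) (α τ) (by
    rw [sub_zero, norm_smul, Real.norm_of_nonneg hτ.1.le]
    nlinarith [norm_nonneg ξ₁, hτ.1]) (by simp [hξ]) (hm τ hτ)
  have h1 := (hm τ hτ).val_le hx₀ hχ (by simp [hξ])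
  have h2 := (hm τ hτ).val
  have h3 := hχle (y τ)
  rw [(hm τ hτ).aff] at h3
  simp only [_root_.smul_apply, smul_eq_mul] at h2
  have h4 : ξ₁ (y τ) = ξ₁ (y τ - x₀) := by rw [map_sub, hξ, sub_zero]
  have h5 : |ξ₁ (y τ - x₀)| ≤ ‖ξ₁‖ * ‖y τ - x₀‖ := ξ₁.le_opNorm _
  have h6 : ‖ξ₁‖ * ‖y τ - x₀‖ ≤ ε / 2 := by
    have h7 : ‖y τ - x₀‖ * (2 * (‖ξ₁‖ + 1)) ≤ ε := by
      have := hy.le
      rwa [le_div_iff₀ (by positivity)] at this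
    nlinarith [norm_nonneg ξ₁, norm_nonneg (y τ - x₀)]
  rw [Real.dist_eq, sub_zero, abs_of_nonpos (div_nonpos_of_nonpos_of_nonneg (by linarith) hτ.1.le)]
  have e : -((α τ - 1) / τ) = (1 - α τ) / τ := by ring
  rw [e, div_lt_iff₀ hτ.1]
  have h8 := (abs_le.1 h5).2
  rw [← h4] at h8
  have h9 : τ * ξ₁ (y τ) ≤ τ * (ε / 2) := mul_le_mul_of_nonneg_left (h8.trans h6) hτ.1.le
  nlinarith [hτ.1]

end Ray

end Vale.Agent.Lib.P084.Gen
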