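import Mathlib
import Vale.Agent.Lib.P084.Gen.Min

/-! A second order base point, for an arbitrary norm: chords, the key lemma, the local inequality. -/

namespace Vale.Agent.Lib.P084.Gen

open Set Metric Filter Topology
open Vale.Agent.Lib.P084

section Pt

variable {X Y : Type*} [NormedAddCommGroup X] [NormedSpace ℝ X]
  [NormedAddCommGroup Y] [NormedSpace ℝ Y] {g : X → Y} {h : Y → X} {x₀ : X} {A : X →L[ℝ] Y}
  {χ₀ : StrongDual ℝ X}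

/-- Rays from `x₀` in the direction of the slice enter the open ball. -/
lemma Pre.near_lt (B : Pre g h x₀ A χ₀) {y : X} (hy : χ₀ y = 1) :
    ∀ᶠ c in 𝓝[>] (0 : ℝ), ‖x₀ - c • y‖ < 1 := by
  have hl : HasDerivAt (fun c : ℝ => x₀ - c • y) (-y) 0 := by
    simpa using ((hasDerivAt_id (0 : ℝ)).smul_const y).const_sub x₀
  have hn : HasDerivAt (fun c : ℝ => ‖x₀ - c • y‖) (χ₀ (-y)) 0 :=
    HasFDerivAt.comp_hasDerivAt_of_eq (0 : ℝ) B.der hl (by simp)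
  rw [map_neg, hy] at hn
  have h1 := Asymptotics.isLittleO_iff.1 (hasDerivAt_iff_isLittleO_nhds_zero.1 hn)
    (show (0 : ℝ) < 1 / 2 by norm_num)
  filter_upwards [h1.filter_mono nhdsWithin_le_nhds, self_mem_nhdsWithin] with c hc hc0
  have hc0' : (0 : ℝ) < c := hc0
  simp only [zero_add, zero_smul, sub_zero, B.unit, smul_eq_mul, Real.norm_eq_abs,
    abs_of_pos hc0'] at hc
  have := (abs_le.1 hc).2
  nlinarith

/-- A ray in the direction of a vector of the slice leaves the ball. -/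
lemma Pre.exit (B : Pre g h x₀ A χ₀) {y : X} (hy : χ₀ y = 1) :
    ∃ t : ℝ, 0 < t ∧ ‖x₀ - t • y‖ = 1 := by
  obtain ⟨r, hr, hr0⟩ := ((B.near_lt hy).and self_mem_nhdsWithin).exists
  obtain ⟨s, hs1, hs2, _⟩ := Far.exit_of_mem B.unit hr0 hr
  exact ⟨s, lt_trans hr0 hs1, hs2⟩

/-- The point of the sphere on a line parallel to a vector of the slice. -/
lemma Pre.exists_point (B : Pre g h x₀ A χ₀) {y d : X} (hy : χ₀ y = 1) (hd : χ₀ d = 0) {c₁ : ℝ}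
    (hc : 0 ≤ c₁) (hlt : ‖x₀ + d - c₁ • y‖ ≤ 1) :
    ∃ c, 0 ≤ c ∧ c ≤ c₁ ∧ ‖x₀ + d - c • y‖ = 1 := by
  have hcont : ContinuousOn (fun c : ℝ => ‖x₀ + d - c • y‖) (Icc 0 c₁) := by
    refine Continuous.continuousOn ?_
    fun_prop
  have h1 : (1 : ℝ) ≤ ‖x₀ + d - (0 : ℝ) • y‖ := by
    have := B.chi_le (x₀ + d)
    rw [map_add, B.self, hd, add_zero] at this
    simpa using this
  obtain ⟨c, hc1, hc2⟩ := intermediate_value_Icc' hc hcont ⟨hlt, h1⟩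
  exact ⟨c, hc1.1, hc1.2, hc2⟩

end Pt

section Bas

variable {X Y : Type*} [NormedAddCommGroup X] [NormedSpace ℝ X]
  [NormedAddCommGroup Y] [NormedSpace ℝ Y]

/-- A second order base point. -/
structure Bas (g : X → Y) (h : Y → X) (x₀ : X) (A : X →L[ℝ] Y) (Λ : Y →L[ℝ] X)
    (χ₀ : StrongDual ℝ X) : Prop extends Fst g h x₀ A Λ χ₀ where
  b1 : ∀ ε : ℝ, 0 < ε → ∀ᶠ y in 𝓝 x₀, ‖y‖ = 1 → ‖g y - A y‖ ≤ ε * ‖y - x₀‖ ^ 2
  b2 : ∃ c : ℝ, 0 < c ∧ ∀ᶠ y in 𝓝 x₀, ‖y‖ = 1 → c * ‖y - x₀‖ ^ 2 ≤ 1 - χ₀ y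

variable {g : X → Y} {h : Y → X} {x₀ : X} {A : X →L[ℝ] Y} {Λ : Y →L[ℝ] X} {χ₀ : StrongDual ℝ X}

/-- The inverse map at the image point is again a base point. -/
lemma Bas.symm [FiniteDimensional ℝ Y] (B : Bas g h x₀ A Λ χ₀) :
    Bas h g (g x₀) Λ A (χ₀.comp Λ) := by
  refine { toFst := B.toFst.symm, b1 := ?_, b2 := ?_ }
  · intro ε hε
    obtain ⟨δ, hδ, hb⟩ := Metric.eventually_nhds_iff.1 (B.b1 (ε / (‖Λ‖ + 1)) (by positivity))
    refine Metric.eventually_nhds_iff.2 ⟨δ, hδ, fun {y'} hy' hy'1 => ?_⟩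
    have hx1 : ‖h y'‖ = 1 := B.iso.map_h _ hy'1
    have hgy : g (h y') = y' := B.iso.right _ hy'1
    have hd : ‖h y' - x₀‖ = ‖y' - g x₀‖ := by
      have := B.iso.iso _ _ hx1 B.unit
      rw [hgy] at this
      exact this.symm
    rw [dist_eq_norm, ← hd] at hy'
    have h2 := @hb (h y') (by rwa [dist_eq_norm]) hx1
    rw [hgy] at h2
    have e : h y' - Λ y' = -Λ (y' - A (h y')) := by
      rw [map_sub, B.left]
      abel
    rw [e, norm_neg, ← hd]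
    refine (Λ.le_opNorm _).trans ?_
    have h3 : ‖Λ‖ * ‖y' - A (h y')‖ ≤ (‖Λ‖ + 1) * (ε / (‖Λ‖ + 1) * ‖h y' - x₀‖ ^ 2) :=
      mul_le_mul (by linarith) h2 (norm_nonneg _) (by positivity)
    have h4 : (‖Λ‖ + 1) * (ε / (‖Λ‖ + 1) * ‖h y' - x₀‖ ^ 2) = ε * ‖h y' - x₀‖ ^ 2 := by
      field_simp
    linarith
  · obtain ⟨c, hc, hcb⟩ := B.b2
    obtain ⟨δ₁, hδ₁, hb₁⟩ := Metric.eventually_nhds_iff.1 hcb
    obtain ⟨δ₂, hδ₂, hb₂⟩ := Metric.eventually_nhds_iff.1 (B.b1 (c / 2) (by positivity))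
    refine ⟨c / 2, by positivity, Metric.eventually_nhds_iff.2
      ⟨min δ₁ δ₂, lt_min hδ₁ hδ₂, fun {y'} hy' hy'1 => ?_⟩⟩
    have hx1 : ‖h y'‖ = 1 := B.iso.map_h _ hy'1
    have hgy : g (h y') = y' := B.iso.right _ hy'1
    have hd : ‖h y' - x₀‖ = ‖y' - g x₀‖ := by
      have := B.iso.iso _ _ hx1 B.unit
      rw [hgy] at this
      exact this.symm
    rw [dist_eq_norm, ← hd] at hy'
    have h1 := @hb₁ (h y') (by rw [dist_eq_norm]; exact hy'.trans_le (min_le_left _ _)) hx1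
    have h2 := @hb₂ (h y') (by rw [dist_eq_norm]; exact hy'.trans_le (min_le_right _ _)) hx1
    rw [hgy] at h2
    rw [← hd]
    have h3 : (χ₀.comp Λ) y' = χ₀ (h y') + (χ₀.comp Λ) (y' - A (h y')) := by
      rw [map_sub, B.comp_A]
      ring
    have h4 := B.norming'.abs_le (y' - A (h y'))
    have h5 := (abs_le.1 h4).2
    rw [h3]
    have h6 : c / 2 * ‖h y' - x₀‖ ^ 2 + c / 2 * ‖h y' - x₀‖ ^ 2 = c * ‖h y' - x₀‖ ^ 2 := by ring
    linarith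

/-- The base point is exposed. -/
lemma Bas.exposed (B : Bas g h x₀ A Λ χ₀) {v : X} (hv : ‖v‖ = 1) (hχ : χ₀ v = 1) : v = x₀ := by
  obtain ⟨c, hc, hcb⟩ := B.b2
  obtain ⟨ρ, hρ, hb⟩ := Metric.eventually_nhds_iff.1 hcb
  obtain ⟨s, hs⟩ : ∃ s, s = min (1 / 2 : ℝ) (ρ / (2 * (‖v - x₀‖ + 1))) := ⟨_, rfl⟩
  have hs0 : 0 < s := by
    rw [hs]
    positivity
  have hs1 : s ≤ 1 / 2 := hs ▸ min_le_left _ _
  have hs2 : s * (2 * (‖v - x₀‖ + 1)) ≤ ρ := by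
    have : s ≤ ρ / (2 * (‖v - x₀‖ + 1)) := hs ▸ min_le_right _ _
    rwa [le_div_iff₀ (by positivity)] at this
  obtain ⟨y, hy⟩ : ∃ y, y = x₀ + s • (v - x₀) := ⟨_, rfl⟩
  have hyχ : χ₀ y = 1 := by
    rw [hy, map_add, map_smul, map_sub, hχ, B.self]
    simp
  have hy1 : ‖y‖ = 1 := by
    refine le_antisymm ?_ ?_
    · have e : y = (1 - s) • x₀ + s • v := by
        rw [hy]
        module
      rw [e]
      refine (norm_add_le _ _).trans ?_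
      rw [norm_smul, norm_smul, hv, B.unit, Real.norm_of_nonneg hs0.le,
        Real.norm_of_nonneg (by linarith)]
      linarith
    · have := B.chi_le y
      rwa [hyχ] at this
  have hd : ‖y - x₀‖ = s * ‖v - x₀‖ := by
    rw [hy, add_sub_cancel_left, norm_smul, Real.norm_of_nonneg hs0.le]
  have h1 := @hb y (by
    rw [dist_eq_norm, hd]
    have : 0 ≤ s * ‖v - x₀‖ := by positivity
    nlinarith) hy1
  rw [hyχ, sub_self, hd] at h1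
  have h2 : 0 ≤ c * (s * ‖v - x₀‖) ^ 2 := by positivity
  have h3 : (s * ‖v - x₀‖) ^ 2 = 0 := by
    have : c * (s * ‖v - x₀‖) ^ 2 = 0 := le_antisymm h1 h2
    exact (mul_eq_zero.1 this).resolve_left hc.ne'
  have h4 : ‖v - x₀‖ = 0 := by
    have := pow_eq_zero_iff (two_ne_zero) |>.1 h3
    exact (mul_eq_zero.1 this).resolve_left hs0.ne'
  exact sub_eq_zero.1 (norm_eq_zero.1 h4)

variable [FiniteDimensional ℝ X] [FiniteDimensional ℝ Y]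

/-- A chord in the direction of a minimiser produces a minimiser of the transported problem. -/
theorem Bas.chord (B : Bas g h x₀ A Λ χ₀) {ξ : StrongDual ℝ X} {y : X} {a : ℝ}
    (hm : IsM χ₀ ξ y a) {t : ℝ} (ht : 0 < t) {u : X} (hu : ‖u‖ = 1) (hut : x₀ - u = t • y) :
    u ≠ x₀ ∧ ∃ (t₂ b : ℝ) (y₂ : Y), 0 < t₂ ∧ g x₀ - g u = t₂ • y₂ ∧
      IsM (χ₀.comp Λ) (ξ.comp Λ) y₂ b := by
  have hne : u ≠ x₀ := by
    rintro rfl
    rw [sub_self] at hut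
    exact (smul_ne_zero ht.ne' hm.ne_zero) hut.symm
  refine ⟨hne, ?_⟩
  have hgu : ‖g u‖ = 1 := B.iso.map_g _ hu
  have hguy : g u ≠ g x₀ := by
    intro hc
    have := congrArg h hc
    rw [B.iso.left _ hu, B.iso.left _ B.unit] at this
    exact hne this
  obtain ⟨Z, hZ⟩ : ∃ Z, Z = g x₀ - g u := ⟨_, rfl⟩
  rw [← hZ]
  obtain ⟨t₂, ht₂⟩ : ∃ t₂, t₂ = (χ₀.comp Λ) Z := ⟨_, rfl⟩
  have ht₂0 : 0 < t₂ := by
    have h1 : (χ₀.comp Λ) (g u) ≠ 1 := fun hc => hguy (B.symm.exposed hgu hc)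
    have h2 := B.norming'.apply_le (g u)
    rw [hgu] at h2
    have h3 := lt_of_le_of_ne h2 h1
    rw [ht₂, hZ, map_sub, B.self']
    linarith
  have hsupp : ∀ v, χ₀ v = 0 → ‖x₀ - u‖ + ξ v ≤ ‖x₀ - u + v‖ := by
    intro v hv
    rw [hut]
    have h1 := hm.support (v := t⁻¹ • v) (by rw [map_smul, hv]; simp)
    have h2 := mul_le_mul_of_nonneg_left h1 ht.le
    rw [map_smul, smul_eq_mul] at h2
    have e : t • y + v = t • (y + t⁻¹ • v) := by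
      rw [smul_add, smul_smul, mul_inv_cancel₀ ht.ne', one_smul]
    rw [e, norm_smul, norm_smul, Real.norm_of_nonneg ht.le]
    have e2 : t * (‖y‖ + t⁻¹ * ξ v) = t * ‖y‖ + ξ v := by
      field_simp
    linarith
  have hZsupp : ∀ v, χ₀ v = 0 → ‖Z‖ + ξ v ≤ ‖Z + A v‖ := by
    intro v hv
    rw [hZ]
    exact B.tan_transfer hu hsupp hv
  refine ⟨t₂, _, t₂⁻¹ • Z, ht₂0, ?_, IsM.of_support ?_ fun V hV => ?_⟩
  · rw [smul_smul, mul_inv_cancel₀ ht₂0.ne', one_smul]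
  · rw [map_smul, ← ht₂, smul_eq_mul, inv_mul_cancel₀ ht₂0.ne']
  · obtain ⟨v, hv⟩ : ∃ v, v = Λ V := ⟨_, rfl⟩
    have hV2 : V = A v := by rw [hv, B.right]
    have hv0 : χ₀ v = 0 := by
      rw [hv]
      exact hV
    have h1 := hZsupp (t₂ • v) (by rw [map_smul, hv0]; simp)
    rw [map_smul, map_smul, smul_eq_mul] at h1
    have e : t₂⁻¹ • Z + V = t₂⁻¹ • (Z + t₂ • A v) := by
      rw [smul_add, smul_smul, inv_mul_cancel₀ ht₂0.ne', one_smul, hV2]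
    rw [e, norm_smul, norm_smul, norm_inv, Real.norm_of_nonneg ht₂0.le]
    have h2 := mul_le_mul_of_nonneg_left h1 (inv_pos.2 ht₂0).le
    have e2 : t₂⁻¹ * (‖Z‖ + t₂ * ξ v) = t₂⁻¹ * ‖Z‖ + ξ v := by
      field_simp
    rw [e2] at h2
    have e3 : (ξ.comp Λ) V = ξ v := by
      simp [hv]
    rw [e3]
    exact h2

/-- The estimate at a point of the sphere close to the base point. -/
lemma Bas.core (B : Bas g h x₀ A Λ χ₀) {φ : StrongDual ℝ Y} (hφ : ‖φ‖ ≤ 1) {p u : X} (hp : ‖p‖ = 1)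
    (hu : ‖u‖ = 1) : φ (g x₀ - g u) + φ (A (p - x₀)) + φ (g p - A p) ≤ ‖p - u‖ := by
  have h1 := Far.fle φ hφ (g p - g u)
  rw [B.iso.iso _ _ hp hu] at h1
  have e : g p - g u = (g x₀ - g u) + A (p - x₀) + (g p - A p) := by
    rw [map_sub, B.Ax]
    abel
  rw [e, map_add, map_add] at h1
  exact h1

/-- A point of the sphere on a line parallel to the slice direction, with the second order
estimates. -/
lemma Bas.point_est (B : Bas g h x₀ A Λ χ₀) {c₀ κ ρ : ℝ} (hc₀ : 0 < c₀) (hκ : 0 ≤ κ)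
    (hb : ∀ y : X, ‖y - x₀‖ < ρ → ‖y‖ = 1 →
      c₀ * ‖y - x₀‖ ^ 2 ≤ 1 - χ₀ y ∧ ‖g y - A y‖ ≤ c₀ * κ * ‖y - x₀‖ ^ 2)
    {y d : X} (hy : χ₀ y = 1) (hd : χ₀ d = 0) {c₁ : ℝ} (hc₁ : 0 ≤ c₁)
    (hlt : ‖x₀ + d - c₁ • y‖ ≤ 1) (hρ : ‖d‖ + c₁ * ‖y‖ < ρ) :
    ∃ c, 0 ≤ c ∧ c ≤ c₁ ∧ ‖x₀ + d - c • y‖ = 1 ∧ c₀ * ‖d - c • y‖ ^ 2 ≤ c ∧
      ‖g (x₀ + d - c • y) - A (x₀ + d - c • y)‖ ≤ c * κ := by
  obtain ⟨c, hc0, hc1, hc2⟩ := B.exists_point hy hd hc₁ hlt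
  refine ⟨c, hc0, hc1, hc2, ?_⟩
  obtain ⟨p, hp⟩ : ∃ p, p = x₀ + d - c • y := ⟨_, rfl⟩
  rw [← hp] at hc2 ⊢
  have hpx : p - x₀ = d - c • y := by
    rw [hp]
    abel
  have hpn : ‖p - x₀‖ < ρ := by
    rw [hpx]
    refine (norm_sub_le _ _).trans_lt ?_
    rw [norm_smul, Real.norm_of_nonneg hc0]
    have h5 : c * ‖y‖ ≤ c₁ * ‖y‖ := mul_le_mul_of_nonneg_right hc1 (norm_nonneg _)
    linarith
  obtain ⟨h5, h6⟩ := hb p hpn hc2
  have hχp : χ₀ p = 1 - c := by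
    rw [hp, map_sub, map_add, map_smul, hd, B.self, hy]
    simp
  rw [hχp] at h5
  rw [← hpx]
  have h9 : c₀ * ‖p - x₀‖ ^ 2 ≤ c := by linarith
  refine ⟨h9, h6.trans ?_⟩
  have := mul_le_mul_of_nonneg_right h9 hκ
  nlinarith

/-- The basic inequality for a point on the line through the minimiser. -/
lemma Bas.basic_ineq (B : Bas g h x₀ A Λ χ₀) {ξ : StrongDual ℝ X} {y : X} {a : ℝ} {b κ c t : ℝ}
    (hm : IsM χ₀ ξ y a) {u p : X} {φ : StrongDual ℝ Y} (hφle : ‖φ‖ ≤ 1)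
    (hφA : ∀ v, φ (A v) = ξ v + b * χ₀ v) (hu : ‖u‖ = 1) (hφZ : φ (g x₀ - g u) = t * ‖y‖)
    {d : X} (hd : χ₀ d = 0) (hpd : p = x₀ + d - c • y) (hp : ‖p‖ = 1)
    (hpu : ‖p - u‖ = (t - c) * ‖y‖ + ξ d) (hR : ‖g p - A p‖ ≤ c * κ) :
    c * (a - b) ≤ c * κ := by
  have hcore := B.core hφle hp hu
  rw [hφZ, hpu] at hcore
  have e1 : p - x₀ = d - c • y := by
    rw [hpd]
    abel
  have e2 : φ (A (p - x₀)) = ξ d - c * ξ y - c * b := by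
    rw [hφA, e1, map_sub, map_sub, map_smul, map_smul, hd, hm.aff]
    simp only [smul_eq_mul]
    ring
  rw [e2] at hcore
  have e3 := (abs_le.1 (functional_le φ hφle (x := g p - A p))).1
  have hval := hm.val
  have e4 : c * (a - b) = c * (‖y‖ - ξ y - b) := by
    rw [← hval]
  rw [e4]
  nlinarith

/-- **Key lemma.** If the value of the second problem is smaller, the minimiser of the first one
is unique. -/
theorem Bas.key (B : Bas g h x₀ A Λ χ₀) {ξ : StrongDual ℝ X} {y₁ y₂ : X} {a : ℝ}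
    (h1 : IsM χ₀ ξ y₁ a) (h2 : IsM χ₀ ξ y₂ a) (hne : y₁ ≠ y₂) {Y' : Y} {b : ℝ}
    (h3 : IsM (χ₀.comp Λ) (ξ.comp Λ) Y' b) : a ≤ b := by
  obtain ⟨c₀, hc₀, hcb⟩ := B.b2
  obtain ⟨y, hy⟩ : ∃ y, y = (1 / 2 : ℝ) • y₁ + (1 / 2 : ℝ) • y₂ := ⟨_, rfl⟩
  obtain ⟨e, he⟩ : ∃ e, e = (1 / 2 : ℝ) • (y₂ - y₁) := ⟨_, rfl⟩
  have he0 : e ≠ 0 := by
    rw [he]
    exact smul_ne_zero (by norm_num) (sub_ne_zero.2 hne.symm)
  have heχ : χ₀ e = 0 := by
    rw [he, map_smul, map_sub, h1.aff, h2.aff]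
    simp
  have hseg : ∀ s : ℝ, |s| ≤ 1 → ‖y + s • e‖ = ‖y‖ + s * ξ e := by
    have hgen : ∀ s : ℝ, |s| ≤ 1 → IsM χ₀ ξ (y + s • e) a := by
      intro s hs
      have hs' := abs_le.1 hs
      have h4 := h1.segment h2 (s := (1 + s) / 2) (by linarith [hs'.1]) (by linarith [hs'.2])
      have e1 : (1 - (1 + s) / 2) • y₁ + ((1 + s) / 2) • y₂ = y + s • e := by
        rw [hy, he]
        module
      rwa [e1] at h4
    intro s hs
    have h4 := (hgen s hs).val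
    have h5 := (hgen 0 (by simp)).val
    simp only [zero_smul, add_zero] at h5
    rw [map_add, map_smul, smul_eq_mul] at h4
    linarith
  have hm : IsM χ₀ ξ y a := by
    have h4 := h1.segment h2 (s := 1 / 2) (by norm_num) (by norm_num)
    have e1 : (1 - (1 / 2 : ℝ)) • y₁ + (1 / 2 : ℝ) • y₂ = y := by
      rw [hy]
      norm_num
    rwa [e1] at h4
  obtain ⟨t, ht, hut⟩ := B.exit hm.aff
  obtain ⟨u, hu⟩ : ∃ u, u = x₀ - t • y := ⟨_, rfl⟩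
  rw [← hu] at hut
  have hzz : x₀ - u = t • y := by
    rw [hu, sub_sub_cancel]
  obtain ⟨_, t₂, b', y₂', ht₂, hZ, hm'⟩ := B.chord hm ht hut hzz
  have hbb : b' = b := h3.val_unique hm'
  rw [hbb] at hm'
  obtain ⟨φ, hφ⟩ : ∃ φ, φ = ξ.comp Λ + b • χ₀.comp Λ := ⟨_, rfl⟩
  have hφn : Norming φ y₂' := by
    rw [hφ]
    exact hm'.norming
  have hφZ : φ (g x₀ - g u) = t * ‖y‖ := by
    have h5 := hφn.smul ht₂.le
    rw [← hZ] at h5
    rw [h5.val, B.iso.iso _ _ B.unit hut, hzz, norm_smul, Real.norm_of_nonneg ht.le]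
  have hφA : ∀ v, φ (A v) = ξ v + b * χ₀ v := by
    intro v
    rw [hφ]
    simp [B.left]
  refine le_of_forall_pos_le_add fun ε hε => ?_
  obtain ⟨ρ, hρ, hb⟩ := Metric.eventually_nhds_iff.1 (hcb.and (B.b1 (c₀ * ε) (by positivity)))
  have hb' : ∀ y : X, ‖y - x₀‖ < ρ → ‖y‖ = 1 →
      c₀ * ‖y - x₀‖ ^ 2 ≤ 1 - χ₀ y ∧ ‖g y - A y‖ ≤ c₀ * ε * ‖y - x₀‖ ^ 2 := by
    intro y hy hy1
    obtain ⟨h5, h6⟩ := @hb y (by rwa [dist_eq_norm])
    exact ⟨h5 hy1, h6 hy1⟩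
  -- the size of the displacement along the slice
  have hyn : 0 < ‖y‖ := norm_pos_iff.2 hm.ne_zero
  obtain ⟨c₁, hc₁, hc₁0⟩ := ((B.near_lt hm.aff).and (Ioo_mem_nhdsGT
    (show (0 : ℝ) < min t (ρ / (2 * ‖y‖)) from lt_min ht (by positivity)))).exists
  have hc₁1 : c₁ < t := hc₁0.2.trans_le (min_le_left _ _)
  have hc₁2 : c₁ * ‖y‖ * 2 < ρ := by
    have := hc₁0.2.trans_le (min_le_right _ _)
    rw [lt_div_iff₀ (by positivity)] at this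
    linarith
  have hc₁3 : 0 < c₁ := hc₁0.1
  -- the small step
  have hlin : Tendsto (fun r : ℝ => ‖x₀ + r • e - c₁ • y‖) (𝓝 0) (𝓝 ‖x₀ - c₁ • y‖) := by
    have hc : Continuous fun r : ℝ => ‖x₀ + r • e - c₁ • y‖ := by fun_prop
    simpa using hc.tendsto (0 : ℝ)
  have hev1 := hlin.eventually (gt_mem_nhds hc₁)
  obtain ⟨r₁, hr₁, hb₁⟩ := Metric.eventually_nhds_iff.1 hev1
  obtain ⟨r, hr⟩ : ∃ r, r = min (r₁ / 2) (min (t - c₁) (ρ / (4 * ‖e‖))) := ⟨_, rfl⟩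
  have hen : 0 < ‖e‖ := norm_pos_iff.2 he0
  have hr0 : 0 < r := by
    rw [hr]
    exact lt_min (by positivity) (lt_min (by linarith) (by positivity))
  have hr1 : r < r₁ := by
    have : r ≤ r₁ / 2 := hr ▸ min_le_left _ _
    linarith
  have hr2 : r ≤ t - c₁ := hr ▸ (min_le_right _ _).trans (min_le_left _ _)
  have hr3 : r * ‖e‖ * 4 ≤ ρ := by
    have : r ≤ ρ / (4 * ‖e‖) := hr ▸ (min_le_right _ _).trans (min_le_right _ _)
    rw [le_div_iff₀ (by positivity)] at this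
    linarith
  have hlt := @hb₁ r (by
    rw [Real.dist_eq, sub_zero, abs_of_pos hr0]
    exact hr1)
  have hdn : ‖r • e‖ + c₁ * ‖y‖ < ρ := by
    rw [norm_smul, Real.norm_of_nonneg hr0.le]
    nlinarith [mul_pos hr0 hen, mul_pos hc₁3 hyn]
  have hdχ : χ₀ (r • e) = 0 := by
    rw [map_smul, heχ]
    simp
  obtain ⟨c, hc0, hc1, hc2, hc3, hc4⟩ := B.point_est hc₀ hε.le hb' hm.aff hdχ hc₁3.le hlt.le hdn
  have hcpos : 0 < c := by
    refine lt_of_le_of_ne hc0 fun h0 => ?_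
    rw [← h0, zero_smul, sub_zero, norm_smul, Real.norm_of_nonneg hr0.le] at hc3
    have := mul_pos hr0 hen
    have h6 : 0 < c₀ * (r * ‖e‖) ^ 2 := by positivity
    linarith
  have ht' : 0 < t - c := by linarith
  have hup : ‖x₀ + r • e - c • y - u‖ = (t - c) * ‖y‖ + ξ (r • e) := by
    have e1 : x₀ + r • e - c • y - u = (t - c) • (y + (r / (t - c)) • e) := by
      rw [hu, smul_add, smul_smul]
      have : (t - c) * (r / (t - c)) = r := by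
        field_simp
      rw [this, sub_smul]
      abel
    have hs : |r / (t - c)| ≤ 1 := by
      rw [abs_div, abs_of_pos hr0, abs_of_pos ht', div_le_one ht']
      linarith
    rw [e1, norm_smul, Real.norm_of_nonneg ht'.le, hseg _ hs, map_smul, smul_eq_mul]
    field_simp
  have hφle : ‖φ‖ ≤ 1 := hφn.le
  have := B.basic_ineq (φ := φ) hm hφle hφA hut hφZ hdχ rfl hc2 hup hc4
  have := le_of_mul_le_mul_left this hcpos
  linarith

/-- The algebra at the end of the local inequality. -/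
lemma Bas.local_alg (B : Bas g h x₀ A Λ χ₀) {ξ' : StrongDual ℝ X} {y y' : X} {a' b' κ c t : ℝ}
    {Y' : Y} {u p : X} (hm : IsM χ₀ ξ' y' a') (hm' : IsM (χ₀.comp Λ) (ξ'.comp Λ) Y' b')
    (hy : χ₀ y = 1) (hu1 : ‖u‖ = 1) (hut : x₀ - u = t • y) (hba : b' ≤ a' - κ)
    (hp : ‖p‖ = 1) (hpd : p = x₀ + t • (y' - y) - c • y') (htc : 0 < t - c)
    (hR : ‖g p - A p‖ ≤ c * κ) (hc0 : 0 ≤ c) :
    (χ₀.comp Λ) (g x₀ - g u) * b' + ξ' (Λ (g x₀ - g u)) ≤ t * a' + t * ξ' y := by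
  have hφle : ‖ξ'.comp Λ + b' • χ₀.comp Λ‖ ≤ 1 := hm'.norming.le
  have hcore := B.core hφle hp hu1
  have hpu : p - u = (t - c) • y' := by
    have e : u = x₀ - t • y := by
      rw [← hut]
      abel
    rw [hpd, e]
    module
  have hpx : p - x₀ = t • (y' - y) - c • y' := by
    rw [hpd]
    abel
  rw [hpu, norm_smul, Real.norm_of_nonneg htc.le, hpx] at hcore
  have hφR := (abs_le.1 (functional_le _ hφle (x := g p - A p))).1
  have hval := hm.val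
  have e1 : ‖y'‖ = a' + ξ' y' := by linarith
  rw [e1] at hcore
  obtain ⟨Z, hZ⟩ : ∃ Z, Z = g x₀ - g u := ⟨_, rfl⟩
  rw [← hZ] at hcore ⊢
  have e2 : (ξ'.comp Λ + b' • χ₀.comp Λ) (A (t • (y' - y) - c • y')) =
      t * ξ' y' - t * ξ' y - c * ξ' y' - c * b' := by
    have : (ξ'.comp Λ + b' • χ₀.comp Λ) (A (t • (y' - y) - c • y')) =
        ξ' (t • (y' - y) - c • y') + b' * χ₀ (t • (y' - y) - c • y') := by
      simp [B.left]
    rw [this]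
    simp only [map_sub, map_smul, smul_eq_mul, hm.aff, hy]
    ring
  have e3 : (ξ'.comp Λ + b' • χ₀.comp Λ) Z = ξ' (Λ Z) + b' * (χ₀.comp Λ) Z := by
    simp
  rw [e2, e3] at hcore
  have hc3 : c * (b' - a') ≤ -(c * κ) := by nlinarith
  nlinarith

/-- **The local inequality.** -/
theorem Bas.local (B : Bas g h x₀ A Λ χ₀) {ξ : StrongDual ℝ X} (hξ0 : ξ x₀ = 0) {θ : ℝ} (hθ : θ < 1)
    (hb : ∀ w, χ₀ w = 0 → ξ w ≤ θ * ‖w‖) {y : X} (hu₀ : ∀ y' a', IsM χ₀ ξ y' a' → y' = y)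
    (hy : χ₀ y = 1) {t : ℝ} (ht : 0 < t) {u : X} (hu1 : ‖u‖ = 1) (hut : x₀ - u = t • y) {κ : ℝ}
    (hκ : 0 < κ) : ∃ η : ℝ, 0 < η ∧ ∀ ξ' y' a' (Y' : Y) b', ‖ξ' - ξ‖ < η → ξ' x₀ = 0 →
      IsM χ₀ ξ' y' a' → IsM (χ₀.comp Λ) (ξ'.comp Λ) Y' b' → b' ≤ a' - κ →
      (χ₀.comp Λ) (g x₀ - g u) * b' + ξ' (Λ (g x₀ - g u)) ≤ t * a' + t * ξ' y := by
  obtain ⟨c₀, hc₀, hcb⟩ := B.b2
  obtain ⟨ρ, hρ, hb'⟩ := Metric.eventually_nhds_iff.1 (hcb.and (B.b1 (c₀ * κ) (by positivity)))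
  have hb'' : ∀ y : X, ‖y - x₀‖ < ρ → ‖y‖ = 1 →
      c₀ * ‖y - x₀‖ ^ 2 ≤ 1 - χ₀ y ∧ ‖g y - A y‖ ≤ c₀ * κ * ‖y - x₀‖ ^ 2 := by
    intro y hy hy1
    obtain ⟨h5, h6⟩ := @hb' y (by rwa [dist_eq_norm])
    exact ⟨h5 hy1, h6 hy1⟩
  have hy0 : ‖y‖ + 1 > 0 := by positivity
  obtain ⟨c₁, hc₁, hc₁0⟩ := ((B.near_lt hy).and (Ioo_mem_nhdsGT
    (show (0 : ℝ) < min t (ρ / (2 * (‖y‖ + 1))) from lt_min ht (by positivity)))).exists
  have hc₁1 : c₁ < t := hc₁0.2.trans_le (min_le_left _ _)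
  have hc₁2 : c₁ * (‖y‖ + 1) * 2 < ρ := by
    have := hc₁0.2.trans_le (min_le_right _ _)
    rw [lt_div_iff₀ (by positivity)] at this
    linarith
  have hc₁3 : 0 < c₁ := hc₁0.1
  have hlin : Tendsto (fun y' : X => ‖x₀ + t • (y' - y) - c₁ • y'‖) (𝓝 y) (𝓝 ‖x₀ - c₁ • y‖) := by
    have hc : Continuous fun y' : X => ‖x₀ + t • (y' - y) - c₁ • y'‖ := by fun_prop
    simpa using hc.tendsto y
  obtain ⟨δ₁, hδ₁, hb₁⟩ := Metric.eventually_nhds_iff.1 (hlin.eventually (gt_mem_nhds hc₁))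
  obtain ⟨η, hη, hclose⟩ := IsM.close B.unit B.self hξ0 hθ hb hu₀
    (δ := min δ₁ (min 1 (ρ / (2 * t)))) (lt_min hδ₁ (lt_min one_pos (by positivity)))
  refine ⟨η, hη, fun ξ' y' a' Y' b' hξ' hξ'0 hm hm' hba => ?_⟩
  have hyy := hclose ξ' y' a' hξ' hξ'0 hm
  have hyy1 : ‖y' - y‖ < δ₁ := hyy.trans_le (min_le_left _ _)
  have hyy2 : ‖y' - y‖ < 1 := hyy.trans_le ((min_le_right _ _).trans (min_le_left _ _))
  have hyy3 : ‖y' - y‖ * (2 * t) < ρ := by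
    have := hyy.trans_le ((min_le_right _ _).trans (min_le_right _ _))
    rwa [lt_div_iff₀ (by positivity)] at this
  have hlt := @hb₁ y' (by rwa [dist_eq_norm])
  have hdχ : χ₀ (t • (y' - y)) = 0 := by
    rw [map_smul, map_sub, hm.aff, hy]
    simp
  have hy'n : ‖y'‖ ≤ ‖y‖ + 1 := by
    have e : y' = y + (y' - y) := by abel
    rw [e]
    refine (norm_add_le _ _).trans ?_
    linarith
  have hdn : ‖t • (y' - y)‖ + c₁ * ‖y'‖ < ρ := by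
    rw [norm_smul, Real.norm_of_nonneg ht.le]
    have h5 : c₁ * ‖y'‖ ≤ c₁ * (‖y‖ + 1) := mul_le_mul_of_nonneg_left hy'n hc₁3.le
    nlinarith
  obtain ⟨c, hc0, hc1, hc2, _, hc4⟩ := B.point_est hc₀ hκ.le hb'' hm.aff hdχ hc₁3.le hlt.le hdn
  exact B.local_alg hm hm' hy hu1 hut hba hc2 rfl (by linarith) hc4 hc0

end Bas

end Vale.Agent.Lib.P084.Gen
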