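import Mathlib
import Vale.Agent.Lib.P084.Gen.Bas

/-! The transfer of the norming functionals of tangent vectors. -/

namespace Vale.Agent.Lib.P084.Gen

open Set Metric Filter Topology
open Vale.Agent.Lib.P084

section Ray

variable {E : Type*} [NormedAddCommGroup E] [NormedSpace ℝ E]

/-- Along a ray from a unit vector, the norm increases once it exceeds one. -/
lemma mono_ray {x₀ K : E} (hx₀ : ‖x₀‖ = 1) {s s' : ℝ} (hs : 0 < s) (hss : s < s')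
    (h1 : 1 < ‖x₀ + s • K‖) : ‖x₀ + s • K‖ < ‖x₀ + s' • K‖ := by
  by_contra hc
  push Not at hc
  have hs' : 0 < s' := hs.trans hss
  obtain ⟨θ, hθ⟩ : ∃ θ, θ = s / s' := ⟨_, rfl⟩
  have hθ0 : 0 < θ := by
    rw [hθ]
    positivity
  have hθ1 : θ < 1 := by
    rw [hθ, div_lt_one hs']
    exact hss
  have hθs : θ * s' = s := by
    rw [hθ]
    field_simp
  have e : x₀ + s • K = (1 - θ) • x₀ + θ • (x₀ + s' • K) := by
    rw [smul_add, smul_smul, hθs, sub_smul, one_smul]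
    abel
  have h2 : ‖x₀ + s • K‖ ≤ (1 - θ) + θ * ‖x₀ + s' • K‖ := by
    rw [e]
    refine (norm_add_le _ _).trans ?_
    rw [norm_smul, norm_smul, hx₀, Real.norm_of_nonneg (by linarith), Real.norm_of_nonneg hθ0.le,
      mul_one]
  have h3 : θ * ‖x₀ + s' • K‖ ≤ θ * ‖x₀ + s • K‖ := mul_le_mul_of_nonneg_left hc hθ0.le
  nlinarith

/-- A chord in a given direction and with a given length, once the line leaves the ball on both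
sides. -/
lemma exists_chord_of_escape {x₀ K : E} (hx₀ : ‖x₀‖ = 1) {ρ m : ℝ} (hρ : 0 < ρ) (hm : 0 < m)
    (hp : 1 < ‖x₀ + (m * ρ) • K‖) (hn : 1 < ‖x₀ + (-(m * ρ)) • K‖)
    (hsmall : (m + 2) * ρ * ‖K‖ ≤ 1 / 2) :
    ∃ p p' : E, ‖p‖ = 1 ∧ ‖p'‖ = 1 ∧ p' - p = ρ • K ∧ ‖p - x₀‖ ≤ 5 * ((m + 2) * ρ * ‖K‖) ∧
      ‖p' - x₀‖ ≤ 5 * ((m + 2) * ρ * ‖K‖) := by
  obtain ⟨F, hF⟩ : ∃ F : ℝ → ℝ, F = fun s => ‖x₀ + s • K‖ := ⟨_, rfl⟩
  have hFv : ∀ s, F s = ‖x₀ + s • K‖ := fun s => by rw [hF]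
  have hFc : Continuous F := by
    rw [hF]
    fun_prop
  have hFb : ∀ s, |F s - 1| ≤ |s| * ‖K‖ := by
    intro s
    rw [hFv, ← hx₀]
    refine (abs_norm_sub_norm_le _ _).trans ?_
    rw [add_sub_cancel_left, norm_smul, Real.norm_eq_abs]
  have hK0 := norm_nonneg K
  have hmρ : 0 < m * ρ := by positivity
  have hbd : ∀ s, |s| ≤ (m + 2) * ρ → 1 / 2 ≤ F s ∧ F s ≤ 3 / 2 := by
    intro s hs
    have h1 := hFb s
    have h2 : |s| * ‖K‖ ≤ (m + 2) * ρ * ‖K‖ := mul_le_mul_of_nonneg_right hs hK0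
    have h3 := abs_le.1 (h1.trans (h2.trans hsmall))
    constructor <;> linarith [h3.1, h3.2]
  obtain ⟨H, hH⟩ : ∃ H : ℝ → ℝ, H = fun s => F (s + ρ * F s) - F s := ⟨_, rfl⟩
  have hHc : Continuous H := by
    rw [hH]
    exact (hFc.comp (continuous_id.add (continuous_const.mul hFc))).sub hFc
  have hHr : 0 < H (m * ρ) := by
    have h1 : 1 < F (m * ρ) := by rw [hFv]; exact hp
    have h2 : m * ρ < m * ρ + ρ * F (m * ρ) := by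
      have : 0 < ρ * F (m * ρ) := mul_pos hρ (by linarith)
      linarith
    have h3 := mono_ray hx₀ hmρ h2 hp
    rw [← hFv, ← hFv] at h3
    rw [hH]
    simp only
    linarith
  obtain ⟨s₀, hs₀⟩ : ∃ s₀, s₀ = -((m + 2) * ρ) := ⟨_, rfl⟩
  have hHl : H s₀ < 0 := by
    have h0 : |s₀| ≤ (m + 2) * ρ := by
      rw [hs₀, abs_neg, abs_of_pos (by positivity)]
    obtain ⟨hb1, hb2⟩ := hbd s₀ h0
    obtain ⟨t₁, ht₁⟩ : ∃ t₁, t₁ = (m + 2) * ρ - ρ * F s₀ := ⟨_, rfl⟩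
    have hm' : ‖x₀ + (m * ρ) • (-K)‖ = ‖x₀ + (-(m * ρ)) • K‖ := by
      rw [smul_neg, neg_smul]
    have hn' : 1 < ‖x₀ + (m * ρ) • (-K)‖ := by rw [hm']; exact hn
    have ht1 : m * ρ < t₁ := by
      rw [ht₁]
      nlinarith
    have ht2 : t₁ < (m + 2) * ρ := by
      rw [ht₁]
      have : 0 < ρ * F s₀ := mul_pos hρ (by linarith)
      linarith
    have h1 := mono_ray hx₀ hmρ ht1 hn'
    have h2 := mono_ray hx₀ (hmρ.trans ht1) ht2 (hn'.trans h1)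
    have e1 : F s₀ = ‖x₀ + ((m + 2) * ρ) • (-K)‖ := by
      rw [hFv, hs₀, smul_neg, neg_smul]
    have e2 : F (s₀ + ρ * F s₀) = ‖x₀ + t₁ • (-K)‖ := by
      rw [hFv]
      have : s₀ + ρ * F s₀ = -t₁ := by
        rw [ht₁, hs₀]
        ring
      rw [this, smul_neg, neg_smul]
    rw [hH]
    simp only
    rw [e2]
    rw [← e1] at h2
    linarith
  have hle : s₀ ≤ m * ρ := by
    rw [hs₀]
    nlinarith
  obtain ⟨s, hs, hs0⟩ := intermediate_value_Icc hle hHc.continuousOn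
    (show (0 : ℝ) ∈ Icc (H s₀) (H (m * ρ)) from ⟨hHl.le, hHr.le⟩)
  have hsabs : |s| ≤ (m + 2) * ρ := by
    rw [abs_le]
    constructor
    · linarith [hs.1, hs₀]
    · nlinarith [hs.2]
  obtain ⟨hb1, hb2⟩ := hbd s hsabs
  have hF0 : 0 < F s := by linarith
  have hHs : F (s + ρ * F s) = F s := by
    rw [hH] at hs0
    simp only at hs0
    linarith
  have hpn : ‖(F s)⁻¹ • (x₀ + s • K)‖ = 1 := by
    rw [norm_smul, norm_inv, Real.norm_of_nonneg hF0.le, ← hFv]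
    field_simp
  have hpn' : ‖(F s)⁻¹ • (x₀ + s • K) + ρ • K‖ = 1 := by
    have e : (F s)⁻¹ • (x₀ + s • K) + ρ • K = (F s)⁻¹ • (x₀ + (s + ρ * F s) • K) := by
      rw [smul_add, smul_add, add_smul, smul_add, smul_smul, smul_smul]
      have : (F s)⁻¹ * (ρ * F s) = ρ := by
        field_simp
      rw [this]
      abel
    rw [e, norm_smul, norm_inv, Real.norm_of_nonneg hF0.le, ← hFv, hHs]
    field_simp
  have hdiff : ‖(F s)⁻¹ • (x₀ + s • K) - x₀‖ ≤ 4 * ((m + 2) * ρ * ‖K‖) := by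
    have e : (F s)⁻¹ • (x₀ + s • K) - x₀ = (F s)⁻¹ • ((1 - F s) • x₀ + s • K) := by
      have h1 : (F s)⁻¹ * (1 - F s) = (F s)⁻¹ - 1 := by
        field_simp
      rw [smul_add ((F s)⁻¹) ((1 - F s) • x₀), smul_smul, h1, sub_smul, one_smul, smul_add]
      abel
    have h2 : ‖(1 - F s) • x₀ + s • K‖ ≤ 2 * (|s| * ‖K‖) := by
      refine (norm_add_le _ _).trans ?_
      rw [norm_smul, norm_smul, hx₀, mul_one, Real.norm_eq_abs, Real.norm_eq_abs, abs_sub_comm]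
      linarith [hFb s]
    have h3 : |s| * ‖K‖ ≤ (m + 2) * ρ * ‖K‖ := mul_le_mul_of_nonneg_right hsabs hK0
    rw [e, norm_smul, norm_inv, Real.norm_of_nonneg hF0.le]
    have h4 : (F s)⁻¹ ≤ 2 := by
      rw [inv_le_comm₀ hF0 (by norm_num)]
      linarith
    have h5 := norm_nonneg ((1 - F s) • x₀ + s • K)
    nlinarith
  have hρK : ρ * ‖K‖ ≤ (m + 2) * ρ * ‖K‖ := by
    have : ρ * ‖K‖ * 1 ≤ ρ * ‖K‖ * (m + 2) := mul_le_mul_of_nonneg_left (by linarith) (by positivity)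
    nlinarith
  refine ⟨_, _, hpn, hpn', ?_, ?_, ?_⟩
  · abel
  · have h1 := norm_nonneg ((F s)⁻¹ • (x₀ + s • K) - x₀)
    have h2 : 0 ≤ (m + 2) * ρ * ‖K‖ := by positivity
    linarith
  · have e : (F s)⁻¹ • (x₀ + s • K) + ρ • K - x₀ = ((F s)⁻¹ • (x₀ + s • K) - x₀) + ρ • K := by abel
    rw [e]
    refine (norm_add_le _ _).trans ?_
    rw [norm_smul, Real.norm_of_nonneg hρ.le]
    linarith

end Ray

section Bdy

variable {X Y : Type*} [NormedAddCommGroup X] [NormedSpace ℝ X]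
  [NormedAddCommGroup Y] [NormedSpace ℝ Y] {g : X → Y} {h : Y → X} {x₀ : X} {A : X →L[ℝ] Y}
  {Λ : Y →L[ℝ] X} {χ₀ : StrongDual ℝ X}

omit [NormedAddCommGroup Y] [NormedSpace ℝ Y] in
/-- The arithmetic at the end of the escape lemma. -/
lemma escape_arith {S K n Wn c₀ ρ L m : ℝ} (ha : S * K ≤ 4 * n * Wn)
    (hb : n * (c₀ * Wn ^ 2) ≤ S * ρ * L) (hn0 : 0 < n) (hn1 : n ≤ 1) (hS : S = m * ρ) (hS0 : 0 < S)
    (hρ : 0 < ρ) (hc₀ : 0 < c₀) (hL : 0 ≤ L) (hK : 0 ≤ K) (hWn : 0 ≤ Wn)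
    (hmk : c₀ * K ^ 2 * m = 16 * L + 1) : False := by
  have hc1 : c₀ * (S * K) ^ 2 ≤ 16 * (S * ρ * L) := by
    have h5 : (S * K) ^ 2 ≤ (4 * n * Wn) ^ 2 := pow_le_pow_left₀ (by positivity) ha 2
    have h6 : c₀ * (S * K) ^ 2 ≤ c₀ * (4 * n * Wn) ^ 2 := mul_le_mul_of_nonneg_left h5 hc₀.le
    have h7 : c₀ * (4 * n * Wn) ^ 2 = 16 * n * (n * (c₀ * Wn ^ 2)) := by ring
    rw [h7] at h6
    have h8 : 16 * n * (n * (c₀ * Wn ^ 2)) ≤ 16 * n * (S * ρ * L) :=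
      mul_le_mul_of_nonneg_left hb (by positivity)
    have h9 : 0 ≤ S * ρ * L := by positivity
    have h10 : n * (S * ρ * L) ≤ 1 * (S * ρ * L) := mul_le_mul_of_nonneg_right hn1 h9
    linarith
  have hc2 : c₀ * K ^ 2 * m * (S * ρ) ≤ 16 * L * (S * ρ) := by
    have h5 : c₀ * (S * K) ^ 2 = c₀ * K ^ 2 * m * (S * ρ) := by
      rw [hS]
      ring
    rw [h5] at hc1
    linarith
  rw [hmk] at hc2
  have hc3 : 0 < S * ρ := by positivity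
  linarith

omit [NormedAddCommGroup Y] [NormedSpace ℝ Y] in
/-- The normalised point of a line through `x₀`. -/
lemma normalised_point {χ₀ : StrongDual ℝ X} (hχ : χ₀ x₀ = 1) (hχa : ∀ v, |χ₀ v| ≤ ‖v‖) (hx₀ : ‖x₀‖ = 1)
    {k q : X} {s ρ : ℝ} (hk0 : χ₀ k = 0) {n : ℝ} (hn : n = ‖x₀ + s • (k + ρ • q)‖) (hn0 : 0 < n)
    {y : X} (hy : y = n⁻¹ • (x₀ + s • (k + ρ • q))) :
    ‖y‖ = 1 ∧ χ₀ y = n⁻¹ * (1 + s * (ρ * χ₀ q)) ∧
      |s| * ‖k + ρ • (q - χ₀ q • x₀)‖ ≤ 2 * n * ‖y - x₀‖ := by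
  refine ⟨?_, ?_, ?_⟩
  · rw [hy, norm_smul, norm_inv, ← hn, Real.norm_of_nonneg hn0.le]
    field_simp
  · rw [hy, map_smul, map_add, map_smul, map_add, map_smul, hχ, hk0]
    simp
  · have hχy : χ₀ y = n⁻¹ * (1 + s * (ρ * χ₀ q)) := by
      rw [hy, map_smul, map_add, map_smul, map_add, map_smul, hχ, hk0]
      simp
    obtain ⟨W, hW⟩ : ∃ W, W = y - x₀ := ⟨_, rfl⟩
    have hWχ : χ₀ W = n⁻¹ * (1 + s * (ρ * χ₀ q)) - 1 := by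
      rw [hW, map_sub, hχy, hχ]
    have hP : W - χ₀ W • x₀ = (n⁻¹ * s) • (k + ρ • (q - χ₀ q • x₀)) := by
      have e1 : y = (n⁻¹ • x₀) + (n⁻¹ * s) • (k + ρ • q) := by
        rw [hy, smul_add, smul_smul]
      rw [hWχ, hW, e1]
      module
    have hPn : ‖W - χ₀ W • x₀‖ ≤ 2 * ‖W‖ := by
      refine (norm_sub_le _ _).trans ?_
      rw [norm_smul, hx₀, mul_one, Real.norm_eq_abs]
      linarith [hχa W]
    rw [← hW]
    rw [hP, norm_smul, Real.norm_eq_abs, abs_mul, abs_of_pos (inv_pos.2 hn0)] at hPn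
    have h6 : n * (n⁻¹ * |s| * ‖k + ρ • (q - χ₀ q • x₀)‖) ≤ n * (2 * ‖W‖) :=
      mul_le_mul_of_nonneg_left hPn hn0.le
    have h7 : n * (n⁻¹ * |s| * ‖k + ρ • (q - χ₀ q • x₀)‖) = |s| * ‖k + ρ • (q - χ₀ q • x₀)‖ := by
      field_simp
    rw [h7] at h6
    linarith

omit [NormedAddCommGroup Y] [NormedSpace ℝ Y] in
/-- The normalised point is close to `x₀`. -/
lemma normalised_near (hx₀ : ‖x₀‖ = 1) {K : X} {n : ℝ} (hn : n = ‖x₀ + K‖) (hK : ‖K‖ ≤ 1 / 2)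
    {y : X} (hy : y = n⁻¹ • (x₀ + K)) : 1 / 2 ≤ n ∧ ‖y - x₀‖ ≤ 4 * ‖K‖ := by
  have hnl : 1 / 2 ≤ n := by
    have h5 : ‖x₀‖ - ‖K‖ ≤ ‖x₀ + K‖ := by
      have := norm_sub_norm_le x₀ (-K)
      rwa [norm_neg, sub_neg_eq_add] at this
    rw [hx₀, ← hn] at h5
    linarith
  refine ⟨hnl, ?_⟩
  have hn0 : 0 < n := by linarith
  have hyx : y - x₀ = n⁻¹ • ((1 - n) • x₀ + K) := by
    have h5 : n⁻¹ * (1 - n) = n⁻¹ - 1 := by
      field_simp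
    rw [smul_add n⁻¹ ((1 - n) • x₀), smul_smul, h5, sub_smul, one_smul, hy, smul_add]
    abel
  have hnb : |1 - n| ≤ ‖K‖ := by
    have h5 := abs_norm_sub_norm_le (x₀ + K) x₀
    rw [add_sub_cancel_left, hx₀, ← hn, abs_sub_comm] at h5
    exact h5
  rw [hyx, norm_smul, norm_inv, Real.norm_of_nonneg hn0.le]
  have h5 : ‖(1 - n) • x₀ + K‖ ≤ 2 * ‖K‖ := by
    refine (norm_add_le _ _).trans ?_
    rw [norm_smul, hx₀, mul_one, Real.norm_eq_abs]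
    linarith
  have h6 : n⁻¹ ≤ 2 := by
    rw [inv_le_comm₀ hn0 (by norm_num)]
    linarith
  have h7 := norm_nonneg ((1 - n) • x₀ + K)
  calc n⁻¹ * ‖(1 - n) • x₀ + K‖ ≤ 2 * (2 * ‖K‖) :=
        mul_le_mul h6 h5 h7 (by norm_num)
    _ = 4 * ‖K‖ := by ring

/-- The inequality behind the escape. -/
lemma Bas.escape_step (B : Bas g h x₀ A Λ χ₀) {k : X} (hk0 : χ₀ k = 0) (q : X) {c₀ δ m ρ s : ℝ}
    (hc₀ : 0 < c₀) (hb : ∀ y : X, ‖y - x₀‖ < δ → ‖y‖ = 1 → c₀ * ‖y - x₀‖ ^ 2 ≤ 1 - χ₀ y)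
    (hmk : 4 * c₀ * (‖k‖ / 2) ^ 2 * m = 16 * (2 * |χ₀ q|) + 1) (hρ : 0 < ρ) (hm0 : 0 < m)
    (hsabs : |s| = m * ρ) (hk2 : ρ * (4 * ‖q‖ + 1) ≤ ‖k‖)
    (hsK : ‖s • (k + ρ • q)‖ ≤ 1 / 2) (hδ : 4 * ‖s • (k + ρ • q)‖ < δ) :
    1 < ‖x₀ + s • (k + ρ • q)‖ := by
  by_contra hcon
  push Not at hcon
  obtain ⟨l, hl⟩ : ∃ l, l = χ₀ q := ⟨_, rfl⟩
  rw [← hl] at hmk
  obtain ⟨n, hn⟩ : ∃ n, n = ‖x₀ + s • (k + ρ • q)‖ := ⟨_, rfl⟩
  rw [← hn] at hcon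
  obtain ⟨y, hy⟩ : ∃ y, y = n⁻¹ • (x₀ + s • (k + ρ • q)) := ⟨_, rfl⟩
  obtain ⟨hnl, hyn⟩ := normalised_near B.unit hn hsK hy
  have hn0 : 0 < n := by linarith
  obtain ⟨hy1, hχy, hPl⟩ := normalised_point B.self B.chi_abs B.unit hk0 hn hn0 hy
  rw [← hl] at hχy hPl
  have hcurv := hb y (hyn.trans_lt hδ) hy1
  have hPl' : ‖k‖ / 2 ≤ ‖k + ρ • (q - l • x₀)‖ := by
    have h5 : ‖k‖ - ‖ρ • (q - l • x₀)‖ ≤ ‖k + ρ • (q - l • x₀)‖ := by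
      have := norm_sub_norm_le k (-(ρ • (q - l • x₀)))
      rwa [norm_neg, sub_neg_eq_add] at this
    have h6 : ‖q - l • x₀‖ ≤ 2 * ‖q‖ := by
      refine (norm_sub_le _ _).trans ?_
      rw [norm_smul, B.unit, mul_one, Real.norm_eq_abs, hl]
      linarith [B.chi_abs q]
    have h7 : ‖ρ • (q - l • x₀)‖ ≤ ρ * (2 * ‖q‖) := by
      rw [norm_smul, Real.norm_of_nonneg hρ.le]
      exact mul_le_mul_of_nonneg_left h6 hρ.le
    have h9 : ρ * ‖q‖ * 4 + ρ ≤ ‖k‖ := by linarith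
    linarith
  obtain ⟨S, hS⟩ : ∃ S, S = m * ρ := ⟨_, rfl⟩
  have hS0 : 0 < S := by
    rw [hS]
    positivity
  have hsabs' : |s| = S := by rw [hsabs, hS]
  rw [hsabs'] at hPl
  have ha : S * (‖k‖ / 2) ≤ 2 * n * ‖y - x₀‖ :=
    (mul_le_mul_of_nonneg_left hPl' hS0.le).trans hPl
  rw [hχy] at hcurv
  have hb' : n * (c₀ * ‖y - x₀‖ ^ 2) ≤ S * ρ * (2 * |l|) := by
    have h5 : n * (c₀ * ‖y - x₀‖ ^ 2) ≤ n * (1 - n⁻¹ * (1 + s * (ρ * l))) :=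
      mul_le_mul_of_nonneg_left hcurv hn0.le
    have h6 : n * (1 - n⁻¹ * (1 + s * (ρ * l))) = n - 1 - s * ρ * l := by
      field_simp
      ring
    rw [h6] at h5
    have h7 : -(s * ρ * l) ≤ S * ρ * |l| := by
      have h8 : |s * ρ * l| = S * ρ * |l| := by
        rw [abs_mul, abs_mul, hsabs', abs_of_pos hρ]
      rw [← h8]
      exact neg_le_abs _
    have h8 : 0 ≤ S * ρ * |l| := by positivity
    linarith
  have hWn : 0 ≤ ‖y - x₀‖ := norm_nonneg _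
  refine escape_arith (S := S) (K := ‖k‖ / 2) (n := n) (Wn := ‖y - x₀‖ / 2) (c₀ := 4 * c₀) (ρ := ρ)
    (L := 2 * |l|) (m := m) (by linarith) ?_ hn0 hcon hS hS0 hρ (by positivity) (by positivity)
    (by positivity) (by positivity) hmk
  have e : n * (4 * c₀ * (‖y - x₀‖ / 2) ^ 2) = n * (c₀ * ‖y - x₀‖ ^ 2) := by ring
  rw [e]
  exact hb'

/-- A line in an almost tangent direction leaves the ball quickly. -/
lemma Bas.escape (B : Bas g h x₀ A Λ χ₀) {k : X} (hk0 : χ₀ k = 0) (hk : k ≠ 0) (q : X) :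
    ∃ m ρ₁ : ℝ, 0 < m ∧ 0 < ρ₁ ∧ ∀ ρ : ℝ, 0 < ρ → ρ < ρ₁ → ∀ σ : ℝ, |σ| = 1 →
      1 < ‖x₀ + (σ * (m * ρ)) • (k + ρ • q)‖ := by
  obtain ⟨c₀, hc₀, hcb⟩ := B.b2
  obtain ⟨δ, hδ, hb⟩ := Metric.eventually_nhds_iff.1 hcb
  have hb' : ∀ y : X, ‖y - x₀‖ < δ → ‖y‖ = 1 → c₀ * ‖y - x₀‖ ^ 2 ≤ 1 - χ₀ y := fun y hy hy1 =>
    @hb y (by rwa [dist_eq_norm]) hy1
  have hkn : 0 < ‖k‖ := norm_pos_iff.2 hk
  obtain ⟨m, hm⟩ : ∃ m, m = (16 * (2 * |χ₀ q|) + 1) / (4 * c₀ * (‖k‖ / 2) ^ 2) := ⟨_, rfl⟩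
  have hm0 : 0 < m := by
    rw [hm]
    positivity
  have hmk : 4 * c₀ * (‖k‖ / 2) ^ 2 * m = 16 * (2 * |χ₀ q|) + 1 := by
    have h0 : 4 * c₀ * (‖k‖ / 2) ^ 2 ≠ 0 := by positivity
    rw [hm, mul_comm, div_mul_cancel₀ _ h0]
  obtain ⟨Kb, hKb⟩ : ∃ Kb, Kb = ‖k‖ + ‖q‖ + 1 := ⟨_, rfl⟩
  have hKb0 : 0 < Kb := by
    rw [hKb]
    positivity
  obtain ⟨ρ₁, hρ₁⟩ : ∃ ρ₁, ρ₁ = min 1 (min (‖k‖ / (4 * ‖q‖ + 1)) (min (1 / (2 * m * Kb))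
      (δ / (4 * m * Kb + 1)))) := ⟨_, rfl⟩
  have hρ₁0 : 0 < ρ₁ := by
    rw [hρ₁]
    refine lt_min one_pos (lt_min (by positivity) (lt_min (by positivity) (by positivity)))
  have h1 : ρ₁ ≤ 1 := hρ₁ ▸ min_le_left _ _
  have h2 : ρ₁ * (4 * ‖q‖ + 1) ≤ ‖k‖ := by
    have : ρ₁ ≤ ‖k‖ / (4 * ‖q‖ + 1) := hρ₁ ▸ (min_le_right _ _).trans (min_le_left _ _)
    rwa [le_div_iff₀ (by positivity)] at this
  have h3 : ρ₁ * (2 * m * Kb) ≤ 1 := by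
    have : ρ₁ ≤ 1 / (2 * m * Kb) :=
      hρ₁ ▸ (min_le_right _ _).trans ((min_le_right _ _).trans (min_le_left _ _))
    rwa [le_div_iff₀ (by positivity)] at this
  have h4 : ρ₁ * (4 * m * Kb + 1) ≤ δ := by
    have : ρ₁ ≤ δ / (4 * m * Kb + 1) :=
      hρ₁ ▸ (min_le_right _ _).trans ((min_le_right _ _).trans (min_le_right _ _))
    rwa [le_div_iff₀ (by positivity)] at this
  refine ⟨m, ρ₁, hm0, hρ₁0, fun ρ hρ hρ1 σ hσ => ?_⟩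
  have hsabs : |σ * (m * ρ)| = m * ρ := by
    rw [abs_mul, hσ, one_mul, abs_of_pos (by positivity)]
  have hρ1' : ρ < 1 := hρ1.trans_le h1
  have hKn : ‖k + ρ • q‖ ≤ Kb := by
    rw [hKb]
    refine (norm_add_le _ _).trans ?_
    rw [norm_smul, Real.norm_of_nonneg hρ.le]
    nlinarith [norm_nonneg q]
  have hsK : ‖(σ * (m * ρ)) • (k + ρ • q)‖ ≤ m * ρ * Kb := by
    rw [norm_smul, Real.norm_eq_abs, hsabs]
    exact mul_le_mul_of_nonneg_left hKn (by positivity)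
  have h5 : ρ * (2 * m * Kb) ≤ ρ₁ * (2 * m * Kb) :=
    mul_le_mul_of_nonneg_right hρ1.le (by positivity)
  have h6 : ρ * (4 * m * Kb + 1) < ρ₁ * (4 * m * Kb + 1) :=
    mul_lt_mul_of_pos_right hρ1 (by positivity)
  have h7 : ρ * (4 * ‖q‖ + 1) ≤ ρ₁ * (4 * ‖q‖ + 1) :=
    mul_le_mul_of_nonneg_right hρ1.le (by positivity)
  refine B.escape_step hk0 q hc₀ hb' hmk hρ hm0 hsabs (h7.trans h2) ?_ ?_
  · nlinarith
  · nlinarith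

/-- Short chords in an almost tangent direction. -/
lemma Bas.short_chord (B : Bas g h x₀ A Λ χ₀) {k : X} (hk0 : χ₀ k = 0) (hk : k ≠ 0) (q : X) :
    ∃ C ρ₁ : ℝ, 0 < C ∧ 0 < ρ₁ ∧ ∀ ρ : ℝ, 0 < ρ → ρ < ρ₁ → ∃ p p' : X, ‖p‖ = 1 ∧ ‖p'‖ = 1 ∧
      p' - p = ρ • (k + ρ • q) ∧ ‖p - x₀‖ ≤ C * ρ ∧ ‖p' - x₀‖ ≤ C * ρ := by
  obtain ⟨m, ρ₁, hm, hρ₁, hesc⟩ := B.escape hk0 hk q
  obtain ⟨Kb, hKb⟩ : ∃ Kb, Kb = ‖k‖ + ‖q‖ + 1 := ⟨_, rfl⟩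
  have hKb0 : 0 < Kb := by
    rw [hKb]
    positivity
  obtain ⟨ρ₂, hρ₂⟩ : ∃ ρ₂, ρ₂ = min ρ₁ (min 1 (1 / (2 * (m + 2) * Kb))) := ⟨_, rfl⟩
  have hρ₂0 : 0 < ρ₂ := by
    rw [hρ₂]
    exact lt_min hρ₁ (lt_min one_pos (by positivity))
  refine ⟨5 * ((m + 2) * Kb), ρ₂, by positivity, hρ₂0, fun ρ hρ hρ2 => ?_⟩
  have h1 : ρ < ρ₁ := hρ2.trans_le (hρ₂ ▸ min_le_left _ _)
  have h2 : ρ < 1 := hρ2.trans_le (hρ₂ ▸ (min_le_right _ _).trans (min_le_left _ _))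
  have h3 : ρ * (2 * (m + 2) * Kb) ≤ 1 := by
    have : ρ ≤ 1 / (2 * (m + 2) * Kb) :=
      hρ2.le.trans (hρ₂ ▸ (min_le_right _ _).trans (min_le_right _ _))
    rwa [le_div_iff₀ (by positivity)] at this
  have hKn : ‖k + ρ • q‖ ≤ Kb := by
    rw [hKb]
    refine (norm_add_le _ _).trans ?_
    rw [norm_smul, Real.norm_of_nonneg hρ.le]
    nlinarith [norm_nonneg q]
  have h4 : (m + 2) * ρ * ‖k + ρ • q‖ ≤ (m + 2) * ρ * Kb :=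
    mul_le_mul_of_nonneg_left hKn (by positivity)
  have hp := hesc ρ hρ h1 1 (by simp)
  have hn := hesc ρ hρ h1 (-1) (by simp)
  rw [one_mul] at hp
  rw [neg_one_mul] at hn
  obtain ⟨p, p', hp1, hp2, hp3, hp4, hp5⟩ := exists_chord_of_escape B.unit hρ hm hp hn (by nlinarith)
  refine ⟨p, p', hp1, hp2, hp3, hp4.trans ?_, hp5.trans ?_⟩ <;> nlinarith

/-- **Boundary transfer.** A norming functional of a tangent vector is dominated by the norm of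
the image. -/
theorem Bas.boundary (B : Bas g h x₀ A Λ χ₀) {k : X} (hk0 : χ₀ k = 0) (hk : k ≠ 0)
    {φ : StrongDual ℝ X} (hφ : Norming φ k) (q : X) : φ q ≤ ‖A q‖ := by
  refine le_of_forall_pos_le_add fun ε hε => ?_
  obtain ⟨C, ρ₁, hC, hρ₁, hch⟩ := B.short_chord hk0 hk q
  obtain ⟨ε₁, hε₁⟩ : ∃ ε₁, ε₁ = ε / (2 * C ^ 2) := ⟨_, rfl⟩
  have hε₁0 : 0 < ε₁ := by
    rw [hε₁]
    positivity
  obtain ⟨δ, hδ, hb⟩ := Metric.eventually_nhds_iff.1 (B.b1 ε₁ hε₁0)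
  obtain ⟨ρ, hρ⟩ : ∃ ρ, ρ = min (ρ₁ / 2) (δ / (2 * C)) := ⟨_, rfl⟩
  have hρ0 : 0 < ρ := by
    rw [hρ]
    positivity
  have h1 : ρ < ρ₁ := by
    have : ρ ≤ ρ₁ / 2 := hρ ▸ min_le_left _ _
    linarith
  have h2 : C * ρ < δ := by
    have : ρ ≤ δ / (2 * C) := hρ ▸ min_le_right _ _
    rw [le_div_iff₀ (by positivity)] at this
    nlinarith
  obtain ⟨p, p', hp, hp', hd, hn, hn'⟩ := hch ρ hρ0 h1
  have hb1 := @hb p (by
    rw [dist_eq_norm]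
    exact hn.trans_lt h2) hp
  have hb2 := @hb p' (by
    rw [dist_eq_norm]
    exact hn'.trans_lt h2) hp'
  have hsq : ∀ w : X, ‖w‖ ≤ C * ρ → ε₁ * ‖w‖ ^ 2 ≤ ε₁ * (C * ρ) ^ 2 := by
    intro w hw
    exact mul_le_mul_of_nonneg_left (pow_le_pow_left₀ (norm_nonneg _) hw 2) hε₁0.le
  have hiso := B.iso.iso _ _ hp' hp
  rw [hd, norm_smul, Real.norm_of_nonneg hρ0.le] at hiso
  have e : g p' - g p = ρ • (A k + ρ • A q) + (g p' - A p') - (g p - A p) := by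
    have : A (p' - p) = ρ • (A k + ρ • A q) := by
      rw [hd]
      simp
    rw [map_sub] at this
    rw [← this]
    abel
  have hup : ‖g p' - g p‖ ≤ ρ * ‖A k + ρ • A q‖ + ε₁ * (C * ρ) ^ 2 + ε₁ * (C * ρ) ^ 2 := by
    rw [e]
    refine (norm_sub_le _ _).trans ?_
    have h3 := (norm_add_le (ρ • (A k + ρ • A q)) (g p' - A p'))
    rw [norm_smul, Real.norm_of_nonneg hρ0.le] at h3
    linarith [hb2.trans (hsq _ hn'), hb1.trans (hsq _ hn)]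
  rw [hiso] at hup
  have h3 : ‖A k + ρ • A q‖ ≤ ‖k‖ + ρ * ‖A q‖ := by
    refine (norm_add_le _ _).trans ?_
    rw [norm_smul, Real.norm_of_nonneg hρ0.le, B.normA hk0]
  have h4 : ‖k‖ + ρ * φ q ≤ ‖k + ρ • q‖ := by
    have := hφ.apply_le (k + ρ • q)
    rw [map_add, map_smul, hφ.val, smul_eq_mul] at this
    exact this
  have h5 : ε₁ * (C * ρ) ^ 2 * 2 = ε * ρ ^ 2 := by
    rw [hε₁]
    field_simp
  have h6 : ρ * (ρ * φ q) ≤ ρ * (ρ * (‖A q‖ + ε)) := by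
    have h7 : ρ * (‖k‖ + ρ * φ q) ≤ ρ * ‖k + ρ • q‖ := mul_le_mul_of_nonneg_left h4 hρ0.le
    have h8 : ρ * ‖A k + ρ • A q‖ ≤ ρ * (‖k‖ + ρ * ‖A q‖) := mul_le_mul_of_nonneg_left h3 hρ0.le
    nlinarith
  have h7 : 0 < ρ * ρ := by positivity
  have h8 : (ρ * ρ) * φ q ≤ (ρ * ρ) * (‖A q‖ + ε) := by
    linarith [mul_assoc ρ ρ (φ q), mul_assoc ρ ρ (‖A q‖ + ε)]
  exact le_of_mul_le_mul_left h8 h7

end Bdy

end Vale.Agent.Lib.P084.Gen
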