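import Mathlib
import Vale.Agent.Lib.P084.Gen.Bdy

/-! The comparison of the two values along a ray of functionals, for an arbitrary norm. -/

namespace Vale.Agent.Lib.P084.Gen

open Set Metric Filter Topology
open Vale.Agent.Lib.P084

section RayLemma

/-- **Abstract ray lemma.** -/
theorem ray_lemma' {α β : ℝ → ℝ} (hα : ContinuousOn α (Ioo 0 1)) (hβ : ContinuousOn β (Ioo 0 1))
    (hanti : ∀ τ₁ τ₂ : ℝ, 0 < τ₁ → τ₁ < τ₂ → τ₂ < 1 → α τ₂ / τ₂ < α τ₁ / τ₁)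
    (h0 : ∀ v : ℝ, v < 0 → ∀ᶠ τ in 𝓝[>] (0 : ℝ), v < (β τ - α τ) / τ)
    (h1 : ∀ v : ℝ, v < 0 → ∀ᶠ τ in 𝓝[<] (1 : ℝ), v < (β τ - α τ) / τ)
    (hloc : ∀ τ ∈ Ioo (0 : ℝ) 1, β τ < α τ → ∃ r c : ℝ, β τ = r * α τ + c * τ ∧
      ∀ᶠ τ' in 𝓝 τ, β τ' ≤ r * α τ' + c * τ') :
    ∀ τ ∈ Ioo (0 : ℝ) 1, α τ ≤ β τ := by
  intro τ₀ hτ₀
  by_contra hcon
  push Not at hcon
  obtain ⟨q, hq⟩ : ∃ q : ℝ → ℝ, q = fun τ : ℝ => (β τ - α τ) / τ := ⟨_, rfl⟩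
  have hqv : ∀ τ, q τ = (β τ - α τ) / τ := fun τ => by rw [hq]
  have hq0 : q τ₀ < 0 := by
    rw [hqv]
    exact div_neg_of_neg_of_pos (by linarith) hτ₀.1
  have hqc : ContinuousOn q (Ioo 0 1) := by
    rw [hq]
    refine (hβ.sub hα).div continuousOn_id fun τ hτ => ?_
    exact hτ.1.ne'
  -- compact core
  have hev0 : ∀ᶠ τ in 𝓝[>] (0 : ℝ), q τ₀ < q τ := by
    filter_upwards [h0 _ hq0] with τ hτ
    rw [hqv τ]
    exact hτ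
  have hev1 : ∀ᶠ τ in 𝓝[<] (1 : ℝ), q τ₀ < q τ := by
    filter_upwards [h1 _ hq0] with τ hτ
    rw [hqv τ]
    exact hτ
  obtain ⟨a₀, ha₀, ha₁⟩ := (mem_nhdsGT_iff_exists_Ioo_subset.1 hev0)
  obtain ⟨b₀, hb₀, hb₁⟩ := (mem_nhdsLT_iff_exists_Ioo_subset.1 hev1)
  obtain ⟨a, ha⟩ : ∃ a, a = min τ₀ (a₀ / 2) := ⟨_, rfl⟩
  obtain ⟨b, hb⟩ : ∃ b, b = max τ₀ ((1 + b₀) / 2) := ⟨_, rfl⟩
  have ha₀' : 0 < a₀ := ha₀
  have hb₀' : b₀ < 1 := hb₀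
  have hapos : 0 < a := by
    rw [ha]
    exact lt_min hτ₀.1 (by positivity)
  have haτ : a ≤ τ₀ := ha ▸ min_le_left _ _
  have haa : a < a₀ := by
    have : a ≤ a₀ / 2 := ha ▸ min_le_right _ _
    linarith
  have hτb : τ₀ ≤ b := hb ▸ le_max_left _ _
  have hb1 : b < 1 := by
    rw [hb]
    exact max_lt hτ₀.2 (by linarith)
  have hbb : b₀ < b := by
    have : (1 + b₀) / 2 ≤ b := hb ▸ le_max_right _ _
    linarith
  have hsub : Icc a b ⊆ Ioo 0 1 := fun τ hτ => ⟨hapos.trans_le hτ.1, hτ.2.trans_lt hb1⟩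
  have hne : (Icc a b).Nonempty := ⟨τ₀, haτ, hτb⟩
  obtain ⟨τs, hτs, hmin⟩ := isCompact_Icc.exists_isMinOn hne (hqc.mono hsub)
  have hmin' : ∀ τ ∈ Icc a b, q τs ≤ q τ := fun τ hτ => hmin hτ
  obtain ⟨v, hv⟩ : ∃ v, v = q τs := ⟨_, rfl⟩
  have hvτ₀ : v ≤ q τ₀ := by
    rw [hv]
    exact hmin' τ₀ ⟨haτ, hτb⟩
  have hvneg : v < 0 := hvτ₀.trans_lt hq0
  -- outside the core `q` is larger
  have hout : ∀ τ ∈ Ioo (0 : ℝ) 1, q τ = v → τ ∈ Icc a b := by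
    intro τ hτ hqτ
    constructor
    · by_contra hc
      push Not at hc
      have := ha₁ (show τ ∈ Ioo 0 a₀ from ⟨hτ.1, hc.trans haa⟩)
      have h3 : q τ₀ < q τ := this
      linarith
    · by_contra hc
      push Not at hc
      have := hb₁ (show τ ∈ Ioo b₀ 1 from ⟨hbb.trans hc, hτ.2⟩)
      have h3 : q τ₀ < q τ := this
      linarith
  have hge : ∀ τ ∈ Ioo (0 : ℝ) 1, v ≤ q τ := by
    intro τ hτ
    by_cases hI : τ ∈ Icc a b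
    · rw [hv]
      exact hmin' τ hI
    · by_contra hc
      push Not at hc
      rw [mem_Icc] at hI
      push Not at hI
      by_cases hτa : a ≤ τ
      · have := hb₁ (show τ ∈ Ioo b₀ 1 from ⟨hbb.trans (hI hτa), hτ.2⟩)
        have h3 : q τ₀ < q τ := this
        linarith
      · push Not at hτa
        have := ha₁ (show τ ∈ Ioo 0 a₀ from ⟨hτ.1, hτa.trans haa⟩)
        have h3 : q τ₀ < q τ := this
        linarith
  -- the least point of the minimum set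
  let M : Set ℝ := Icc a b ∩ {τ | q τ = v}
  have hMc : IsCompact M := by
    have h3 : M = Icc a b ∩ (q ⁻¹' {v}) := rfl
    rw [h3]
    exact isCompact_Icc.of_isClosed_subset
      ((hqc.mono hsub).preimage_isClosed_of_isClosed isClosed_Icc isClosed_singleton)
      inter_subset_left
  have hMne : M.Nonempty := ⟨τs, hτs, hv.symm⟩
  obtain ⟨τ₂, hτ₂, hleast⟩ : ∃ τ₂ ∈ M, ∀ τ ∈ M, τ₂ ≤ τ := by
    obtain ⟨τ₂, hτ₂, hl⟩ := hMc.exists_isMinOn hMne (continuousOn_id)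
    exact ⟨τ₂, hτ₂, fun τ hτ => hl hτ⟩
  have hτ₂I : τ₂ ∈ Ioo (0 : ℝ) 1 := hsub hτ₂.1
  have hqτ₂ : q τ₂ = v := hτ₂.2
  have hlt : β τ₂ < α τ₂ := by
    rw [hqv] at hqτ₂
    have h3 : (β τ₂ - α τ₂) / τ₂ < 0 := by rw [hqτ₂]; exact hvneg
    by_contra hc
    push Not at hc
    have h4 : 0 ≤ (β τ₂ - α τ₂) / τ₂ := div_nonneg (by linarith) hτ₂I.1.le
    linarith
  obtain ⟨r, c, hrc, hev⟩ := hloc τ₂ hτ₂I hlt
  have hform : ∀ τ : ℝ, 0 < τ → β τ ≤ r * α τ + c * τ → q τ ≤ (r - 1) * (α τ / τ) + c := by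
    intro τ hτ hle
    rw [hqv, div_le_iff₀ hτ]
    have e : ((r - 1) * (α τ / τ) + c) * τ = (r - 1) * α τ + c * τ := by
      field_simp
    rw [e]
    linarith
  have hval : v = (r - 1) * (α τ₂ / τ₂) + c := by
    have hτne : τ₂ ≠ 0 := hτ₂I.1.ne'
    rw [← hqτ₂, hqv, hrc]
    field_simp
    ring
  have hnear : ∀ᶠ τ in 𝓝 τ₂, τ ∈ Ioo (0 : ℝ) 1 ∧ β τ ≤ r * α τ + c * τ :=
    Filter.Eventually.and (isOpen_Ioo.mem_nhds hτ₂I) hev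
  obtain ⟨ε, hε, hball⟩ := Metric.eventually_nhds_iff.1 hnear
  obtain ⟨h1a, h1b⟩ := @hball (τ₂ - ε / 2) (by
    rw [Real.dist_eq, abs_lt]
    constructor <;> linarith)
  obtain ⟨h3a, h3b⟩ := @hball (τ₂ + ε / 2) (by
    rw [Real.dist_eq, abs_lt]
    constructor <;> linarith)
  have hq1 := hform _ h1a.1 h1b
  have hq3 := hform _ h3a.1 h3b
  have hg1 := hge _ h1a
  have hg3 := hge _ h3a
  have ha1 := hanti (τ₂ - ε / 2) τ₂ h1a.1 (by linarith) hτ₂I.2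
  have ha3 := hanti τ₂ (τ₂ + ε / 2) hτ₂I.1 (by linarith) h3a.2
  have hr1 : r = 1 := by
    apply le_antisymm
    · by_contra hc
      push Not at hc
      have : (r - 1) * (α (τ₂ + ε / 2) / (τ₂ + ε / 2)) < (r - 1) * (α τ₂ / τ₂) :=
        mul_lt_mul_of_pos_left ha3 (by linarith)
      linarith
    · by_contra hc
      push Not at hc
      have : (r - 1) * (α (τ₂ - ε / 2) / (τ₂ - ε / 2)) < (r - 1) * (α τ₂ / τ₂) :=
        mul_lt_mul_of_neg_left ha1 (by linarith)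
      linarith
  have hfin : q (τ₂ - ε / 2) = v := by
    refine le_antisymm ?_ hg1
    rw [hr1] at hq1 hval
    linarith
  have hmem := hleast (τ₂ - ε / 2) ⟨hout _ h1a hfin, hfin⟩
  linarith

end RayLemma

section RayEnd

variable {E : Type*} [NormedAddCommGroup E] [NormedSpace ℝ E]
  {χ₀ ξ₁ : StrongDual ℝ E} {x₀ : E} {y : ℝ → E} {α : ℝ → ℝ}

/-- The limit of the value at the far end of a ray. -/
lemma ray_end (hx₀ : ξ₁ x₀ = 0) (hxn : ‖x₀‖ = 1) (hχ : χ₀ x₀ = 1)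
    (hb : ∀ w, χ₀ w = 0 → ξ₁ w ≤ ‖w‖)
    (hm : ∀ τ ∈ Ioo (0 : ℝ) 1, IsM χ₀ (τ • ξ₁) (y τ) (α τ)) :
    ∃ a₁ : ℝ, ‖ξ₁ + a₁ • χ₀‖ ≤ 1 ∧ ∀ ε : ℝ, 0 < ε → ∀ᶠ τ in 𝓝[<] (1 : ℝ), α τ < τ * (a₁ + ε) := by
  have hanti := ray_anti hm
  have hbd : ∀ τ ∈ Ioo (0 : ℝ) 1, -2 ≤ α τ / τ := by
    intro τ hτ
    by_cases h12 : τ < 1 / 2
    · have h1 := hanti τ (1 / 2) hτ.1 h12 (by norm_num)
      have h2 := (hm (1 / 2) (by norm_num)).abs_val hxn hχ (by simp [hx₀])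
      have h3 := (abs_le.1 h2).1
      have h4 : -2 ≤ α (1 / 2) / (1 / 2) := by
        rw [div_eq_mul_inv]
        norm_num
        linarith
      linarith
    · push Not at h12
      have h2 := (hm τ hτ).abs_val hxn hχ (by simp [hx₀])
      have h3 := (abs_le.1 h2).1
      rw [le_div_iff₀ hτ.1]
      nlinarith
  let S : Set ℝ := (fun τ => α τ / τ) '' Ioo (0 : ℝ) 1
  have hSb : BddBelow S := ⟨-2, by
    rintro _ ⟨τ, hτ, rfl⟩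
    exact hbd τ hτ⟩
  have hSne : S.Nonempty := ⟨_, 1 / 2, by norm_num, rfl⟩
  obtain ⟨a₁, ha₁⟩ : ∃ a₁, a₁ = sInf S := ⟨_, rfl⟩
  have hle : ∀ τ ∈ Ioo (0 : ℝ) 1, a₁ ≤ α τ / τ := fun τ hτ => by
    rw [ha₁]
    exact csInf_le hSb ⟨τ, hτ, rfl⟩
  have hup : ∀ ε : ℝ, 0 < ε → ∀ᶠ τ in 𝓝[<] (1 : ℝ), α τ < τ * (a₁ + ε) := by
    intro ε hε
    obtain ⟨_, ⟨τ₀, hτ₀, rfl⟩, h2⟩ := exists_lt_of_csInf_lt hSne
      (show sInf S < a₁ + ε by rw [← ha₁]; linarith)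
    have h3 : ∀ᶠ τ in 𝓝[<] (1 : ℝ), τ₀ < τ := nhdsWithin_le_nhds (lt_mem_nhds hτ₀.2)
    filter_upwards [h3, self_mem_nhdsWithin] with τ h4 h5
    have h5' : τ < 1 := h5
    have h6 := hanti τ₀ τ hτ₀.1 h4 h5'
    have h7 : 0 < τ := hτ₀.1.trans h4
    have h8 : α τ / τ < a₁ + ε := h6.trans h2
    rw [div_lt_iff₀ h7] at h8
    linarith
  refine ⟨a₁, ?_, hup⟩
  -- passage to the limit
  refine norm_le_of_forall fun v => ?_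
  refine le_of_forall_pos_le_add fun ε hε => ?_
  obtain ⟨C, hC⟩ : ∃ C, C = |ξ₁ v| + (1 + |a₁|) * |χ₀ v| + 1 := ⟨_, rfl⟩
  have hC0 : 0 < C := by
    rw [hC]
    positivity
  obtain ⟨e, he⟩ : ∃ e, e = ε / C := ⟨_, rfl⟩
  have he0 : 0 < e := by
    rw [he]
    positivity
  have heC : e * C = ε := by
    rw [he]
    field_simp
  have hτ1 : ∀ᶠ τ in 𝓝[<] (1 : ℝ), 1 - min e (1 / 2) < τ := by
    refine nhdsWithin_le_nhds (lt_mem_nhds ?_)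
    have : 0 < min e (1 / 2) := by positivity
    linarith
  obtain ⟨τ, h1, h2, h3⟩ := ((hup e he0).and (hτ1.and self_mem_nhdsWithin)).exists
  have h3' : τ < 1 := h3
  have h4 : 1 - e < τ := by
    have : min e (1 / 2) ≤ e := min_le_left _ _
    linarith
  have h4' : 1 / 2 < τ := by
    have : min e (1 / 2) ≤ 1 / 2 := min_le_right _ _
    linarith
  have hτ : τ ∈ Ioo (0 : ℝ) 1 := ⟨by linarith, h3'⟩
  have h5 := hle τ hτ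
  rw [le_div_iff₀ hτ.1] at h5
  have h6 := (hm τ hτ).norming.apply_le v
  simp only [_root_.add_apply, _root_.smul_apply, smul_eq_mul] at h6 ⊢
  have h7 : |a₁ - α τ| ≤ e * (1 + |a₁|) := by
    have h8 : a₁ - α τ = (1 - τ) * a₁ - (α τ - a₁ * τ) := by ring
    rw [h8]
    refine (abs_sub _ _).trans ?_
    rw [abs_mul, abs_of_pos (by linarith : (0 : ℝ) < 1 - τ), abs_of_nonneg (by linarith : 0 ≤ α τ - a₁ * τ)]
    have h9 : (1 - τ) * |a₁| ≤ e * |a₁| := mul_le_mul_of_nonneg_right (by linarith) (abs_nonneg _)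
    have h10 : α τ - a₁ * τ ≤ e := by nlinarith
    linarith
  have h11 : (1 - τ) * ξ₁ v ≤ e * |ξ₁ v| := by
    have h12 : (1 - τ) * ξ₁ v ≤ (1 - τ) * |ξ₁ v| :=
      mul_le_mul_of_nonneg_left (le_abs_self _) (by linarith)
    have h13 : (1 - τ) * |ξ₁ v| ≤ e * |ξ₁ v| :=
      mul_le_mul_of_nonneg_right (by linarith) (abs_nonneg _)
    linarith
  have h12 : (a₁ - α τ) * χ₀ v ≤ e * (1 + |a₁|) * |χ₀ v| := by
    have h13 : (a₁ - α τ) * χ₀ v ≤ |a₁ - α τ| * |χ₀ v| := by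
      rw [← abs_mul]
      exact le_abs_self _
    have h14 : |a₁ - α τ| * |χ₀ v| ≤ e * (1 + |a₁|) * |χ₀ v| :=
      mul_le_mul_of_nonneg_right h7 (abs_nonneg _)
    linarith
  have h13 : e * |ξ₁ v| + e * (1 + |a₁|) * |χ₀ v| ≤ ε := by
    rw [← heC, hC]
    nlinarith
  nlinarith

end RayEnd

section Cmp

variable {X Y : Type*} [NormedAddCommGroup X] [NormedSpace ℝ X]
  [NormedAddCommGroup Y] [NormedSpace ℝ Y] {g : X → Y} {h : Y → X} {x₀ : X} {A : X →L[ℝ] Y}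
  {Λ : Y →L[ℝ] X} {χ₀ : StrongDual ℝ X}

/-- The bound for the transported functional. -/
lemma Fst.hb_comp (B : Fst g h x₀ A Λ χ₀) {ξ₁ : StrongDual ℝ X} {θ : ℝ}
    (hb : ∀ w, χ₀ w = 0 → ξ₁ w ≤ θ * ‖w‖) : ∀ W, (χ₀.comp Λ) W = 0 → (ξ₁.comp Λ) W ≤ θ * ‖W‖ := by
  intro W hW
  have h1 := hb (Λ W) hW
  have h2 := B.normA (w := Λ W) hW
  rw [B.right] at h2
  rw [h2]
  exact h1

/-- The lower bound for the second value at the far end. -/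
lemma Bas.end_bound (B : Bas g h x₀ A Λ χ₀) {ξ₁ : StrongDual ℝ X} {k : X} (hk : ‖k‖ = 1)
    (hk0 : χ₀ k = 0) (hxk : ξ₁ k = 1) {a₁ : ℝ} (ha₁ : ‖ξ₁ + a₁ • χ₀‖ ≤ 1) {τ : ℝ}
    (hτ : τ ∈ Ioo (0 : ℝ) 1) {Y' : Y} {b : ℝ} (hm : IsM (χ₀.comp Λ) (τ • ξ₁.comp Λ) Y' b) :
    τ * a₁ + (1 - τ) ≤ b := by
  have hk00 : k ≠ 0 := by
    rintro rfl
    simp at hk
  have hnorming : Norming (ξ₁ + a₁ • χ₀) k := by
    refine ⟨ha₁, ?_⟩
    simp [hk0, hxk, hk]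
  have hΛ : ∀ V, (ξ₁ + a₁ • χ₀) (Λ V) ≤ ‖V‖ := by
    intro V
    have := B.boundary hk0 hk00 hnorming (Λ V)
    rwa [B.right] at this
  refine hm.le_of_norm (norm_le_of_forall fun V => ?_)
  have h1 := hΛ V
  have h2 := B.norming'.apply_le V
  simp only [_root_.add_apply, _root_.smul_apply, ContinuousLinearMap.comp_apply, smul_eq_mul] at h1 h2 ⊢
  have h3 : τ * (ξ₁ (Λ V) + a₁ * χ₀ (Λ V)) ≤ τ * ‖V‖ := mul_le_mul_of_nonneg_left h1 hτ.1.le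
  have h4 : (1 - τ) * χ₀ (Λ V) ≤ (1 - τ) * ‖V‖ := mul_le_mul_of_nonneg_left h2 (by linarith [hτ.2])
  nlinarith

variable [FiniteDimensional ℝ X] [FiniteDimensional ℝ Y]

/-- The local inequality at a point of the ray where the second value is smaller. -/
lemma Bas.ray_loc (B : Bas g h x₀ A Λ χ₀) {ξ₁ : StrongDual ℝ X} (hξ : ξ₁ x₀ = 0)
    (hb : ∀ w, χ₀ w = 0 → ξ₁ w ≤ ‖w‖) {y : ℝ → X} {y' : ℝ → Y} {α β : ℝ → ℝ}
    (hm : ∀ τ ∈ Ioo (0 : ℝ) 1, IsM χ₀ (τ • ξ₁) (y τ) (α τ))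
    (hm' : ∀ τ ∈ Ioo (0 : ℝ) 1, IsM (χ₀.comp Λ) (τ • ξ₁.comp Λ) (y' τ) (β τ))
    (hα : ContinuousOn α (Ioo 0 1)) (hβ : ContinuousOn β (Ioo 0 1))
    {τ : ℝ} (hτ : τ ∈ Ioo (0 : ℝ) 1) (hlt : β τ < α τ) :
    ∃ r c : ℝ, β τ = r * α τ + c * τ ∧ ∀ᶠ τ' in 𝓝 τ, β τ' ≤ r * α τ' + c * τ' := by
  have hcomp : ∀ s : ℝ, (s • ξ₁).comp Λ = s • ξ₁.comp Λ := by
    intro s
    ext v
    simp
  obtain ⟨y₀, hy₀⟩ : ∃ y₀, y₀ = y τ := ⟨_, rfl⟩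
  have hm₀ : IsM χ₀ (τ • ξ₁) y₀ (α τ) := by
    rw [hy₀]
    exact hm τ hτ
  -- uniqueness of the minimiser
  have huniq : ∀ y'' a'', IsM χ₀ (τ • ξ₁) y'' a'' → y'' = y₀ := by
    intro y'' a'' h1
    have h2 : a'' = α τ := hm₀.val_unique h1
    rw [h2] at h1
    by_contra hne
    have h3 := B.key h1 hm₀ hne (Y' := y' τ) (b := β τ) (by
      rw [hcomp]
      exact hm' τ hτ)
    linarith
  obtain ⟨t, ht, hu⟩ := B.exit hm₀.aff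
  obtain ⟨u, hudef⟩ : ∃ u, u = x₀ - t • y₀ := ⟨_, rfl⟩
  rw [← hudef] at hu
  have hut : x₀ - u = t • y₀ := by
    rw [hudef, sub_sub_cancel]
  obtain ⟨_, t₂, b, y₂, ht₂, hZ, hm₂⟩ := B.chord hm₀ ht hu hut
  have hb₂ : b = β τ := by
    rw [hcomp] at hm₂
    exact (hm' τ hτ).val_unique hm₂
  rw [hb₂] at hm₂
  obtain ⟨Z, hZd⟩ : ∃ Z, Z = g x₀ - g u := ⟨_, rfl⟩
  rw [← hZd] at hZ
  have ht₂Z : (χ₀.comp Λ) Z = t₂ := by
    rw [hZ, map_smul, hm₂.aff, smul_eq_mul, mul_one]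
  obtain ⟨κ, hκ⟩ : ∃ κ, κ = (α τ - β τ) / 2 := ⟨_, rfl⟩
  have hκ0 : 0 < κ := by
    rw [hκ]
    linarith
  obtain ⟨η, hη, hloc⟩ := B.local (ξ := τ • ξ₁) (by simp [hξ]) (θ := τ) hτ.2 (fun w hw => by
    simp only [_root_.smul_apply, smul_eq_mul]
    exact mul_le_mul_of_nonneg_left (hb w hw) hτ.1.le) huniq hm₀.aff ht hu hut hκ0
  rw [← hZd, ht₂Z] at hloc
  refine ⟨t / t₂, (t * ξ₁ y₀ - ξ₁ (Λ Z)) / t₂, ?_, ?_⟩
  · -- the equality at `τ`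
    have h1 : ‖Z‖ = t * ‖y₀‖ := by
      rw [hZd, B.iso.iso _ _ B.unit hu, hut, norm_smul, Real.norm_of_nonneg ht.le]
    have h2 := (hm₂.norming.smul ht₂.le).val
    rw [← hZ, h1] at h2
    simp only [hcomp, _root_.add_apply, _root_.smul_apply, ContinuousLinearMap.comp_apply,
      smul_eq_mul] at h2
    have h3 := hm₀.val
    simp only [_root_.smul_apply, smul_eq_mul] at h3
    have h4 : χ₀ (Λ Z) = t₂ := ht₂Z
    rw [h4] at h2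
    field_simp
    rw [← h3]
    linarith
  · -- the inequality near `τ`
    have hc1 : ContinuousAt (fun s : ℝ => β s - α s) τ :=
      (hβ.continuousAt (isOpen_Ioo.mem_nhds hτ)).sub (hα.continuousAt (isOpen_Ioo.mem_nhds hτ))
    have hc2 : ∀ᶠ s in 𝓝 τ, β s - α s < -κ := by
      refine hc1.eventually (gt_mem_nhds ?_)
      rw [hκ]
      linarith
    have hc3 : ∀ᶠ s : ℝ in 𝓝 τ, ‖s • ξ₁ - τ • ξ₁‖ < η := by
      have hc : Continuous fun s : ℝ => ‖s • ξ₁ - τ • ξ₁‖ := by fun_prop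
      exact hc.continuousAt.eventually (gt_mem_nhds (by simpa using hη))
    filter_upwards [hc2, hc3, isOpen_Ioo.mem_nhds hτ] with s hs1 hs2 hs3
    have h1 := hloc (s • ξ₁) (y s) (α s) (y' s) (β s) hs2 (by simp [hξ]) (hm s hs3) (by
      rw [hcomp]
      exact hm' s hs3) (by linarith)
    simp only [_root_.smul_apply, smul_eq_mul] at h1
    rw [div_mul_eq_mul_div, div_mul_eq_mul_div, ← add_div, le_div_iff₀ ht₂]
    nlinarith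

/-- Along a ray, the value of the first problem is at most that of the second. -/
theorem Bas.ray_ge (B : Bas g h x₀ A Λ χ₀) {ξ₁ : StrongDual ℝ X} (hξ : ξ₁ x₀ = 0) {k : X}
    (hk : ‖k‖ = 1) (hk0 : χ₀ k = 0) (hxk : ξ₁ k = 1) (hb : ∀ w, χ₀ w = 0 → ξ₁ w ≤ ‖w‖)
    {y : ℝ → X} {y' : ℝ → Y} {α β : ℝ → ℝ}
    (hm : ∀ τ ∈ Ioo (0 : ℝ) 1, IsM χ₀ (τ • ξ₁) (y τ) (α τ))
    (hm' : ∀ τ ∈ Ioo (0 : ℝ) 1, IsM (χ₀.comp Λ) (τ • ξ₁.comp Λ) (y' τ) (β τ)) :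
    ∀ τ ∈ Ioo (0 : ℝ) 1, α τ ≤ β τ := by
  have hξ' : (ξ₁.comp Λ) (g x₀) = 0 := by
    simp [B.Lx, hξ]
  have hb' : ∀ W, (χ₀.comp Λ) W = 0 → (ξ₁.comp Λ) W ≤ ‖W‖ := by
    intro W hW
    have := B.toFst.hb_comp (θ := 1) (ξ₁ := ξ₁) (by simpa using hb) W hW
    simpa using this
  have hα := ray_cont B.unit B.self hξ hb hm
  have hβ := ray_cont B.y_unit B.self' hξ' hb' hm'
  refine ray_lemma' hα hβ (ray_anti hm) ?_ ?_ (fun τ hτ hlt => B.ray_loc hξ hb hm hm' hα hβ hτ hlt)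
  · intro v hv
    have h1 := ray_zero B.unit B.self B.chi_le hξ (fun w hw1 hw2 => B.exposed hw1 hw2) hm
    have h2 := ray_zero B.y_unit B.self' B.norming'.apply_le hξ'
      (fun w hw1 hw2 => B.symm.exposed hw1 hw2) hm'
    have h3 := h2.sub h1
    rw [sub_self] at h3
    filter_upwards [h3.eventually (lt_mem_nhds hv)] with τ hτ
    have e : (β τ - 1) / τ - (α τ - 1) / τ = (β τ - α τ) / τ := by ring
    rwa [e] at hτ
  · intro v hv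
    obtain ⟨a₁, ha₁, hup⟩ := ray_end hξ B.unit B.self hb hm
    have hτ0 : ∀ᶠ τ : ℝ in 𝓝[<] 1, τ ∈ Ioo (0 : ℝ) 1 := Ioo_mem_nhdsLT one_pos
    filter_upwards [hup (-v) (by linarith), hτ0] with τ h1 h2
    have h3 := B.end_bound hk hk0 hxk ha₁ h2 (hm' τ h2)
    rw [lt_div_iff₀ h2.1]
    nlinarith [h2.1, h2.2]

/-- Along a ray, both values coincide. -/
theorem Bas.ray_eq (B : Bas g h x₀ A Λ χ₀) {ξ₁ : StrongDual ℝ X} (hξ : ξ₁ x₀ = 0) {k : X}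
    (hk : ‖k‖ = 1) (hk0 : χ₀ k = 0) (hxk : ξ₁ k = 1) (hb : ∀ w, χ₀ w = 0 → ξ₁ w ≤ ‖w‖)
    {y : ℝ → X} {y' : ℝ → Y} {α β : ℝ → ℝ}
    (hm : ∀ τ ∈ Ioo (0 : ℝ) 1, IsM χ₀ (τ • ξ₁) (y τ) (α τ))
    (hm' : ∀ τ ∈ Ioo (0 : ℝ) 1, IsM (χ₀.comp Λ) (τ • ξ₁.comp Λ) (y' τ) (β τ)) :
    ∀ τ ∈ Ioo (0 : ℝ) 1, α τ = β τ := by
  intro τ hτ
  refine le_antisymm (B.ray_ge hξ hk hk0 hxk hb hm hm' τ hτ) ?_
  have hcomp : (ξ₁.comp Λ).comp A = ξ₁ := by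
    ext v
    simp [B.left]
  have hcomp2 : (χ₀.comp Λ).comp A = χ₀ := by
    ext v
    simp [B.left]
  have hb' : ∀ W, (χ₀.comp Λ) W = 0 → (ξ₁.comp Λ) W ≤ ‖W‖ := by
    intro W hW
    have := B.toFst.hb_comp (θ := 1) (ξ₁ := ξ₁) (by simpa using hb) W hW
    simpa using this
  refine B.symm.ray_ge (ξ₁ := ξ₁.comp Λ) (k := A k) (by simp [B.Lx, hξ]) (by rw [B.normA hk0, hk])
    (by simp [B.left, hk0]) (by simp [B.left, hxk]) hb' (y := y') (y' := y) (α := β) (β := α) hm' ?_ τ hτ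
  intro s hs
  rw [hcomp, hcomp2]
  exact hm s hs

end Cmp

end Vale.Agent.Lib.P084.Gen
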