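import Mathlib
import Vale.Agent.Lib.P084.Gen.Ray

/-! From a second order base point to a linear isometry and exact relations, for an arbitrary
norm. -/

namespace Vale.Agent.Lib.P084.Gen

open Set Metric Filter Topology
open Vale.Agent.Lib.P084
open Vale.Agent.Lib.P084.Str (curve curve_zero BigO hasDerivAt_zero_of_sq)

section Lin

variable {X Y : Type*} [NormedAddCommGroup X] [NormedSpace ℝ X]
  [NormedAddCommGroup Y] [NormedSpace ℝ Y] {g : X → Y} {h : Y → X} {x₀ : X} {A : X →L[ℝ] Y}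
  {Λ : Y →L[ℝ] X} {χ₀ : StrongDual ℝ X}

/-- The value of the trivial problem. -/
lemma isM_zero_val {E : Type*} [NormedAddCommGroup E] [NormedSpace ℝ E] {χ : StrongDual ℝ E} {x : E}
    (hx : ‖x‖ = 1) (hχx : χ x = 1) (hχ : ∀ v, χ v ≤ ‖v‖) {ξ : StrongDual ℝ E} (hξ : ξ = 0) {y : E}
    {a : ℝ} (hm : IsM χ ξ y a) : a = 1 := by
  subst hξ
  have h1 := hm.val
  have h2 := hm.le x hχx
  have h3 := hχ y
  rw [hm.aff] at h3
  simp only [_root_.zero_apply, sub_zero] at h1 h2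
  linarith

variable [FiniteDimensional ℝ X] [FiniteDimensional ℝ Y]

/-- Families of minimisers along a ray. -/
lemma Fst.exists_families (B : Fst g h x₀ A Λ χ₀) {ξ₁ : StrongDual ℝ X} (hξ : ξ₁ x₀ = 0)
    (hb : ∀ w, χ₀ w = 0 → ξ₁ w ≤ ‖w‖) :
    ∃ (y : ℝ → X) (y' : ℝ → Y) (α β : ℝ → ℝ),
      (∀ τ ∈ Ioo (0 : ℝ) 1, IsM χ₀ (τ • ξ₁) (y τ) (α τ)) ∧
      (∀ τ ∈ Ioo (0 : ℝ) 1, IsM (χ₀.comp Λ) (τ • ξ₁.comp Λ) (y' τ) (β τ)) := by
  have hb' : ∀ W, (χ₀.comp Λ) W = 0 → (ξ₁.comp Λ) W ≤ ‖W‖ := by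
    intro W hW
    have := B.hb_comp (θ := 1) (ξ₁ := ξ₁) (by simpa using hb) W hW
    simpa using this
  have hξ' : (ξ₁.comp Λ) (g x₀) = 0 := by
    simp [B.Lx, hξ]
  have hex : ∀ τ : ℝ, ∃ q : X × Y × ℝ × ℝ, τ ∈ Ioo (0 : ℝ) 1 →
      IsM χ₀ (τ • ξ₁) q.1 q.2.2.1 ∧ IsM (χ₀.comp Λ) (τ • ξ₁.comp Λ) q.2.1 q.2.2.2 := by
    intro τ
    by_cases hτ : τ ∈ Ioo (0 : ℝ) 1
    · obtain ⟨y, a, hm⟩ := exists_isM (ξ := τ • ξ₁) B.unit B.self (by simp [hξ]) (θ := τ) hτ.2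
        (fun w hw => by
          simp only [_root_.smul_apply, smul_eq_mul]
          exact mul_le_mul_of_nonneg_left (hb w hw) hτ.1.le)
      obtain ⟨y', b, hm'⟩ := exists_isM (ξ := τ • ξ₁.comp Λ) B.y_unit B.self' (by simp [hξ'])
        (θ := τ) hτ.2 (fun w hw => by
          simp only [_root_.smul_apply, smul_eq_mul]
          exact mul_le_mul_of_nonneg_left (hb' w hw) hτ.1.le)
      exact ⟨⟨y, y', a, b⟩, fun _ => ⟨hm, hm'⟩⟩
    · exact ⟨⟨0, 0, 0, 0⟩, fun h' => absurd h' hτ⟩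
  choose q hq using hex
  exact ⟨fun τ => (q τ).1, fun τ => (q τ).2.1, fun τ => (q τ).2.2.1, fun τ => (q τ).2.2.2,
    fun τ hτ => (hq τ hτ).1, fun τ hτ => (hq τ hτ).2⟩

/-- The values of the two problems coincide. -/
theorem Bas.value_eq (B : Bas g h x₀ A Λ χ₀) {ξ : StrongDual ℝ X} (hξ0 : ξ x₀ = 0) {θ : ℝ}
    (hθ : θ < 1) (hb : ∀ w, χ₀ w = 0 → ξ w ≤ θ * ‖w‖) {y : X} {a : ℝ} {Y' : Y} {b : ℝ}
    (h1 : IsM χ₀ ξ y a) (h2 : IsM (χ₀.comp Λ) (ξ.comp Λ) Y' b) : a = b := by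
  have hproj : ∀ z, χ₀ (z - χ₀ z • x₀) = 0 := B.tan
  have hξproj : ∀ z, ξ (z - χ₀ z • x₀) = ξ z := by
    intro z
    rw [map_sub, map_smul, hξ0]
    simp
  by_cases hpos : ∃ w, χ₀ w = 0 ∧ 0 < ξ w
  · -- the maximum on the tangent unit sphere
    obtain ⟨w₀, hw₀, hw₀pos⟩ := hpos
    have hw₀0 : w₀ ≠ 0 := by
      rintro rfl
      simp at hw₀pos
    have hw₀n := norm_pos_iff.2 hw₀0
    let S : Set X := sphere (0 : X) 1 ∩ {v | χ₀ v = 0}
    have hSc : IsCompact S :=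
      (isCompact_sphere _ _).inter_right (isClosed_eq χ₀.continuous continuous_const)
    have hw₁ : ‖w₀‖⁻¹ • w₀ ∈ S :=
      ⟨by simpa using unit_of_ne hw₀0, by simp [hw₀]⟩
    obtain ⟨k, hkS, hmax⟩ := hSc.exists_isMaxOn ⟨_, hw₁⟩ ξ.continuous.continuousOn
    have hk1 : ‖k‖ = 1 := by simpa using hkS.1
    have hkP : χ₀ k = 0 := hkS.2
    obtain ⟨τ, hτ⟩ : ∃ τ, τ = ξ k := ⟨_, rfl⟩
    have hτ0 : 0 < τ := by
      have h3 : ξ (‖w₀‖⁻¹ • w₀) ≤ ξ k := hmax hw₁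
      rw [map_smul, smul_eq_mul] at h3
      rw [hτ]
      exact (mul_pos (inv_pos.2 hw₀n) hw₀pos).trans_le h3
    have hτ1 : τ < 1 := by
      have h3 := hb k hkP
      rw [hk1, mul_one, ← hτ] at h3
      linarith
    have hbound : ∀ w, χ₀ w = 0 → ξ w ≤ τ * ‖w‖ := by
      intro w hw
      by_cases hw00 : w = 0
      · simp [hw00]
      have hwn : 0 < ‖w‖ := norm_pos_iff.2 hw00
      have h3 : ξ (‖w‖⁻¹ • w) ≤ ξ k := hmax ⟨by simpa using unit_of_ne hw00, by simp [hw]⟩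
      rw [map_smul, smul_eq_mul, inv_mul_le_iff₀ hwn, ← hτ] at h3
      linarith
    obtain ⟨ξ₁, hξ₁⟩ : ∃ ξ₁, ξ₁ = τ⁻¹ • ξ := ⟨_, rfl⟩
    have hξe : ξ = τ • ξ₁ := by
      rw [hξ₁, smul_smul, mul_inv_cancel₀ hτ0.ne', one_smul]
    have hξ₁0 : ξ₁ x₀ = 0 := by
      rw [hξ₁]
      simp [hξ0]
    have hξ₁k : ξ₁ k = 1 := by
      rw [hξ₁]
      simp only [_root_.smul_apply, smul_eq_mul]
      rw [← hτ]
      exact inv_mul_cancel₀ hτ0.ne'
    have hb₁ : ∀ w, χ₀ w = 0 → ξ₁ w ≤ ‖w‖ := by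
      intro w hw
      rw [hξ₁]
      simp only [_root_.smul_apply, smul_eq_mul]
      rw [inv_mul_le_iff₀ hτ0]
      exact hbound w hw
    obtain ⟨yf, yf', α, β, hm, hm'⟩ := B.toFst.exists_families hξ₁0 hb₁
    have hI : τ ∈ Ioo (0 : ℝ) 1 := ⟨hτ0, hτ1⟩
    have h3 := B.ray_eq hξ₁0 hk1 hkP hξ₁k hb₁ hm hm' τ hI
    have hcomp : ξ.comp Λ = τ • ξ₁.comp Λ := by
      rw [hξe]
      ext v
      simp
    rw [hξe] at h1
    rw [hcomp] at h2
    rw [(hm τ hI).val_unique h1, (hm' τ hI).val_unique h2, h3]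
  · push Not at hpos
    have hz : ξ = 0 := by
      ext z
      have h3 := hpos _ (hproj z)
      have h4 := hpos (-(z - χ₀ z • x₀)) (by rw [map_neg, hproj, neg_zero])
      rw [map_neg] at h4
      rw [hξproj] at h3 h4
      simp only [_root_.zero_apply]
      linarith
    have hz' : ξ.comp Λ = 0 := by
      rw [hz]
      ext v
      simp
    rw [isM_zero_val B.unit B.self B.chi_le hz h1,
      isM_zero_val B.y_unit B.self' B.norming'.apply_le hz' h2]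

/-- Functionals of norm strictly less than one are transported with norm at most one. -/
lemma Bas.dual_lt (B : Bas g h x₀ A Λ χ₀) {φ : StrongDual ℝ X} {θ : ℝ} (hθ : θ < 1)
    (hφ : ∀ v, |φ v| ≤ θ * ‖v‖) (hφ1 : ‖φ‖ ≤ 1) (V : Y) : φ (Λ V) ≤ ‖V‖ := by
  obtain ⟨a, ha⟩ : ∃ a, a = φ x₀ := ⟨_, rfl⟩
  obtain ⟨ξ, hξ⟩ : ∃ ξ, ξ = φ - a • χ₀ := ⟨_, rfl⟩
  have hξ0 : ξ x₀ = 0 := by
    rw [hξ]
    simp [B.self, ha]
  have hξT : ∀ w, χ₀ w = 0 → ξ w = φ w := by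
    intro w hw
    rw [hξ]
    simp [hw]
  have hb1 : ∀ w, χ₀ w = 0 → ξ w ≤ θ * ‖w‖ := by
    intro w hw
    rw [hξT w hw]
    exact (le_abs_self _).trans (hφ w)
  have hb2 : ∀ w, χ₀ w = 0 → (-ξ) w ≤ θ * ‖w‖ := by
    intro w hw
    simp only [_root_.neg_apply]
    rw [hξT w hw]
    exact (neg_le_abs _).trans (hφ w)
  have hbY : ∀ (ξ' : StrongDual ℝ X), (∀ w, χ₀ w = 0 → ξ' w ≤ θ * ‖w‖) →
      ∀ W, (χ₀.comp Λ) W = 0 → (ξ'.comp Λ) W ≤ θ * ‖W‖ := fun ξ' h' => B.toFst.hb_comp h'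
  obtain ⟨y₁, a₁, hm₁⟩ := exists_isM B.unit B.self hξ0 hθ hb1
  obtain ⟨y₂, a₂, hm₂⟩ := exists_isM (ξ := -ξ) B.unit B.self (by simp [hξ0]) hθ hb2
  obtain ⟨Y₁, b₁, hn₁⟩ := exists_isM (ξ := ξ.comp Λ) B.y_unit B.self' (by simp [B.Lx, hξ0]) hθ
    (hbY ξ hb1)
  obtain ⟨Y₂, b₂, hn₂⟩ := exists_isM (ξ := (-ξ).comp Λ) B.y_unit B.self' (by simp [B.Lx, hξ0]) hθ
    (hbY (-ξ) hb2)
  have e₁ : a₁ = b₁ := B.value_eq hξ0 hθ hb1 hm₁ hn₁
  have e₂ : a₂ = b₂ := B.value_eq (ξ := -ξ) (by simp [hξ0]) hθ hb2 hm₂ hn₂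
  have ha₁ : a ≤ a₁ := hm₁.le_of_norm (by
    have : ξ + a • χ₀ = φ := by
      rw [hξ]
      abel
    rw [this]
    exact hφ1)
  have ha₂ : -a ≤ a₂ := hm₂.le_of_norm (by
    have : -ξ + (-a) • χ₀ = -φ := by
      ext v
      simp [hξ]
      try ring
    rw [this, norm_neg]
    exact hφ1)
  have h1 := hn₁.dual_le V
  have h2 := hn₂.dual_le (-V)
  rw [norm_neg] at h2
  simp only [map_neg, ContinuousLinearMap.comp_apply, _root_.neg_apply] at h1 h2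
  have e3 : φ (Λ V) = ξ (Λ V) + a * χ₀ (Λ V) := by
    rw [hξ]
    simp
  rw [e3]
  rcases le_total 0 (χ₀ (Λ V)) with hc | hc
  · have : a * χ₀ (Λ V) ≤ b₁ * χ₀ (Λ V) := mul_le_mul_of_nonneg_right (e₁ ▸ ha₁) hc
    linarith
  · have : a * χ₀ (Λ V) ≤ (-b₂) * χ₀ (Λ V) :=
      mul_le_mul_of_nonpos_right (by rw [← e₂]; linarith) hc
    nlinarith

/-- Functionals of norm at most one are transported with norm at most one. -/
theorem Bas.dual_le (B : Bas g h x₀ A Λ χ₀) {φ : StrongDual ℝ X} (hφ : ‖φ‖ ≤ 1) (V : Y) :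
    φ (Λ V) ≤ ‖V‖ := by
  by_contra hcon
  push Not at hcon
  obtain ⟨c, hc⟩ : ∃ c, c = φ (Λ V) := ⟨_, rfl⟩
  rw [← hc] at hcon
  have hc0 : 0 < c := (norm_nonneg V).trans_lt hcon
  obtain ⟨s, hs⟩ : ∃ s, s = (‖V‖ / c + 1) / 2 := ⟨_, rfl⟩
  have hV : ‖V‖ / c < 1 := by
    rw [div_lt_one hc0]
    exact hcon
  have hs0 : 0 < s := by
    rw [hs]
    positivity
  have hs1 : s < 1 := by
    rw [hs]
    linarith
  have h1 := B.dual_lt (φ := s • φ) (θ := s) hs1 (fun v => by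
    simp only [_root_.smul_apply, smul_eq_mul]
    rw [abs_mul, abs_of_pos hs0]
    exact mul_le_mul_of_nonneg_left (functional_le φ hφ) hs0.le) (by
    rw [norm_smul, Real.norm_of_nonneg hs0.le]
    nlinarith [norm_nonneg φ]) V
  simp only [_root_.smul_apply, smul_eq_mul] at h1
  rw [← hc, hs] at h1
  have e : (‖V‖ / c + 1) / 2 * c = (‖V‖ + c) / 2 := by
    field_simp
  rw [e] at h1
  linarith

/-- The inverse linear map is contractive. -/
lemma Bas.norm_L_le (B : Bas g h x₀ A Λ χ₀) (V : Y) : ‖Λ V‖ ≤ ‖V‖ := by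
  obtain ⟨φ, hφ⟩ := exists_norming (Λ V)
  have := B.dual_le hφ.le V
  rwa [hφ.val] at this

/-- **The linear map is an isometry.** -/
theorem Bas.isometry (B : Bas g h x₀ A Λ χ₀) (v : X) : ‖A v‖ = ‖v‖ := by
  refine le_antisymm ?_ ?_
  · have := B.symm.norm_L_le v
    exact this
  · have := B.norm_L_le (A v)
    rwa [B.left] at this

/-- **Exact relation along chords.** -/
theorem Bas.exact (B : Bas g h x₀ A Λ χ₀) {u : X} {φ : StrongDual ℝ X} {Φ : StrongDual ℝ Y}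
    (hc : Far.IsChord g x₀ u φ Φ) (z : X) : Φ (A z) = φ z := by
  obtain ⟨C, hC⟩ := Far.chord_est B.iso B.unit hc
  obtain ⟨ψ, hψ⟩ : ∃ ψ, ψ = φ - Φ.comp A := ⟨_, rfl⟩
  have hest : ∀ᶠ y in 𝓝 x₀, ‖y‖ = 1 → |ψ (y - x₀)| ≤ (|C| + 1) * ‖y - x₀‖ ^ 2 := by
    filter_upwards [hC, B.b1 1 one_pos] with y h1 h2 hy
    have h3 := h1 hy
    have h4 := h2 hy
    have e : ψ (y - x₀) = (φ (y - x₀) - Φ (g y - g x₀)) + Φ (g y - A y) := by
      rw [hψ]
      simp only [_root_.sub_apply, ContinuousLinearMap.comp_apply, map_sub, B.Ax]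
      ring
    rw [e]
    refine (abs_add_le _ _).trans ?_
    have h5 := functional_le Φ hc.Φle (x := g y - A y)
    have h6 : C * ‖y - x₀‖ ^ 2 ≤ |C| * ‖y - x₀‖ ^ 2 :=
      mul_le_mul_of_nonneg_right (le_abs_self _) (by positivity)
    linarith
  have htan : ∀ w, χ₀ w = 0 → ψ w = 0 := by
    intro w hw
    have hcd := curve_deriv B.der B.unit hw
    have h1 : HasDerivAt (fun ε : ℝ => ψ (curve x₀ w ε - x₀)) (ψ w) 0 :=
      ψ.hasFDerivAt.comp_hasDerivAt (0 : ℝ) (hcd.sub_const x₀)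
    obtain ⟨K, hK⟩ := hcd.isBigO_sub.bound
    have hcc : Tendsto (curve x₀ w) (𝓝 0) (𝓝 x₀) := by
      have := hcd.continuousAt.tendsto
      rwa [curve_zero B.unit] at this
    have h2 : HasDerivAt (fun ε : ℝ => ψ (curve x₀ w ε - x₀)) 0 0 := by
      refine hasDerivAt_zero_of_sq (C := (|C| + 1) * ‖K‖ ^ 2) ?_ ?_
      · rw [curve_zero B.unit, sub_self, map_zero]
      · filter_upwards [hcc.eventually hest, hK] with ε h3 h4
        rw [Real.norm_eq_abs]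
        refine (h3 (curve_unit B.self hw ε)).trans ?_
        rw [curve_zero B.unit] at h4
        have h5 : ‖curve x₀ w ε - x₀‖ ≤ ‖K‖ * |ε| := by
          refine h4.trans ?_
          rw [sub_zero, Real.norm_eq_abs]
          exact mul_le_mul_of_nonneg_right (by rw [Real.norm_eq_abs]; exact le_abs_self _)
            (abs_nonneg _)
        have h6 : ‖curve x₀ w ε - x₀‖ ^ 2 ≤ (‖K‖ * |ε|) ^ 2 := pow_le_pow_left₀ (norm_nonneg _) h5 2
        have h7 : (‖K‖ * |ε|) ^ 2 = ‖K‖ ^ 2 * ε ^ 2 := by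
          rw [mul_pow, sq_abs]
        rw [h7] at h6
        calc (|C| + 1) * ‖curve x₀ w ε - x₀‖ ^ 2 ≤ (|C| + 1) * (‖K‖ ^ 2 * ε ^ 2) :=
              mul_le_mul_of_nonneg_left h6 (by positivity)
          _ = (|C| + 1) * ‖K‖ ^ 2 * ε ^ 2 := by ring
    exact h1.unique h2
  obtain ⟨s, hs⟩ : ∃ s, s = ψ x₀ := ⟨_, rfl⟩
  have hall : ∀ z, φ z = Φ (A z) + s * χ₀ z := by
    intro z
    have h1 := htan _ (B.tan z)
    rw [map_sub, map_smul, ← hs, smul_eq_mul] at h1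
    rw [hψ] at h1
    simp only [_root_.sub_apply, ContinuousLinearMap.comp_apply] at h1
    linarith
  have hun : ‖u‖ = 1 := hc.unit
  have hne : u ≠ x₀ := by
    rintro rfl
    have := hc.mid
    rw [← two_smul ℝ u, norm_smul, hun] at this
    norm_num at this
  have hs0 : s = 0 := by
    rcases lt_trichotomy s 0 with hneg | h0 | hpos
    · -- first side
      have h1 := hall (x₀ - u)
      rw [hc.φval] at h1
      have h2 := functional_le Φ hc.Φle (x := A (x₀ - u))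
      rw [B.isometry] at h2
      have h3 := (abs_le.1 h2).2
      have h4 : χ₀ u ≠ 1 := fun hcc => hne (B.exposed hun hcc)
      have h5 := B.chi_le u
      rw [hun] at h5
      have h6 : χ₀ u < 1 := lt_of_le_of_ne h5 h4
      have h7 : 0 < χ₀ (x₀ - u) := by
        rw [map_sub, B.self]
        linarith
      have h8 := mul_neg_of_neg_of_pos hneg h7
      linarith
    · exact h0
    · -- second side
      have hgu : ‖g u‖ = 1 := B.iso.map_g _ hun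
      have hguy : g u ≠ g x₀ := by
        intro hcc
        have := congrArg h hcc
        rw [B.iso.left _ hun, B.iso.left _ B.unit] at this
        exact hne this
      obtain ⟨Z, hZ⟩ : ∃ Z, Z = g x₀ - g u := ⟨_, rfl⟩
      have h1 := hall (Λ Z)
      rw [B.right, hZ, hc.Φval] at h1
      rw [← hZ] at h1
      have h2 := functional_le φ hc.φle (x := Λ Z)
      have h3 := (abs_le.1 h2).2
      have h4 := B.norm_L_le Z
      have h5 : (χ₀.comp Λ) (g u) ≠ 1 := fun hcc => hguy (B.symm.exposed hgu hcc)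
      have h6 := B.norming'.apply_le (g u)
      rw [hgu] at h6
      have h7 := lt_of_le_of_ne h6 h5
      have h8 : 0 < χ₀ (Λ Z) := by
        have : χ₀ (Λ Z) = (χ₀.comp Λ) (g x₀) - (χ₀.comp Λ) (g u) := by
          rw [hZ, map_sub]
          simp
        rw [this, B.self']
        linarith
      have h9 := mul_pos hpos h8
      linarith
  have := hall z
  rw [hs0] at this
  linarith

end Lin

end Vale.Agent.Lib.P084.Gen
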