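import Mathlib
import Vale.Agent.Lib.P084.Gen.Peano

/-! The second order relation along short chords, for an arbitrary norm. -/

namespace Vale.Agent.Lib.P084.Gen

open Set Metric Filter Topology
open Vale.Agent.Lib.P084

section Second

variable {X Y : Type*} [NormedAddCommGroup X] [NormedSpace ℝ X]
  [NormedAddCommGroup Y] [NormedSpace ℝ Y] {g : X → Y} {h : Y → X} {x₀ : X} {A : X →L[ℝ] Y}
  {Λ : Y →L[ℝ] X} {χ₀ : StrongDual ℝ X} {BB : X →L[ℝ] X →L[ℝ] Y} {HH : X →L[ℝ] X →L[ℝ] ℝ}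

/-- The point of the sphere over a tangent vector. -/
lemma Pre.exists_n (B : Pre g h x₀ A χ₀) {w : X} (hw : χ₀ w = 0)
    (hw2 : 2 * ‖w‖ ≤ 1) : ∃ n : ℝ, 0 ≤ n ∧ n ≤ 2 * ‖w‖ ∧ ‖(1 - n) • x₀ + w‖ = 1 := by
  have hcont : ContinuousOn (fun n : ℝ => ‖(1 - n) • x₀ + w‖) (Icc 0 (2 * ‖w‖)) := by
    refine Continuous.continuousOn ?_
    fun_prop
  have h0 : 0 ≤ 2 * ‖w‖ := by positivity
  have h1 : (1 : ℝ) ≤ ‖(1 - (0 : ℝ)) • x₀ + w‖ := by
    have := B.chi_le ((1 - (0 : ℝ)) • x₀ + w)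
    rw [map_add, map_smul, B.self, hw] at this
    simpa using this
  have h2 : ‖(1 - 2 * ‖w‖) • x₀ + w‖ ≤ 1 := by
    refine (norm_add_le _ _).trans ?_
    rw [norm_smul, B.unit, Real.norm_of_nonneg (by linarith)]
    linarith [norm_nonneg w]
  obtain ⟨n, hn, hn1⟩ := intermediate_value_Icc' h0 hcont ⟨h2, h1⟩
  exact ⟨n, hn.1, hn.2, hn1⟩

variable [FiniteDimensional ℝ X]

/-- The point of the sphere over a small tangent vector, with its expansions. -/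
lemma chart (P : GPeano g h x₀ A Λ χ₀ BB HH) {e : ℝ} (he : 0 < e) :
    ∃ δ : ℝ, 0 < δ ∧ ∀ w, χ₀ w = 0 → ‖w‖ < δ → ∃ n : ℝ, 0 ≤ n ∧ n ≤ 2 * ‖w‖ ∧
      ‖(1 - n) • x₀ + w‖ = 1 ∧ |n - (1 / 2 : ℝ) * HH w w| ≤ e * ‖w‖ ^ 2 ∧
      ‖g ((1 - n) • x₀ + w) - (1 - n) • g x₀ - A w - (1 / 2 : ℝ) • BB w w‖ ≤ e * ‖w‖ ^ 2 := by
  have hF := P.toFst
  obtain ⟨ρ, hρ, hb⟩ := P.sphere_exp (e := e / 9) (by positivity)
  refine ⟨min (1 / 2) (ρ / 3), by positivity, fun w hw hwδ => ?_⟩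
  have hw1 : ‖w‖ < 1 / 2 := hwδ.trans_le (min_le_left _ _)
  have hw2 : ‖w‖ < ρ / 3 := hwδ.trans_le (min_le_right _ _)
  obtain ⟨n, hn0, hn1, hn2⟩ := hF.exists_n hw (by linarith)
  refine ⟨n, hn0, hn1, hn2, ?_⟩
  obtain ⟨y, hy⟩ : ∃ y, y = (1 - n) • x₀ + w := ⟨_, rfl⟩
  rw [← hy] at hn2 ⊢
  have hz : y - x₀ = w - n • x₀ := by
    rw [hy, sub_smul, one_smul]
    abel
  have hzn : ‖y - x₀‖ ≤ 3 * ‖w‖ := by
    rw [hz]
    refine (norm_sub_le _ _).trans ?_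
    rw [norm_smul, hF.unit, mul_one, Real.norm_of_nonneg hn0]
    linarith
  obtain ⟨h1, h2⟩ := hb y hn2 (by linarith)
  have h5 : χ₀ y = 1 - n := by
    rw [hy, map_add, map_smul, hF.self, hw]
    simp
  have h6 : y - (1 - n) • x₀ = w := by
    rw [hy]
    abel
  rw [h5, h6] at h1
  rw [h5, h6] at h2
  have h7 : ‖y - x₀‖ ^ 2 ≤ 9 * ‖w‖ ^ 2 := by
    have := pow_le_pow_left₀ (norm_nonneg _) hzn 2
    nlinarith
  have h8 : e / 9 * ‖y - x₀‖ ^ 2 ≤ e * ‖w‖ ^ 2 := by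
    have := mul_le_mul_of_nonneg_left h7 (by positivity : 0 ≤ e / 9)
    linarith
  constructor
  · have e1 : n - 1 / 2 * HH w w = 1 - (1 - n) - 1 / 2 * HH w w := by ring
    rw [e1]
    exact h1.trans h8
  · have e1 : g y - (1 - n) • g x₀ - A w - (1 / 2 : ℝ) • BB w w =
        g y - A y - (1 / 2 : ℝ) • BB w w := by
      rw [hy, map_add, map_smul, hF.Ax]
      abel
    rw [e1]
    exact h2.trans h8

/-- Scaling of a short chord. -/
lemma second_scale (P : GPeano g h x₀ A Λ χ₀ BB HH) {a b : X} (ha : χ₀ a = 0) (hb : χ₀ b = 0)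
    {e : ℝ} (he : 0 < e) :
    ∃ δ : ℝ, 0 < δ ∧ ∀ ε : ℝ, 0 < ε → ε < δ → ∃ (θ : ℝ) (ρ : Y),
      ‖A (a - b) + ρ‖ = ‖(a - b) - θ • x₀‖ ∧
      |θ - ε / 2 * HH (a + b) (a - b)| ≤ e * ε ∧
      ‖ρ + θ • g x₀ - (ε / 2) • BB (a + b) (a - b)‖ ≤ e * ε := by
  have hF := P.toFst
  obtain ⟨M, hM⟩ : ∃ M, M = ‖a‖ ^ 2 + ‖b‖ ^ 2 + 1 := ⟨_, rfl⟩
  have hM0 : 0 < M := by
    rw [hM]
    positivity
  obtain ⟨δ₀, hδ₀, hc⟩ := chart P (e := e / M) (by positivity)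
  refine ⟨δ₀ / (2 * (‖a‖ + ‖b‖ + 1)), by positivity, fun ε hε0 hεδ => ?_⟩
  have hε2 : ε * (2 * (‖a‖ + ‖b‖ + 1)) ≤ δ₀ := by
    rw [lt_div_iff₀ (by positivity)] at hεδ
    exact hεδ.le
  have hεa : ‖ε • a‖ < δ₀ := by
    rw [norm_smul, Real.norm_of_nonneg hε0.le]
    nlinarith [norm_nonneg a, norm_nonneg b]
  have hεb : ‖ε • b‖ < δ₀ := by
    rw [norm_smul, Real.norm_of_nonneg hε0.le]
    nlinarith [norm_nonneg a, norm_nonneg b]
  obtain ⟨na, _, _, hya, hna, hga⟩ := hc (ε • a) (by rw [map_smul, ha]; simp) hεa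
  obtain ⟨nb, _, _, hyb, hnb, hgb⟩ := hc (ε • b) (by rw [map_smul, hb]; simp) hεb
  have hna2 : ‖ε • a‖ ^ 2 = ε ^ 2 * ‖a‖ ^ 2 := by
    rw [norm_smul, Real.norm_of_nonneg hε0.le, mul_pow]
  have hnb2 : ‖ε • b‖ ^ 2 = ε ^ 2 * ‖b‖ ^ 2 := by
    rw [norm_smul, Real.norm_of_nonneg hε0.le, mul_pow]
  rw [hna2] at hna hga
  rw [hnb2] at hnb hgb
  obtain ⟨θ, hθ⟩ : ∃ θ, θ = (na - nb) / ε := ⟨_, rfl⟩
  have hθε : ε * θ = na - nb := by
    rw [hθ]
    field_simp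
  -- the error terms
  obtain ⟨Ea, hEa⟩ : ∃ Ea, Ea = g ((1 - na) • x₀ + ε • a) - (1 - na) • g x₀ - A (ε • a) -
      (1 / 2 : ℝ) • BB (ε • a) (ε • a) := ⟨_, rfl⟩
  obtain ⟨Eb, hEb⟩ : ∃ Eb, Eb = g ((1 - nb) • x₀ + ε • b) - (1 - nb) • g x₀ - A (ε • b) -
      (1 / 2 : ℝ) • BB (ε • b) (ε • b) := ⟨_, rfl⟩
  rw [← hEa] at hga
  rw [← hEb] at hgb
  have hBab : BB (a + b) (a - b) = BB a a - BB b b := by
    simp only [map_add, map_sub, _root_.add_apply, P.B_sym b a]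
    abel
  have hHab : HH (a + b) (a - b) = HH a a - HH b b := by
    simp only [map_add, map_sub, _root_.add_apply, P.H_sym b a]
    ring
  have hdiffg : g ((1 - na) • x₀ + ε • a) - g ((1 - nb) • x₀ + ε • b) =
      ε • (A (a - b) + (-(θ • g x₀) + (ε / 2) • BB (a + b) (a - b) + ε⁻¹ • (Ea - Eb))) := by
    have e1 : g ((1 - na) • x₀ + ε • a) = (1 - na) • g x₀ + A (ε • a) +
        (1 / 2 : ℝ) • BB (ε • a) (ε • a) + Ea := by
      rw [hEa]
      abel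
    have e2 : g ((1 - nb) • x₀ + ε • b) = (1 - nb) • g x₀ + A (ε • b) +
        (1 / 2 : ℝ) • BB (ε • b) (ε • b) + Eb := by
      rw [hEb]
      abel
    rw [e1, e2, hBab, map_sub]
    simp only [map_smul, _root_.smul_apply, smul_add, smul_sub, smul_neg, smul_smul, hθε]
    rw [mul_inv_cancel₀ hε0.ne', one_smul, one_smul]
    have e3 : ε * (ε / 2) = 1 / 2 * ε * ε := by ring
    have e4 : 1 / 2 * (ε * ε) = 1 / 2 * ε * ε := by ring
    rw [e3, e4]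
    module
  have hdiffy : ((1 - na) • x₀ + ε • a) - ((1 - nb) • x₀ + ε • b) = ε • ((a - b) - θ • x₀) := by
    rw [smul_sub, smul_sub, smul_smul, hθε]
    module
  refine ⟨θ, -(θ • g x₀) + (ε / 2) • BB (a + b) (a - b) + ε⁻¹ • (Ea - Eb), ?_, ?_, ?_⟩
  · have h1 := hF.iso.iso _ _ hya hyb
    rw [hdiffg, hdiffy, norm_smul, norm_smul] at h1
    exact mul_left_cancel₀ (by simpa using hε0.ne') h1
  · have e1 : θ - ε / 2 * HH (a + b) (a - b) =
        ((na - 1 / 2 * HH (ε • a) (ε • a)) - (nb - 1 / 2 * HH (ε • b) (ε • b))) / ε := by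
      rw [hHab, hθ]
      simp only [map_smul, _root_.smul_apply, smul_eq_mul]
      field_simp
      ring
    rw [e1, abs_div, abs_of_pos hε0, div_le_iff₀ hε0]
    refine (abs_sub _ _).trans ?_
    have h1 : e / M * (ε ^ 2 * ‖a‖ ^ 2) + e / M * (ε ^ 2 * ‖b‖ ^ 2) ≤ e * ε * ε := by
      have e2 : e / M * (ε ^ 2 * ‖a‖ ^ 2) + e / M * (ε ^ 2 * ‖b‖ ^ 2) =
          e * ε * ε * ((‖a‖ ^ 2 + ‖b‖ ^ 2) / M) := by
        field_simp
      rw [e2]
      have h2 : (‖a‖ ^ 2 + ‖b‖ ^ 2) / M ≤ 1 := by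
        rw [div_le_one hM0, hM]
        linarith
      have h3 : 0 ≤ e * ε * ε := by positivity
      nlinarith
    linarith
  · have e1 : -(θ • g x₀) + (ε / 2) • BB (a + b) (a - b) + ε⁻¹ • (Ea - Eb) + θ • g x₀ -
        (ε / 2) • BB (a + b) (a - b) = ε⁻¹ • (Ea - Eb) := by abel
    rw [e1, norm_smul, norm_inv, Real.norm_of_nonneg hε0.le, inv_mul_le_iff₀ hε0]
    refine (norm_sub_le _ _).trans ?_
    have h1 : e / M * (ε ^ 2 * ‖a‖ ^ 2) + e / M * (ε ^ 2 * ‖b‖ ^ 2) ≤ ε * (e * ε) := by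
      have e2 : e / M * (ε ^ 2 * ‖a‖ ^ 2) + e / M * (ε ^ 2 * ‖b‖ ^ 2) =
          ε * (e * ε) * ((‖a‖ ^ 2 + ‖b‖ ^ 2) / M) := by
        field_simp
      rw [e2]
      have h2 : (‖a‖ ^ 2 + ‖b‖ ^ 2) / M ≤ 1 := by
        rw [div_le_one hM0, hM]
        linarith
      have h3 : 0 ≤ ε * (e * ε) := by positivity
      nlinarith
    linarith

/-- **The second order relation along short chords**, in first order form: if `w` is `H`-orthogonal
to `u`, the norm is stationary at `u` in the direction of the second derivative. -/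
theorem star [FiniteDimensional ℝ Y] (P : GPeano g h x₀ A Λ χ₀ BB HH) {u w : X} (hu : χ₀ u = 0)
    (hw : χ₀ w = 0) (hwu : HH w u = 0) :
    HasDerivAt (fun s : ℝ => ‖u + s • Λ (BB w u)‖) 0 0 := by
  have hF := P.toFst
  -- one side
  have key : ∀ w : X, χ₀ w = 0 → HH w u = 0 → ∀ e : ℝ, 0 < e → ∃ δ : ℝ, 0 < δ ∧ ∀ ε : ℝ, 0 < ε → ε < δ →
      |‖u + (ε / 2) • Λ (BB w u)‖ - ‖u‖| ≤ e * ε := by
    intro w hw hwu e he
    obtain ⟨a, ha⟩ : ∃ a, a = (1 / 2 : ℝ) • (w + u) := ⟨_, rfl⟩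
    obtain ⟨b, hb⟩ : ∃ b, b = (1 / 2 : ℝ) • (w - u) := ⟨_, rfl⟩
    have hsub : a - b = u := by
      rw [ha, hb]
      module
    have hadd : a + b = w := by
      rw [ha, hb]
      module
    have haP : χ₀ a = 0 := by
      rw [ha, map_smul, map_add, hw, hu]
      simp
    have hbP : χ₀ b = 0 := by
      rw [hb, map_smul, map_sub, hw, hu]
      simp
    obtain ⟨δ, hδ, hscale⟩ := second_scale P haP hbP (e := e / 3) (by positivity)
    refine ⟨δ, hδ, fun ε hε hεδ => ?_⟩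
    obtain ⟨θ, ρ, hiso, ht, hρ⟩ := hscale ε hε hεδ
    rw [hsub] at hiso
    rw [hsub, hadd, hwu, mul_zero, sub_zero] at ht
    rw [hsub, hadd] at hρ
    have hnθ : ‖θ • x₀‖ = |θ| := by
      rw [norm_smul, hF.unit, mul_one, Real.norm_eq_abs]
    have hnθ' : ‖θ • g x₀‖ = |θ| := by
      rw [norm_smul, hF.y_unit, mul_one, Real.norm_eq_abs]
    have h1 : χ₀ (Λ (BB w u)) = 0 := Phi_B P hw hu
    have hT : χ₀ (u + (ε / 2) • Λ (BB w u)) = 0 := by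
      rw [map_add, map_smul, h1, hu]
      simp
    have h2 : ‖u + (ε / 2) • Λ (BB w u)‖ = ‖A u + (ε / 2) • BB w u‖ := by
      rw [← hF.normA hT, map_add, map_smul, hF.right]
    rw [h2]
    have h3 : ‖A u + (ε / 2) • BB w u - (A u + ρ)‖ ≤ e / 3 * ε + |θ| := by
      have e1 : A u + (ε / 2) • BB w u - (A u + ρ) =
          θ • g x₀ - (ρ + θ • g x₀ - (ε / 2) • BB w u) := by abel
      rw [e1]
      refine (norm_sub_le _ _).trans ?_
      rw [hnθ']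
      linarith
    have h4 := abs_norm_sub_norm_le (A u + (ε / 2) • BB w u) (A u + ρ)
    have h5 := abs_norm_sub_norm_le (u - θ • x₀) u
    rw [sub_sub_cancel_left, norm_neg, hnθ] at h5
    rw [hiso] at h4
    have h6 := abs_le.1 h4
    have h7 := abs_le.1 h5
    have h8 := h3
    rw [abs_le]
    constructor <;> linarith [h6.1, h6.2, h7.1, h7.2]
  rw [hasDerivAt_iff_isLittleO_nhds_zero, Asymptotics.isLittleO_iff]
  intro c hc
  obtain ⟨δ₁, hδ₁, hb₁⟩ := key w hw hwu (c / 2) (by positivity)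
  obtain ⟨δ₂, hδ₂, hb₂⟩ := key (-w) (by rw [map_neg, hw, neg_zero])
    (by rw [map_neg]; simp [hwu]) (c / 2) (by positivity)
  have hev : ∀ᶠ s : ℝ in 𝓝 0, |s| < min δ₁ δ₂ / 2 := by
    have h0 := (continuous_abs (G := ℝ)).tendsto 0
    rw [abs_zero] at h0
    exact h0.eventually (gt_mem_nhds (by positivity))
  filter_upwards [hev] with s hs
  simp only [zero_smul, add_zero, zero_add, smul_zero, sub_zero, Real.norm_eq_abs]
  have hs1 : 2 * |s| < δ₁ := by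
    have : min δ₁ δ₂ ≤ δ₁ := min_le_left _ _
    linarith
  have hs2 : 2 * |s| < δ₂ := by
    have : min δ₁ δ₂ ≤ δ₂ := min_le_right _ _
    linarith
  rcases lt_trichotomy s 0 with hneg | h0 | hpos
  · have hab : |s| = -s := abs_of_neg hneg
    have h1 := hb₂ (2 * |s|) (by rw [hab]; linarith) hs2
    have e1 : (2 * |s|) / 2 = |s| := by ring
    rw [e1, hab] at h1
    have e2 : (-s) • Λ (BB (-w) u) = s • Λ (BB w u) := by
      simp [map_neg]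
    rw [e2] at h1
    rw [hab]
    linarith
  · simp [h0]
  · have hab : |s| = s := abs_of_pos hpos
    have h1 := hb₁ (2 * |s|) (by rw [hab]; linarith) hs1
    have e1 : (2 * |s|) / 2 = |s| := by ring
    rw [e1, hab] at h1
    rw [hab]
    linarith

end Second

end Vale.Agent.Lib.P084.Gen
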