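import Mathlib
import Vale.Agent.Lib.P084.Gen.Second
import Vale.Agent.Lib.P084.Str.Legendre

/-! Expansion of the minimisers near the base point, for an arbitrary norm. -/

namespace Vale.Agent.Lib.P084.Gen

open Set Metric Filter Topology
open Vale.Agent.Lib.P084
open Vale.Agent.Lib.P084.Str (e_arith)

section Exposed

variable {E : Type*} [NormedAddCommGroup E] [NormedSpace ℝ E]

/-- A curved point is exposed by its functional. -/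
lemma exposed_of_curved {x₀ : E} {χ₀ : StrongDual ℝ E} (hx : ‖x₀‖ = 1) (hχ : χ₀ x₀ = 1)
    (hle : ∀ v, χ₀ v ≤ ‖v‖)
    (hb2 : ∃ c : ℝ, 0 < c ∧ ∀ᶠ y in 𝓝 x₀, ‖y‖ = 1 → c * ‖y - x₀‖ ^ 2 ≤ 1 - χ₀ y)
    {v : E} (hv : ‖v‖ = 1) (hχv : χ₀ v = 1) : v = x₀ := by
  obtain ⟨c, hc, hcb⟩ := hb2
  obtain ⟨ρ, hρ, hb⟩ := Metric.eventually_nhds_iff.1 hcb
  obtain ⟨s, hs⟩ : ∃ s, s = min (1 / 2 : ℝ) (ρ / (2 * (‖v - x₀‖ + 1))) := ⟨_, rfl⟩
  have hs0 : 0 < s := by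
    rw [hs]
    positivity
  have hs1 : s ≤ 1 / 2 := hs ▸ min_le_left _ _
  have hs2 : s * (2 * (‖v - x₀‖ + 1)) ≤ ρ := by
    have : s ≤ ρ / (2 * (‖v - x₀‖ + 1)) := hs ▸ min_le_right _ _
    rwa [le_div_iff₀ (by positivity)] at this
  obtain ⟨y, hy⟩ : ∃ y, y = x₀ + s • (v - x₀) := ⟨_, rfl⟩
  have hyχ : χ₀ y = 1 := by
    rw [hy, map_add, map_smul, map_sub, hχv, hχ]
    simp
  have hy1 : ‖y‖ = 1 := by
    refine le_antisymm ?_ ?_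
    · have e : y = (1 - s) • x₀ + s • v := by
        rw [hy]
        module
      rw [e]
      refine (norm_add_le _ _).trans ?_
      rw [norm_smul, norm_smul, hv, hx, Real.norm_of_nonneg hs0.le,
        Real.norm_of_nonneg (by linarith)]
      linarith
    · have := hle y
      rwa [hyχ] at this
  have hd : ‖y - x₀‖ = s * ‖v - x₀‖ := by
    rw [hy, add_sub_cancel_left, norm_smul, Real.norm_of_nonneg hs0.le]
  have h1 := @hb y (by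
    rw [dist_eq_norm, hd]
    have : 0 ≤ s * ‖v - x₀‖ := by positivity
    nlinarith) hy1
  rw [hyχ, sub_self, hd] at h1
  have h2 : 0 ≤ c * (s * ‖v - x₀‖) ^ 2 := by positivity
  have h3 : (s * ‖v - x₀‖) ^ 2 = 0 := by
    have : c * (s * ‖v - x₀‖) ^ 2 = 0 := le_antisymm h1 h2
    exact (mul_eq_zero.1 this).resolve_left hc.ne'
  have h4 : ‖v - x₀‖ = 0 := by
    have := pow_eq_zero_iff (two_ne_zero) |>.1 h3
    exact (mul_eq_zero.1 this).resolve_left hs0.ne'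
  exact sub_eq_zero.1 (norm_eq_zero.1 h4)

end Exposed

section Leg

variable {X Y : Type*} [NormedAddCommGroup X] [NormedSpace ℝ X]
  [NormedAddCommGroup Y] [NormedSpace ℝ Y] {g : X → Y} {h : Y → X} {x₀ : X} {A : X →L[ℝ] Y}
  {Λ : Y →L[ℝ] X} {χ₀ : StrongDual ℝ X} {BB : X →L[ℝ] X →L[ℝ] Y} {HH : X →L[ℝ] X →L[ℝ] ℝ}
  [FiniteDimensional ℝ X]

/-- Coercivity of the curvature form on the tangent hyperplane. -/
lemma coercive (P : GPeano g h x₀ A Λ χ₀ BB HH) : ∃ c : ℝ, 0 < c ∧ ∀ w, χ₀ w = 0 →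
    c * ‖w‖ ^ 2 ≤ HH w w := by
  let S : Set X := sphere (0 : X) 1 ∩ {v | χ₀ v = 0}
  have hSc : IsCompact S :=
    (isCompact_sphere _ _).inter_right (isClosed_eq (χ₀).continuous continuous_const)
  have hcont : ContinuousOn (fun v : X => HH v v) S := by
    refine Continuous.continuousOn ?_
    fun_prop
  obtain ⟨c, hc, hcS⟩ : ∃ c : ℝ, 0 < c ∧ ∀ v ∈ S, c ≤ HH v v := by
    rcases S.eq_empty_or_nonempty with he | hne
    · exact ⟨1, one_pos, fun v hv => by rw [he] at hv; exact absurd hv (notMem_empty v)⟩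
    · obtain ⟨v₀, hv₀, hmin⟩ := hSc.exists_isMinOn hne hcont
      have hv₀1 : ‖v₀‖ = 1 := by simpa using hv₀.1
      have hv₀0 : v₀ ≠ 0 := by
        rintro rfl
        simp at hv₀1
      exact ⟨_, P.H_pos v₀ hv₀.2 hv₀0, fun v hv => hmin hv⟩
  refine ⟨c, hc, fun w hw => ?_⟩
  by_cases hw0 : w = 0
  · simp [hw0]
  have hn : 0 < ‖w‖ := norm_pos_iff.2 hw0
  have h1 := hcS (‖w‖⁻¹ • w) ⟨by simpa using unit_of_ne hw0, by simp [hw]⟩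
  simp only [map_smul, _root_.smul_apply, smul_eq_mul] at h1
  have h2 : ‖w‖ ^ 2 * (‖w‖⁻¹ * (‖w‖⁻¹ * HH w w)) = HH w w := by
    field_simp
  have h3 := mul_le_mul_of_nonneg_left h1 (by positivity : 0 ≤ ‖w‖ ^ 2)
  rw [h2] at h3
  linarith

/-- Curvature bound from below on the sphere. -/
lemma curved_bound (P : GPeano g h x₀ A Λ χ₀ BB HH) : ∃ c : ℝ, 0 < c ∧ ∀ᶠ y in 𝓝 x₀, ‖y‖ = 1 →
    c * ‖y - x₀‖ ^ 2 ≤ 1 - χ₀ y := by
  have hF := P.toFst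
  obtain ⟨c₀, hc₀, hcoer⟩ := coercive P
  obtain ⟨ρ, hρ, hb⟩ := P.sphere_exp (e := c₀ / 16) (by positivity)
  obtain ⟨M, hM⟩ : ∃ M, M = 2 * ‖HH‖ + c₀ / 16 := ⟨_, rfl⟩
  have hM0 : 0 < M := by
    rw [hM]
    positivity
  refine ⟨c₀ / 16, by positivity, Metric.eventually_nhds_iff.2
    ⟨min ρ (1 / (2 * M)), by positivity, fun {y} hy hy1 => ?_⟩⟩
  rw [dist_eq_norm] at hy
  have hy₁ : ‖y - x₀‖ < ρ := hy.trans_le (min_le_left _ _)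
  have hy₂ : ‖y - x₀‖ * (2 * M) < 1 := by
    have := hy.trans_le (min_le_right _ _)
    rwa [lt_div_iff₀ (by positivity)] at this
  obtain ⟨h1, -⟩ := hb y hy1 hy₁
  obtain ⟨z, hz⟩ : ∃ z, z = y - x₀ := ⟨_, rfl⟩
  rw [← hz] at h1 hy₂ ⊢
  have hzn : 0 ≤ ‖z‖ := norm_nonneg z
  obtain ⟨n, hn⟩ : ∃ n, n = 1 - χ₀ y := ⟨_, rfl⟩
  have hn2 : n = -χ₀ z := by
    rw [hn, hz, map_sub, hF.self]
    ring
  have hn3 : n ≤ ‖z‖ := by
    rw [hn2, ← map_neg]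
    have := hF.chi_le (-z)
    rwa [norm_neg] at this
  have hn0 : 0 ≤ n := by
    have := hF.chi_le y
    rw [hy1] at this
    rw [hn]
    linarith
  obtain ⟨w, hw⟩ : ∃ w, w = y - χ₀ y • x₀ := ⟨_, rfl⟩
  rw [← hw] at h1
  have hwP : χ₀ w = 0 := by
    rw [hw, map_sub, map_smul, hF.self]
    simp
  have hzw : z = w - n • x₀ := by
    rw [hz, hw, hn, sub_smul, one_smul]
    abel
  have hwz : w = z + n • x₀ := by
    rw [hzw]
    abel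
  have hw1 : ‖w‖ ≤ 2 * ‖z‖ := by
    rw [hwz]
    refine (norm_add_le _ _).trans ?_
    rw [norm_smul, hF.unit, mul_one, Real.norm_of_nonneg hn0]
    linarith
  have hw2 : ‖z‖ ≤ ‖w‖ + n := by
    rw [hzw]
    refine (norm_sub_le _ _).trans ?_
    rw [norm_smul, hF.unit, mul_one, Real.norm_of_nonneg hn0]
  have hHw : HH w w ≤ ‖HH‖ * ‖w‖ ^ 2 := by
    have h2 := (HH w).le_opNorm w
    have h3 := HH.le_opNorm w
    have h4 : ‖HH w‖ * ‖w‖ ≤ ‖HH‖ * ‖w‖ * ‖w‖ := mul_le_mul_of_nonneg_right h3 (norm_nonneg w)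
    have h5 := (le_abs_self _).trans (h2.trans h4)
    rw [Real.norm_eq_abs] at *
    nlinarith
  have hw3 : ‖w‖ ^ 2 ≤ 4 * ‖z‖ ^ 2 := by
    have := pow_le_pow_left₀ (norm_nonneg w) hw1 2
    nlinarith
  have e1 : 1 - χ₀ y - 1 / 2 * HH w w = n - 1 / 2 * HH w w := by rw [hn]
  rw [e1] at h1
  have h2 := abs_le.1 h1
  have hHw2 : HH w w ≤ 4 * ‖HH‖ * ‖z‖ ^ 2 := by
    have := mul_le_mul_of_nonneg_left hw3 (norm_nonneg HH)
    linarith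
  have hn4 : n ≤ M * ‖z‖ ^ 2 := by
    rw [hM]
    nlinarith [h2.2]
  have hn5 : n ≤ 1 / 2 * ‖z‖ := by
    have h3 : M * ‖z‖ ^ 2 = (‖z‖ * (2 * M)) * (‖z‖ / 2) := by ring
    rw [h3] at hn4
    have h4 : (‖z‖ * (2 * M)) * (‖z‖ / 2) ≤ 1 * (‖z‖ / 2) :=
      mul_le_mul_of_nonneg_right hy₂.le (by positivity)
    linarith
  have hw4 : 1 / 2 * ‖z‖ ≤ ‖w‖ := by linarith
  have hw5 : (1 / 4) * ‖z‖ ^ 2 ≤ ‖w‖ ^ 2 := by
    have := pow_le_pow_left₀ (by positivity) hw4 2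
    nlinarith
  have h6 := hcoer w hwP
  have h7 : c₀ * ((1 / 4) * ‖z‖ ^ 2) ≤ c₀ * ‖w‖ ^ 2 := mul_le_mul_of_nonneg_left hw5 hc₀.le
  rw [← hn]
  nlinarith [h2.1]

/-- Curvature bound on the image sphere. -/
lemma curved_bound_Y [FiniteDimensional ℝ Y] (P : GPeano g h x₀ A Λ χ₀ BB HH) :
    ∃ c : ℝ, 0 < c ∧ ∀ᶠ v in 𝓝 (g x₀), ‖v‖ = 1 → c * ‖v - g x₀‖ ^ 2 ≤ 1 - (χ₀.comp Λ) v := by
  have hF := P.toFst
  obtain ⟨c, hc, hcb⟩ := curved_bound P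
  obtain ⟨ρ₁, hρ₁, hb₁⟩ := Metric.eventually_nhds_iff.1 hcb
  obtain ⟨ρ₂, hρ₂, hb₂⟩ := Metric.eventually_nhds_iff.1 (P.T_exp (c / 2) (by positivity))
  refine ⟨c / 2, by positivity, Metric.eventually_nhds_iff.2
    ⟨min ρ₁ ρ₂, lt_min hρ₁ hρ₂, fun {v} hv hv1 => ?_⟩⟩
  have hx1 : ‖h v‖ = 1 := hF.iso.map_h _ hv1
  have hgy : g (h v) = v := hF.iso.right _ hv1
  have hd : ‖h v - x₀‖ = ‖v - g x₀‖ := by
    have := hF.iso.iso _ _ hx1 hF.unit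
    rw [hgy] at this
    exact this.symm
  rw [dist_eq_norm, ← hd] at hv
  have h1 := @hb₁ (h v) (by rw [dist_eq_norm]; exact hv.trans_le (min_le_left _ _)) hx1
  have h2 := @hb₂ (h v) (by rw [dist_eq_norm]; exact hv.trans_le (min_le_right _ _)) hx1
  rw [hgy] at h2
  rw [← hd]
  obtain ⟨y, hy⟩ : ∃ y, y = h v := ⟨_, rfl⟩
  rw [← hy] at h1 h2 ⊢
  have hwP : χ₀ (y - χ₀ y • x₀) = 0 := hF.tan y
  have e1 : y - x₀ = (y - χ₀ y • x₀) - (1 - χ₀ y) • x₀ := by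
    rw [sub_smul, one_smul]
    abel
  have e2 : BB (y - x₀) (y - x₀) = BB (y - χ₀ y • x₀) (y - χ₀ y • x₀) := by
    conv_lhs => rw [e1]
    exact P.B_tan _ _
  have e3 : (χ₀.comp Λ) (BB (y - x₀) (y - x₀)) = 0 := by
    rw [e2]
    exact Phi_B P hwP hwP
  have e4 : (χ₀.comp Λ) v = χ₀ y + (χ₀.comp Λ) (v - A y - (1 / 2 : ℝ) • BB (y - x₀) (y - x₀)) := by
    rw [map_sub, map_sub, map_smul, e3, hF.comp_A]
    simp
  have h3 := hF.norming'.apply_le (v - A y - (1 / 2 : ℝ) • BB (y - x₀) (y - x₀))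
  rw [e4]
  have h4 : c / 2 * ‖y - x₀‖ ^ 2 + c / 2 * ‖y - x₀‖ ^ 2 = c * ‖y - x₀‖ ^ 2 := by ring
  linarith

/-- The base point is exposed. -/
lemma GPeano.exposed (P : GPeano g h x₀ A Λ χ₀ BB HH) {v : X} (hv : ‖v‖ = 1) (hχ : χ₀ v = 1) :
    v = x₀ :=
  exposed_of_curved P.unit P.self P.chi_le (curved_bound P) hv hχ

/-- The image point is exposed. -/
lemma GPeano.exposed_Y [FiniteDimensional ℝ Y] (P : GPeano g h x₀ A Λ χ₀ BB HH) {v : Y}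
    (hv : ‖v‖ = 1) (hχ : (χ₀.comp Λ) v = 1) : v = g x₀ :=
  exposed_of_curved P.y_unit P.self' P.norming'.apply_le (curved_bound_Y P) hv hχ

/-- The minimiser is close to the base point for small functionals. -/
lemma GPeano.isM_near (P : GPeano g h x₀ A Λ χ₀ BB HH) {r : ℝ} (hr : 0 < r) :
    ∃ η : ℝ, 0 < η ∧ ∀ ξ y a, ξ x₀ = 0 → ‖ξ‖ < η → IsM χ₀ ξ y a → ‖y - x₀‖ < r := by
  have hu : ∀ y' a', IsM χ₀ (0 : StrongDual ℝ X) y' a' → y' = x₀ := by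
    intro y' a' hm
    have h1 := hm.val
    simp only [_root_.zero_apply, sub_zero] at h1
    have h2 := hm.le x₀ P.self
    simp only [_root_.zero_apply, sub_zero, P.unit] at h2
    have h3 := P.chi_le y'
    rw [hm.aff] at h3
    exact P.exposed (by linarith) hm.aff
  obtain ⟨η, hη, hb⟩ := IsM.close (ξ := (0 : StrongDual ℝ X)) P.unit P.self (by simp) (θ := 0)
    zero_lt_one (fun w _ => by simp) hu hr
  exact ⟨η, hη, fun ξ y a h1 h2 h3 => hb ξ y a (by rwa [sub_zero]) h1 h3⟩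

omit [FiniteDimensional ℝ X] in
lemma min_arith {N1 N2 Hdd Hηd Hηη D E V c₀ e ε₁ : ℝ}
    (h1 : |N1 - 1 - 1 / 2 * Hdd| ≤ ε₁ * D ^ 2) (h2 : |N2 - 1 - 1 / 2 * Hηη| ≤ ε₁ * E ^ 2)
    (h3 : N1 - Hηd ≤ N2 - Hηη) (h4 : c₀ * V ^ 2 ≤ Hdd - 2 * Hηd + Hηη) (h6 : D ≤ V + E)
    (hc₀ : 0 < c₀) (he : 0 < e) (hε₁0 : 0 < ε₁) (hε₁1 : ε₁ ≤ c₀ / 8) (hε₁2 : ε₁ ≤ c₀ * e ^ 2 / 12)
    (hV : 0 ≤ V) (hE : 0 ≤ E) (hD : 0 ≤ D) : V ≤ e * E := by
  have h1' := abs_le.1 h1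
  have h2' := abs_le.1 h2
  have h5 : c₀ * V ^ 2 / 2 ≤ ε₁ * (D ^ 2 + E ^ 2) := by linarith [h1'.1, h1'.2, h2'.1, h2'.2]
  have hdv : D ^ 2 ≤ 2 * V ^ 2 + 2 * E ^ 2 := by
    have h7 := pow_le_pow_left₀ hD h6 2
    nlinarith [sq_nonneg (V - E)]
  have h6' : c₀ * V ^ 2 / 4 ≤ 3 * ε₁ * E ^ 2 := by
    have h7 : ε₁ * (D ^ 2 + E ^ 2) ≤ ε₁ * (2 * V ^ 2 + 3 * E ^ 2) :=
      mul_le_mul_of_nonneg_left (by linarith) hε₁0.le
    have h8 : ε₁ * V ^ 2 ≤ c₀ / 8 * V ^ 2 := mul_le_mul_of_nonneg_right hε₁1 (by positivity)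
    nlinarith
  have h7 : V ^ 2 ≤ (e * E) ^ 2 := by
    have h8 : 3 * ε₁ * E ^ 2 ≤ 3 * (c₀ * e ^ 2 / 12) * E ^ 2 :=
      mul_le_mul_of_nonneg_right (by linarith) (by positivity)
    have h9 : c₀ * (V ^ 2 / 4) ≤ c₀ * (e ^ 2 * E ^ 2 / 4) := by nlinarith
    have h10 := le_of_mul_le_mul_left h9 hc₀
    nlinarith
  exact abs_le_of_sq_le_sq' h7 (by positivity) |>.2

/-- **First order expansion of the minimiser.** -/
theorem minimizer_exp (P : GPeano g h x₀ A Λ χ₀ BB HH) {e : ℝ} (he : 0 < e) :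
    ∃ r : ℝ, 0 < r ∧ ∀ η y a, χ₀ η = 0 → ‖η‖ < r → IsM χ₀ (HH η) y a →
      ‖y - x₀ - η‖ ≤ e * ‖η‖ := by
  have hF := P.toFst
  obtain ⟨c₀, hc₀, hcoer⟩ := coercive P
  obtain ⟨ε₁, hε₁⟩ : ∃ ε₁, ε₁ = min (c₀ / 8) (c₀ * e ^ 2 / 12) := ⟨_, rfl⟩
  have hε₁0 : 0 < ε₁ := by
    rw [hε₁]
    positivity
  have hε₁1 : ε₁ ≤ c₀ / 8 := hε₁ ▸ min_le_left _ _
  have hε₁2 : ε₁ ≤ c₀ * e ^ 2 / 12 := hε₁ ▸ min_le_right _ _
  obtain ⟨ρ, hρ, hb⟩ := Metric.eventually_nhds_iff.1 (P.N_exp ε₁ hε₁0)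
  obtain ⟨η₀, hη₀, hnear⟩ := P.isM_near hρ
  refine ⟨min ρ (η₀ / (‖HH‖ + 1)), by positivity, fun η y a hη hηr hm => ?_⟩
  have hηρ : ‖η‖ < ρ := hηr.trans_le (min_le_left _ _)
  have hHη : ‖HH η‖ < η₀ := by
    refine (HH.le_opNorm η).trans_lt ?_
    have h1 := hηr.trans_le (min_le_right _ _)
    rw [lt_div_iff₀ (by positivity)] at h1
    nlinarith [norm_nonneg HH, norm_nonneg η]
  have hd := hnear (HH η) y a (P.H_x' η) hHη hm
  obtain ⟨d, hddef⟩ : ∃ d, d = y - x₀ := ⟨_, rfl⟩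
  rw [← hddef] at hd ⊢
  have hy : y = x₀ + d := by rw [hddef]; abel
  have hdP : χ₀ d = 0 := by
    rw [hddef, map_sub, hm.aff, hF.self, sub_self]
  -- the expansions at the two points
  have h1 := @hb y (by rw [dist_eq_norm, ← hddef]; exact hd)
  have h2 := @hb (x₀ + η) (by rwa [dist_eq_norm, add_sub_cancel_left])
  rw [← hddef, hm.aff] at h1
  rw [add_sub_cancel_left, map_add, hF.self, hη, add_zero] at h2
  have h3 := hm.le (x₀ + η) (by rw [map_add, hF.self, hη, add_zero])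
  rw [← hm.val] at h3
  have e1 : HH η y = HH η d := by
    rw [hy, map_add, P.H_x', zero_add]
  have e2 : HH η (x₀ + η) = HH η η := by
    rw [map_add, P.H_x', zero_add]
  rw [e1, e2] at h3
  obtain ⟨v, hv⟩ : ∃ v, v = d - η := ⟨_, rfl⟩
  have hvP : χ₀ v = 0 := by
    rw [hv, map_sub, hdP, hη, sub_self]
  have h4 := hcoer v hvP
  have e3 : HH v v = HH d d - 2 * HH η d + HH η η := by
    rw [hv]
    simp only [map_sub, _root_.sub_apply, P.H_sym d η]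
    ring
  rw [e3] at h4
  have h6 : ‖d‖ ≤ ‖v‖ + ‖η‖ := by
    have e4 : d = v + η := by rw [hv]; abel
    rw [e4]
    exact norm_add_le _ _
  rw [← hv]
  exact min_arith h1 h2 h3 h4 h6 hc₀ he hε₁0 hε₁1 hε₁2 (norm_nonneg _) (norm_nonneg _) (norm_nonneg _)

/-- Location of the exit time of the ray through a point of the tangent hyperplane. -/
lemma Pre.exit_time (B : Pre g h x₀ A χ₀) {y : X} (hy : χ₀ y = 1) (hd : ‖y - x₀‖ < 1)
    {t : ℝ} (ht : 0 < t) (hu : ‖x₀ - t • y‖ = 1) : 1 ≤ t ∧ t ≤ 2 ∧ 2 - t ≤ 2 * ‖y - x₀‖ := by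
  have h1 : |1 - t| ≤ 1 := by
    have := B.chi_abs (x₀ - t • y)
    rwa [map_sub, map_smul, B.self, hy, hu, smul_eq_mul, mul_one] at this
  have ht2 : t ≤ 2 := by
    have := (abs_le.1 h1).1
    linarith
  have e : x₀ - t • y = (1 - t) • x₀ - t • (y - x₀) := by module
  have h2 : 1 ≤ |1 - t| + t * ‖y - x₀‖ := by
    have h3 := norm_sub_le ((1 - t) • x₀) (t • (y - x₀))
    rw [← e, hu, norm_smul, norm_smul, B.unit, mul_one, Real.norm_eq_abs, Real.norm_of_nonneg ht.le]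
      at h3
    exact h3
  have ht1 : 1 ≤ t := by
    by_contra hc
    push Not at hc
    rw [abs_of_pos (by linarith)] at h2
    have h4 : t * 1 ≤ t * ‖y - x₀‖ := by linarith
    have := le_of_mul_le_mul_left h4 ht
    linarith
  refine ⟨ht1, ht2, ?_⟩
  rw [abs_of_nonpos (by linarith)] at h2
  have h5 : t * ‖y - x₀‖ ≤ 2 * ‖y - x₀‖ := mul_le_mul_of_nonneg_right ht2 (norm_nonneg _)
  linarith

/-- The image chord in the direction of a point of the tangent hyperplane. -/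
lemma chord_vector (P : GPeano g h x₀ A Λ χ₀ BB HH) {y₁ : X} {t : ℝ} (hu : ‖x₀ - t • y₁‖ = 1) :
    g x₀ - g (x₀ - t • y₁) = t • A y₁ + (t ^ 2 / 2) • BB (y₁ - x₀) (y₁ - x₀) +
      (g (t • y₁ - x₀) - A (t • y₁ - x₀) -
        (1 / 2 : ℝ) • BB (t • y₁ - x₀ - x₀) (t • y₁ - x₀ - x₀)) := by
  have hF := P.toFst
  have : Nontrivial X := ⟨⟨x₀, 0, hF.x0_ne⟩⟩
  have hv : ‖t • y₁ - x₀‖ = 1 := by
    rw [← norm_neg, neg_sub]
    exact hu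
  have e1 : x₀ - t • y₁ = -(t • y₁ - x₀) := by abel
  rw [e1, Vale.Agent.Lib.P084.sphere_odd hF.iso hv]
  have e2 : t • y₁ - x₀ - x₀ = (t - 2) • x₀ + t • (y₁ - x₀) := by module
  have e3 : BB (t • y₁ - x₀ - x₀) (t • y₁ - x₀ - x₀) = t ^ 2 • BB (y₁ - x₀) (y₁ - x₀) := by
    rw [e2]
    simp only [map_add, map_smul, _root_.add_apply, _root_.smul_apply, P.B_x, P.B_x', smul_zero,
      zero_add, add_zero, smul_smul]
    congr 1
    ring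
  have e4 : A (t • y₁ - x₀) = t • A y₁ - g x₀ := by
    rw [map_sub, map_smul, hF.Ax]
  rw [e3, e4]
  module

lemma e_vector (P : GPeano g h x₀ A Λ χ₀ BB HH) {y₁ : X} {t t₂ : ℝ} {y₂ R Q : Y}
    (h1 : t₂ • y₂ = t • A y₁ + (t ^ 2 / 2) • Q + R) :
    t₂ • (Λ y₂ - y₁ - Λ Q) = (t - t₂) • y₁ + (t ^ 2 / 2 - t₂) • Λ Q + Λ R := by
  have h2 : t₂ • Λ y₂ = t • y₁ + (t ^ 2 / 2) • Λ Q + Λ R := by
    rw [← map_smul, h1, map_add, map_add, map_smul, map_smul, P.left]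
  rw [smul_sub, smul_sub, h2]
  module

end Leg

end Vale.Agent.Lib.P084.Gen
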