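import Mathlib
import Vale.Agent.Lib.P084.Str.TwoPath

/-! A function whose increments are given by a quadratic form, up to a telescoping term and higher
order terms: the associated trilinear form is totally symmetric. -/

namespace Vale.Agent.Lib.P084.Gen

open Set Metric Filter Topology
open Vale.Agent.Lib.P084.Str (cube_bound four_abs)

section TwoP

variable {V : Type*} [NormedAddCommGroup V] [NormedSpace ℝ V]

/-- One step of the discrete mean value inequality. -/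
lemma step_arith {C₀ C₁ C₂ s h K : ℝ} (hK : K = |C₁| + 2 * |C₂|) (hs0 : 0 ≤ s) (hs1 : s ≤ 1) (hh0 : 0 ≤ h)
    (hh1 : h ≤ 1) :
    ((s + h) * C₀ + (s + h) ^ 2 * C₁ + (s + h) ^ 3 / 3 * C₂) - (s * C₀ + s ^ 2 * C₁ + s ^ 3 / 3 * C₂)
      ≤ h * (C₀ + 2 * s * C₁ + s ^ 2 * C₂) + h ^ 2 * K := by
  have e : ((s + h) * C₀ + (s + h) ^ 2 * C₁ + (s + h) ^ 3 / 3 * C₂) -
      (s * C₀ + s ^ 2 * C₁ + s ^ 3 / 3 * C₂) =
      h * (C₀ + 2 * s * C₁ + s ^ 2 * C₂) + h ^ 2 * (C₁ + (s + h / 3) * C₂) := by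
    ring
  rw [e]
  have h1 : C₁ + (s + h / 3) * C₂ ≤ K := by
    have h2 : (s + h / 3) * C₂ ≤ 2 * |C₂| := by
      have h3 : (s + h / 3) * C₂ ≤ (s + h / 3) * |C₂| :=
        mul_le_mul_of_nonneg_left (le_abs_self _) (by positivity)
      have h4 : (s + h / 3) * |C₂| ≤ 2 * |C₂| :=
        mul_le_mul_of_nonneg_right (by linarith) (abs_nonneg _)
      linarith
    rw [hK]
    linarith [le_abs_self C₁]
  have h5 := mul_le_mul_of_nonneg_left h1 (by positivity : 0 ≤ h ^ 2)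
  linarith

/-- **Discrete mean value inequality along a segment.** -/
lemma path_upper {ω : V → ℝ} {G : V → V → ℝ} (C : V →L[ℝ] V →L[ℝ] V →L[ℝ] ℝ)
    (hC : ∀ a b c, C a b c = C b a c) {e r M : ℝ} (he : 0 ≤ e) (hM : 0 ≤ M)
    (hU : ∀ η c, ‖η‖ < r → ‖η + c‖ < r →
      ω (η + c) - ω η + C η η c ≤ G (η + c) c - G η c + e * ‖η‖ ^ 2 * ‖c‖)
    (hG : ∀ η, ‖η‖ < r → ∀ c, |G η c| ≤ M * ‖c‖) (p c : V) (hpath : ‖p‖ + ‖c‖ < r) :
    ω (p + c) - ω p + (C p p c + C p c c + 1 / 3 * C c c c) ≤ e * (‖p‖ + ‖c‖) ^ 2 * ‖c‖ := by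
  obtain ⟨C₀, hC₀⟩ : ∃ C₀, C₀ = C p p c := ⟨_, rfl⟩
  obtain ⟨C₁, hC₁⟩ : ∃ C₁, C₁ = C p c c := ⟨_, rfl⟩
  obtain ⟨C₂, hC₂⟩ : ∃ C₂, C₂ = C c c c := ⟨_, rfl⟩
  obtain ⟨K, hK⟩ : ∃ K, K = |C₁| + 2 * |C₂| := ⟨_, rfl⟩
  obtain ⟨R, hR⟩ : ∃ R, R = ‖p‖ + ‖c‖ := ⟨_, rfl⟩
  obtain ⟨Q, hQ⟩ : ∃ Q : ℝ → ℝ, Q = fun s => s * C₀ + s ^ 2 * C₁ + s ^ 3 / 3 * C₂ := ⟨_, rfl⟩
  rw [← hC₀, ← hC₁, ← hC₂, ← hR]
  have hKn : 0 ≤ K := by
    rw [hK]
    positivity
  have hcn := norm_nonneg c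
  have hR0 : 0 ≤ R := by
    rw [hR]
    positivity
  have hmain : ∀ n : ℕ, 0 < n → ω (p + c) - ω p + (C₀ + C₁ + 1 / 3 * C₂) ≤
      e * R ^ 2 * ‖c‖ + (2 * M * ‖c‖ + K) * (1 / (n : ℝ)) := by
    intro n hn
    have hn0 : (0 : ℝ) < n := by exact_mod_cast hn
    obtain ⟨h, hh⟩ : ∃ h : ℝ, h = 1 / (n : ℝ) := ⟨_, rfl⟩
    rw [← hh]
    have hh0 : 0 < h := by
      rw [hh]
      positivity
    have hh1 : h ≤ 1 := by
      rw [hh, div_le_one hn0]
      exact_mod_cast hn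
    have hnh : (n : ℝ) * h = 1 := by
      rw [hh]
      field_simp
    obtain ⟨η, hη⟩ : ∃ η : ℕ → V, η = fun k : ℕ => p + ((k : ℝ) * h) • c := ⟨_, rfl⟩
    have hηv : ∀ k, η k = p + ((k : ℝ) * h) • c := fun k => by rw [hη]
    have hsk : ∀ k : ℕ, k ≤ n → (k : ℝ) * h ≤ 1 := by
      intro k hk
      rw [← hnh]
      exact mul_le_mul_of_nonneg_right (by exact_mod_cast hk) hh0.le
    have hηn : ∀ k : ℕ, k ≤ n → ‖η k‖ ≤ R := by
      intro k hk
      rw [hηv, hR]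
      refine (norm_add_le _ _).trans ?_
      rw [norm_smul, Real.norm_of_nonneg (by positivity)]
      have : (k : ℝ) * h * ‖c‖ ≤ 1 * ‖c‖ := mul_le_mul_of_nonneg_right (hsk k hk) hcn
      linarith
    have hRr : R < r := by
      rw [hR]
      exact hpath
    obtain ⟨cn, hcn'⟩ : ∃ cn, cn = h • c := ⟨_, rfl⟩
    have hcnn : ‖cn‖ = h * ‖c‖ := by
      rw [hcn', norm_smul, Real.norm_of_nonneg hh0.le]
    have hηs : ∀ k, η (k + 1) = η k + cn := by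
      intro k
      rw [hηv, hηv, hcn', add_assoc, ← add_smul]
      congr 2
      push_cast
      ring
    -- one step
    have hstep : ∀ k : ℕ, k < n → ω (η (k + 1)) - ω (η k) + (Q (((k + 1 : ℕ) : ℝ) * h) - Q ((k : ℝ) * h)) ≤
        G (η (k + 1)) cn - G (η k) cn + (e * R ^ 2 * (h * ‖c‖) + h ^ 2 * K) := by
      intro k hk
      have h1 := hU (η k) cn ((hηn k hk.le).trans_lt hRr) (by
        rw [← hηs]
        exact (hηn (k + 1) hk).trans_lt hRr)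
      rw [← hηs] at h1
      have hs0 : 0 ≤ (k : ℝ) * h := by positivity
      have hs1 := hsk k hk.le
      have h2 := step_arith (C₀ := C₀) (C₁ := C₁) (C₂ := C₂) hK hs0 hs1 hh0.le hh1
      have e1 : ((k + 1 : ℕ) : ℝ) * h = (k : ℝ) * h + h := by
        push_cast
        ring
      rw [e1, hQ]
      simp only
      have e2 : C (η k) (η k) cn = h * (C₀ + 2 * ((k : ℝ) * h) * C₁ + ((k : ℝ) * h) ^ 2 * C₂) := by
        rw [hηv, hcn', hC₀, hC₁, hC₂]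
        simp only [map_add, map_smul, _root_.add_apply, _root_.smul_apply, smul_eq_mul, hC c p c]
        ring
      rw [e2] at h1
      have h3 : e * ‖η k‖ ^ 2 * ‖cn‖ ≤ e * R ^ 2 * (h * ‖c‖) := by
        rw [hcnn]
        refine mul_le_mul_of_nonneg_right ?_ (by positivity)
        exact mul_le_mul_of_nonneg_left (pow_le_pow_left₀ (norm_nonneg _) (hηn k hk.le) 2) he
      linarith
    -- summation
    have hsum : ∀ k : ℕ, k ≤ n → ω (η k) - ω (η 0) + Q ((k : ℝ) * h) ≤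
        G (η k) cn - G (η 0) cn + (k : ℝ) * (e * R ^ 2 * (h * ‖c‖) + h ^ 2 * K) := by
      intro k
      induction k with
      | zero =>
        intro _
        rw [hQ]
        simp
      | succ k ih =>
        intro hk
        have h1 := ih (by omega)
        have h2 := hstep k (by omega)
        have e1 : ((k + 1 : ℕ) : ℝ) = (k : ℝ) + 1 := by push_cast; ring
        rw [e1] at h2 ⊢
        linarith
    have h1 := hsum n le_rfl
    rw [hnh] at h1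
    have hη0 : η 0 = p := by
      rw [hηv]
      simp
    have hηN : η n = p + c := by
      rw [hηv, hnh, one_smul]
    rw [hη0, hηN] at h1
    have hQ1 : Q 1 = C₀ + C₁ + 1 / 3 * C₂ := by
      rw [hQ]
      simp only
      ring
    rw [hQ1] at h1
    have hG1 := abs_le.1 (hG (p + c) (by
      rw [← hηN]
      exact (hηn n le_rfl).trans_lt hRr) cn)
    have hp0 : ‖p‖ < r := by
      have : ‖p‖ ≤ R := by
        rw [hR]
        linarith
      linarith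
    have hG2 := abs_le.1 (hG p hp0 cn)
    rw [hcnn] at hG1 hG2
    have e2 : (n : ℝ) * (e * R ^ 2 * (h * ‖c‖) + h ^ 2 * K) =
        ((n : ℝ) * h) * (e * R ^ 2 * ‖c‖ + h * K) := by ring
    rw [e2, hnh, one_mul] at h1
    have e3 : M * (h * ‖c‖) = M * ‖c‖ * h := by ring
    rw [e3] at hG1 hG2
    have e4 : (2 * M * ‖c‖ + K) * h = 2 * (M * ‖c‖ * h) + K * h := by ring
    rw [e4]
    linarith [hG1.2, hG2.1, mul_comm h K]
  -- the limit
  refine le_of_forall_pos_le_add fun ε hε => ?_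
  obtain ⟨n, hn⟩ := exists_nat_gt ((2 * M * ‖c‖ + K) / ε)
  have hA : 0 ≤ 2 * M * ‖c‖ + K := by positivity
  have hn0 : (0 : ℝ) < n := lt_of_le_of_lt (by positivity) hn
  have hn1 : 0 < n := by exact_mod_cast hn0
  have h1 := hmain n hn1
  have h2 : (2 * M * ‖c‖ + K) * (1 / (n : ℝ)) ≤ ε := by
    rw [mul_one_div, div_le_iff₀ hn0]
    rw [div_lt_iff₀ hε] at hn
    linarith
  linarith

/-- The two sided estimate along a segment. -/
lemma path_two {ω : V → ℝ} {G : V → V → ℝ} (C : V →L[ℝ] V →L[ℝ] V →L[ℝ] ℝ)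
    (hC : ∀ a b c, C a b c = C b a c) {e r M : ℝ} (he : 0 ≤ e) (hM : 0 ≤ M)
    (hU : ∀ η c, ‖η‖ < r → ‖η + c‖ < r →
      ω (η + c) - ω η + C η η c ≤ G (η + c) c - G η c + e * ‖η‖ ^ 2 * ‖c‖)
    (hG : ∀ η, ‖η‖ < r → ∀ c, |G η c| ≤ M * ‖c‖) (p c : V) (hpath : ‖p‖ + 2 * ‖c‖ < r) :
    |ω (p + c) - ω p + (C p p c + C p c c + 1 / 3 * C c c c)| ≤ e * (‖p‖ + 2 * ‖c‖) ^ 2 * ‖c‖ := by
  have hcn := norm_nonneg c
  have hpn := norm_nonneg p
  have h1 := path_upper C hC he hM hU hG p c (by linarith)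
  have hpc : ‖p + c‖ ≤ ‖p‖ + ‖c‖ := norm_add_le _ _
  have h2 := path_upper C hC he hM hU hG (p + c) (-c) (by rw [norm_neg]; linarith)
  rw [add_neg_cancel_right, norm_neg] at h2
  have e1 : C (p + c) (p + c) (-c) + C (p + c) (-c) (-c) + 1 / 3 * C (-c) (-c) (-c) =
      -(C p p c + C p c c + 1 / 3 * C c c c) := by
    simp only [map_add, map_neg, _root_.add_apply, _root_.neg_apply, hC c p c]
    ring
  rw [e1] at h2
  have h3 : e * (‖p‖ + ‖c‖) ^ 2 * ‖c‖ ≤ e * (‖p‖ + 2 * ‖c‖) ^ 2 * ‖c‖ := by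
    refine mul_le_mul_of_nonneg_right ?_ hcn
    refine mul_le_mul_of_nonneg_left ?_ he
    exact pow_le_pow_left₀ (by positivity) (by linarith) 2
  have h4 : e * (‖p + c‖ + ‖c‖) ^ 2 * ‖c‖ ≤ e * (‖p‖ + 2 * ‖c‖) ^ 2 * ‖c‖ := by
    refine mul_le_mul_of_nonneg_right ?_ hcn
    refine mul_le_mul_of_nonneg_left ?_ he
    exact pow_le_pow_left₀ (by positivity) (by linarith) 2
  rw [abs_le]
  constructor <;> linarith

/-- The two sided estimate along a scaled segment. -/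
lemma path_scaled {ω : V → ℝ} {G : V → V → ℝ} (C : V →L[ℝ] V →L[ℝ] V →L[ℝ] ℝ)
    (hC : ∀ a b c, C a b c = C b a c) {e r M : ℝ} (he : 0 ≤ e) (hM : 0 ≤ M)
    (hU : ∀ η c, ‖η‖ < r → ‖η + c‖ < r →
      ω (η + c) - ω η + C η η c ≤ G (η + c) c - G η c + e * ‖η‖ ^ 2 * ‖c‖)
    (hG : ∀ η, ‖η‖ < r → ∀ c, |G η c| ≤ M * ‖c‖) (a b : V) {ε : ℝ} (hε0 : 0 < ε)
    (h₂ : ε * (‖a‖ + 2 * ‖b‖) < r) :
    |ω (ε • a + ε • b) - ω (ε • a) + ε ^ 3 * (C a a b + C a b b + 1 / 3 * C b b b)| ≤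
      e * (ε * (‖a‖ + 2 * ‖b‖)) ^ 2 * (ε * ‖b‖) := by
  have hna : ‖ε • a‖ = ε * ‖a‖ := by rw [norm_smul, Real.norm_of_nonneg hε0.le]
  have hnb : ‖ε • b‖ = ε * ‖b‖ := by rw [norm_smul, Real.norm_of_nonneg hε0.le]
  have h1 := path_two C hC he hM hU hG (ε • a) (ε • b) (by rw [hna, hnb]; linarith)
  have e1 : C (ε • a) (ε • a) (ε • b) + C (ε • a) (ε • b) (ε • b) +
      1 / 3 * C (ε • b) (ε • b) (ε • b) = ε ^ 3 * (C a a b + C a b b + 1 / 3 * C b b b) := by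
    simp only [map_smul, _root_.smul_apply, smul_eq_mul]
    ring
  rw [e1, hna, hnb] at h1
  have e2 : ε * ‖a‖ + 2 * (ε * ‖b‖) = ε * (‖a‖ + 2 * ‖b‖) := by ring
  rwa [e2] at h1

/-- The comparison of the two paths at one scale. -/
lemma two_path_step' {ω : V → ℝ} {G : V → V → ℝ} (C : V →L[ℝ] V →L[ℝ] V →L[ℝ] ℝ)
    (hC : ∀ a b c, C a b c = C b a c) {e r M : ℝ} (he : 0 ≤ e) (hM : 0 ≤ M)
    (hU : ∀ η c, ‖η‖ < r → ‖η + c‖ < r →
      ω (η + c) - ω η + C η η c ≤ G (η + c) c - G η c + e * ‖η‖ ^ 2 * ‖c‖)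
    (hG : ∀ η, ‖η‖ < r → ∀ c, |G η c| ≤ M * ‖c‖)
    (a b : V) {ε : ℝ} (hε0 : 0 < ε) (h₂ : ε * (2 * (‖a‖ + ‖b‖)) < r) :
    |C a a b + C a b b - (C b b a + C b a a)| ≤ e * (16 * (‖a‖ + ‖b‖ + 1) ^ 3) := by
  have ha0 := norm_nonneg a
  have hb0 := norm_nonneg b
  have hab := path_scaled C hC he hM hU hG a b hε0 (by nlinarith)
  have hba := path_scaled C hC he hM hU hG b a hε0 (by nlinarith)
  have h0a := path_scaled C hC he hM hU hG 0 a hε0 (by rw [norm_zero]; nlinarith)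
  have h0b := path_scaled C hC he hM hU hG 0 b hε0 (by rw [norm_zero]; nlinarith)
  simp only [map_zero, _root_.zero_apply, smul_zero, zero_add, norm_zero] at h0a h0b
  rw [add_comm (ε • b)] at hba
  obtain ⟨N, hN⟩ : ∃ N, N = ‖a‖ + ‖b‖ + 1 := ⟨_, rfl⟩
  rw [← hN]
  have hN0 : 0 < N := by
    rw [hN]
    positivity
  have hbound : ∀ x y : ℝ, 0 ≤ x → 0 ≤ y → x ≤ 2 * N → y ≤ N →
      e * (ε * x) ^ 2 * (ε * y) ≤ e * (ε ^ 3 * (4 * N ^ 3)) := by
    intro x y hx hy hxN hyN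
    have h1 : x ^ 2 ≤ (2 * N) ^ 2 := pow_le_pow_left₀ hx hxN 2
    have h2 : x ^ 2 * y ≤ (2 * N) ^ 2 * N := mul_le_mul h1 hyN hy (by positivity)
    have h3 : e * (ε * x) ^ 2 * (ε * y) = e * (ε ^ 3 * (x ^ 2 * y)) := by ring
    rw [h3]
    refine mul_le_mul_of_nonneg_left ?_ he
    have h4 : 4 * N ^ 3 = (2 * N) ^ 2 * N := by ring
    rw [h4]
    exact mul_le_mul_of_nonneg_left h2 (by positivity)
  have d1 := hab.trans (hbound _ _ (by positivity) hb0 (by rw [hN]; linarith) (by rw [hN]; linarith))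
  have d2 := hba.trans (hbound _ _ (by positivity) ha0 (by rw [hN]; linarith) (by rw [hN]; linarith))
  have d3 := h0a.trans (hbound _ _ (by positivity) ha0 (by rw [hN]; linarith) (by rw [hN]; linarith))
  have d4 := h0b.trans (hbound _ _ (by positivity) hb0 (by rw [hN]; linarith) (by rw [hN]; linarith))
  have h5 := four_abs d1 d2 d3 d4
  have hε3 : 0 < ε ^ 3 := by positivity
  have e1 : ω (ε • a + ε • b) - ω (ε • a) + ε ^ 3 * (C a a b + C a b b + 1 / 3 * C b b b) +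
      (ω (ε • a) - ω 0 + ε ^ 3 * (1 / 3 * C a a a)) -
      (ω (ε • a + ε • b) - ω (ε • b) + ε ^ 3 * (C b b a + C b a a + 1 / 3 * C a a a)) -
      (ω (ε • b) - ω 0 + ε ^ 3 * (1 / 3 * C b b b)) =
      ε ^ 3 * (C a a b + C a b b - (C b b a + C b a a)) := by ring
  rw [e1, abs_mul, abs_of_pos hε3] at h5
  have e2 : 4 * (e * (ε ^ 3 * (4 * N ^ 3))) = ε ^ 3 * (e * (16 * N ^ 3)) := by ring
  rw [e2] at h5
  exact le_of_mul_le_mul_left h5 hε3

/-- **Two paths.** -/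
theorem two_path' {ω : V → ℝ} {G : V → V → ℝ} (C : V →L[ℝ] V →L[ℝ] V →L[ℝ] ℝ)
    (hC : ∀ a b c, C a b c = C b a c) {r₀ M : ℝ} (hr₀ : 0 < r₀) (hM : 0 ≤ M)
    (hG : ∀ η, ‖η‖ < r₀ → ∀ c, |G η c| ≤ M * ‖c‖)
    (hest : ∀ e : ℝ, 0 < e → ∃ r : ℝ, 0 < r ∧ r ≤ r₀ ∧ ∀ η c, ‖η‖ < r → ‖η + c‖ < r →
      ω (η + c) - ω η + C η η c ≤ G (η + c) c - G η c + e * ‖η‖ ^ 2 * ‖c‖) (a b : V) :
    C a a b = C a b a := by
  -- the identity from comparing two paths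
  have key : ∀ a b : V, C a a b + C a b b = C b b a + C b a a := by
    intro a b
    obtain ⟨M', hM'⟩ : ∃ M', M' = 16 * (‖a‖ + ‖b‖ + 1) ^ 3 := ⟨_, rfl⟩
    have hM0 : 0 < M' := by
      rw [hM']
      positivity
    have hmain : ∀ e : ℝ, 0 < e →
        |C a a b + C a b b - (C b b a + C b a a)| ≤ e * M' := by
      intro e he
      obtain ⟨r, hr, hrr, hb⟩ := hest e he
      obtain ⟨ε, hε⟩ : ∃ ε, ε = r / (4 * (‖a‖ + ‖b‖ + 1)) := ⟨_, rfl⟩
      have hε0 : 0 < ε := by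
        rw [hε]
        positivity
      have hε1 : ε * (2 * (‖a‖ + ‖b‖)) < r := by
        have h1 : ε * (4 * (‖a‖ + ‖b‖ + 1)) = r := by
          rw [hε]
          field_simp
        nlinarith [norm_nonneg a, norm_nonneg b]
      rw [hM']
      exact two_path_step' C hC he.le hM hb
        (fun η hη c => hG η (hη.trans_le hrr) c) a b hε0 hε1
    by_contra hne
    have hpos := abs_pos.2 (sub_ne_zero.2 hne)
    have h1 := hmain (|C a a b + C a b b - (C b b a + C b a a)| / (2 * M')) (by positivity)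
    have h2 : |C a a b + C a b b - (C b b a + C b a a)| / (2 * M') * M' =
        |C a a b + C a b b - (C b b a + C b a a)| / 2 := by
      field_simp
    rw [h2] at h1
    linarith
  have h1 := key a b
  have h2 := key a (-b)
  simp only [map_neg, _root_.neg_apply, neg_neg] at h2
  rw [hC b a a] at h1 h2
  linarith

end TwoP

end Vale.Agent.Lib.P084.Gen
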