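import Mathlib
import Vale.Agent.Lib.P084.Gen.Leg
import Vale.Agent.Lib.P084.Gen.TwoP
import Vale.Agent.Lib.P084.Gen.CubicR

/-! Second order expansion along chords; total symmetry; vanishing of the second derivative. -/

namespace Vale.Agent.Lib.P084.Gen

open Set Metric Filter Topology
open Vale.Agent.Lib.P084
open Vale.Agent.Lib.P084.Str (e_arith)

section Exp

variable {X Y : Type*} [NormedAddCommGroup X] [NormedSpace ℝ X]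
  [NormedAddCommGroup Y] [NormedSpace ℝ Y] {g : X → Y} {h : Y → X} {x₀ : X} {A : X →L[ℝ] Y}
  {Λ : Y →L[ℝ] X} {χ₀ : StrongDual ℝ X} {BB : X →L[ℝ] X →L[ℝ] Y} {HH : X →L[ℝ] X →L[ℝ] ℝ}
  [FiniteDimensional ℝ X] [FiniteDimensional ℝ Y]

/-- A chord in the direction of a minimiser produces a minimiser of the transported problem. -/
theorem GPeano.chord (P : GPeano g h x₀ A Λ χ₀ BB HH) {ξ : StrongDual ℝ X} {y : X} {a : ℝ}
    (hm : IsM χ₀ ξ y a) {t : ℝ} (ht : 0 < t) (hu : ‖x₀ - t • y‖ = 1) :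
    ∃ (t₂ b : ℝ) (y₂ : Y), 0 < t₂ ∧ g x₀ - g (x₀ - t • y) = t₂ • y₂ ∧
      IsM (χ₀.comp Λ) (ξ.comp Λ) y₂ b := by
  have B := P.toFst
  obtain ⟨u, hud⟩ : ∃ u, u = x₀ - t • y := ⟨_, rfl⟩
  rw [← hud] at hu ⊢
  have hut : x₀ - u = t • y := by
    rw [hud, sub_sub_cancel]
  have hne : u ≠ x₀ := by
    rintro rfl
    rw [sub_self] at hut
    exact (smul_ne_zero ht.ne' hm.ne_zero) hut.symm
  have hgu : ‖g u‖ = 1 := B.iso.map_g _ hu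
  have hguy : g u ≠ g x₀ := by
    intro hc
    have := congrArg h hc
    rw [B.iso.left _ hu, B.iso.left _ B.unit] at this
    exact hne this
  obtain ⟨Z, hZ⟩ : ∃ Z, Z = g x₀ - g u := ⟨_, rfl⟩
  rw [← hZ]
  obtain ⟨t₂, ht₂⟩ : ∃ t₂, t₂ = (χ₀.comp Λ) Z := ⟨_, rfl⟩
  have ht₂0 : 0 < t₂ := by
    have h1 : (χ₀.comp Λ) (g u) ≠ 1 := fun hc => hguy (P.exposed_Y hgu hc)
    have h2 := B.norming'.apply_le (g u)
    rw [hgu] at h2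
    have h3 := lt_of_le_of_ne h2 h1
    rw [ht₂, hZ, map_sub, B.self']
    linarith
  have hsupp : ∀ v, χ₀ v = 0 → ‖x₀ - u‖ + ξ v ≤ ‖x₀ - u + v‖ := by
    intro v hv
    rw [hut]
    have h1 := hm.support (v := t⁻¹ • v) (by rw [map_smul, hv]; simp)
    have h2 := mul_le_mul_of_nonneg_left h1 ht.le
    rw [map_smul, smul_eq_mul] at h2
    have e : t • y + v = t • (y + t⁻¹ • v) := by
      rw [smul_add, smul_smul, mul_inv_cancel₀ ht.ne', one_smul]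
    rw [e, norm_smul, norm_smul, Real.norm_of_nonneg ht.le]
    have e2 : t * (‖y‖ + t⁻¹ * ξ v) = t * ‖y‖ + ξ v := by
      field_simp
    linarith
  have hZsupp : ∀ v, χ₀ v = 0 → ‖Z‖ + ξ v ≤ ‖Z + A v‖ := by
    intro v hv
    rw [hZ]
    exact B.tan_transfer hu hsupp hv
  refine ⟨t₂, _, t₂⁻¹ • Z, ht₂0, ?_, IsM.of_support ?_ fun V hV => ?_⟩
  · rw [smul_smul, mul_inv_cancel₀ ht₂0.ne', one_smul]
  · rw [map_smul, ← ht₂, smul_eq_mul, inv_mul_cancel₀ ht₂0.ne']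
  · obtain ⟨v, hv⟩ : ∃ v, v = Λ V := ⟨_, rfl⟩
    have hV2 : V = A v := by rw [hv, B.right]
    have hv0 : χ₀ v = 0 := by
      rw [hv]
      exact hV
    have h1 := hZsupp (t₂ • v) (by rw [map_smul, hv0]; simp)
    rw [map_smul, map_smul, smul_eq_mul] at h1
    have e : t₂⁻¹ • Z + V = t₂⁻¹ • (Z + t₂ • A v) := by
      rw [smul_add, smul_smul, inv_mul_cancel₀ ht₂0.ne', one_smul, hV2]
    rw [e, norm_smul, norm_smul, norm_inv, Real.norm_of_nonneg ht₂0.le]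
    have h2 := mul_le_mul_of_nonneg_left h1 (inv_pos.2 ht₂0).le
    have e2 : t₂⁻¹ * (‖Z‖ + t₂ * ξ v) = t₂⁻¹ * ‖Z‖ + ξ v := by
      field_simp
    rw [e2] at h2
    have e3 : (ξ.comp Λ) V = ξ v := by
      simp [hv]
    rw [e3]
    exact h2

/-- **Second order expansion of the difference of minimisers, in terms of the first minimiser.** -/
theorem e_exp₁ (P : GPeano g h x₀ A Λ χ₀ BB HH) {e' : ℝ} (he' : 0 < e') :
    ∃ r : ℝ, 0 < r ∧ ∀ (y₁ : X) (y₂ : Y) (t t₂ : ℝ), χ₀ y₁ = 1 → (χ₀.comp Λ) y₂ = 1 →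
      ‖y₁ - x₀‖ < r → 0 < t → ‖x₀ - t • y₁‖ = 1 → 0 < t₂ → g x₀ - g (x₀ - t • y₁) = t₂ • y₂ →
      ‖Λ y₂ - y₁ - Λ (BB (y₁ - x₀) (y₁ - x₀))‖ ≤ e' * ‖y₁ - x₀‖ ^ 2 := by
  have hF := P.toFst
  obtain ⟨W, hW⟩ : ∃ W, W = ‖Λ‖ * ‖BB‖ := ⟨_, rfl⟩
  have hW0 : 0 ≤ W := by
    rw [hW]
    positivity
  obtain ⟨e₁, he₁⟩ : ∃ e₁, e₁ = min 1 (e' / (2 * (64 + 32 * ‖Λ‖))) := ⟨_, rfl⟩
  have he₁0 : 0 < e₁ := by
    rw [he₁]
    positivity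
  have he₁1 : e₁ ≤ 1 := by rw [he₁]; exact min_le_left _ _
  have he₁2 : (64 + 32 * ‖Λ‖) * e₁ ≤ e' / 2 := by
    have h1 : e₁ ≤ e' / (2 * (64 + 32 * ‖Λ‖)) := by rw [he₁]; exact min_le_right _ _
    rw [le_div_iff₀ (by positivity)] at h1
    linarith
  obtain ⟨ρ, hρ, hbρ⟩ := Metric.eventually_nhds_iff.1 (P.T_exp e₁ he₁0)
  obtain ⟨r, hr⟩ : ∃ r, r = min (1 / 8) (min (ρ / 4) (e' / (16 * (W + 1)))) := ⟨_, rfl⟩
  have hr0 : 0 < r := by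
    rw [hr]
    positivity
  have hr1 : r ≤ 1 / 8 := by rw [hr]; exact min_le_left _ _
  have hr2 : r ≤ ρ / 4 := by rw [hr]; exact (min_le_right _ _).trans (min_le_left _ _)
  have hr3 : r * (16 * (W + 1)) ≤ e' := by
    have h1 : r ≤ e' / (16 * (W + 1)) := by
      rw [hr]
      exact (min_le_right _ _).trans (min_le_right _ _)
    rwa [le_div_iff₀ (by positivity)] at h1
  refine ⟨r, hr0, fun y₁ y₂ t t₂ hy₁ hy₂ hdr ht hu ht₂ hp' => ?_⟩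
  obtain ⟨d, hd⟩ : ∃ d, d = y₁ - x₀ := ⟨_, rfl⟩
  rw [← hd] at hdr ⊢
  have hdn : 0 ≤ ‖d‖ := norm_nonneg d
  have hd18 : ‖d‖ ≤ 1 / 8 := hdr.le.trans hr1
  obtain ⟨ht1, ht2, ht3⟩ := hF.exit_time hy₁ (by rw [← hd]; linarith) ht hu
  rw [← hd] at ht3
  have hvec := chord_vector P hu
  rw [← hd, hp'] at hvec
  obtain ⟨R, hR⟩ : ∃ R, R = g (t • y₁ - x₀) - A (t • y₁ - x₀) -
      (1 / 2 : ℝ) • BB (t • y₁ - x₀ - x₀) (t • y₁ - x₀ - x₀) := ⟨_, rfl⟩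
  rw [← hR] at hvec
  -- size of the remainder
  have hz : t • y₁ - x₀ - x₀ = (t - 2) • x₀ + t • d := by
    rw [hd]
    module
  have hzn : ‖t • y₁ - x₀ - x₀‖ ≤ 4 * ‖d‖ := by
    rw [hz]
    refine (norm_add_le _ _).trans ?_
    rw [norm_smul, norm_smul, hF.unit, mul_one, Real.norm_eq_abs, Real.norm_of_nonneg ht.le,
      abs_of_nonpos (by linarith)]
    have : t * ‖d‖ ≤ 2 * ‖d‖ := mul_le_mul_of_nonneg_right ht2 hdn
    linarith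
  have hv1 : ‖t • y₁ - x₀‖ = 1 := by
    rw [← norm_neg, neg_sub]
    exact hu
  have hRb : ‖R‖ ≤ 16 * e₁ * ‖d‖ ^ 2 := by
    have h1 := @hbρ (t • y₁ - x₀) (by
      rw [dist_eq_norm]
      linarith) hv1
    rw [← hR] at h1
    refine h1.trans ?_
    have h2 := pow_le_pow_left₀ (norm_nonneg _) hzn 2
    have h3 := mul_le_mul_of_nonneg_left h2 he₁0.le
    nlinarith
  -- the scalar relation
  have hdP : χ₀ d = 0 := by
    rw [hd, map_sub, hy₁, hF.self, sub_self]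
  have ht₂' : t₂ = t + (χ₀.comp Λ) R := by
    have h1 := congrArg (χ₀.comp Λ) hvec
    rw [map_smul, hy₂, map_add, map_add, map_smul, map_smul, hF.comp_A, hy₁,
      Phi_B P hdP hdP] at h1
    simpa using h1
  have hvL := e_vector P hvec
  -- the final estimate
  have hy₁n : ‖y₁‖ ≤ 1 + ‖d‖ := by
    have e1 : y₁ = x₀ + d := by rw [hd]; abel
    rw [e1]
    refine (norm_add_le _ _).trans ?_
    rw [hF.unit]
  have hQ : ‖Λ (BB d d)‖ ≤ W * ‖d‖ ^ 2 := by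
    have h1 := Λ.le_opNorm (BB d d)
    have h2 := (BB d).le_opNorm d
    have h3 := BB.le_opNorm d
    have h4 : ‖BB d‖ * ‖d‖ ≤ ‖BB‖ * ‖d‖ * ‖d‖ := mul_le_mul_of_nonneg_right h3 hdn
    rw [hW]
    calc ‖Λ (BB d d)‖ ≤ ‖Λ‖ * ‖BB d d‖ := h1
      _ ≤ ‖Λ‖ * (‖BB‖ * ‖d‖ * ‖d‖) :=
        mul_le_mul_of_nonneg_left (h2.trans h4) (norm_nonneg _)
      _ = ‖Λ‖ * ‖BB‖ * ‖d‖ ^ 2 := by ring
  have hEn : t₂ * ‖Λ y₂ - y₁ - Λ (BB d d)‖ ≤ |t - t₂| * ‖y₁‖ + |t ^ 2 / 2 - t₂| * ‖Λ (BB d d)‖ +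
      ‖Λ R‖ := by
    have h1 := congrArg norm hvL
    rw [norm_smul, Real.norm_of_nonneg ht₂.le] at h1
    rw [h1]
    refine (norm_add_le _ _).trans (add_le_add ((norm_add_le _ _).trans ?_) le_rfl)
    rw [norm_smul, norm_smul, Real.norm_eq_abs, Real.norm_eq_abs]
  refine e_arith hdn hd18 ht1 ht2 ht3 ht₂' (hF.norming'.abs_le _) hRb he₁0 he₁1 hy₁n hW0 hQ (norm_nonneg _)
    (norm_nonneg Λ) (Λ.le_opNorm R) hEn (norm_nonneg _) (norm_nonneg _) he₁2 ?_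
  have h1 : ‖d‖ * (16 * (W + 1)) ≤ e' := by
    have := mul_le_mul_of_nonneg_right hdr.le (by positivity : 0 ≤ 16 * (W + 1))
    linarith
  nlinarith

/-- **Second order expansion of the difference of minimisers.** -/
theorem e_exp₂ (P : GPeano g h x₀ A Λ χ₀ BB HH) {e' : ℝ} (he' : 0 < e') :
    ∃ r : ℝ, 0 < r ∧ ∀ (η y₁ : X) (a₁ : ℝ) (y₂ : Y) (t t₂ : ℝ), χ₀ η = 0 → ‖η‖ < r →
      IsM χ₀ (HH η) y₁ a₁ → (χ₀.comp Λ) y₂ = 1 → 0 < t → ‖x₀ - t • y₁‖ = 1 → 0 < t₂ →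
      g x₀ - g (x₀ - t • y₁) = t₂ • y₂ → ‖Λ y₂ - y₁ - Λ (BB η η)‖ ≤ e' * ‖η‖ ^ 2 := by
  have hF := P.toFst
  obtain ⟨W, hW⟩ : ∃ W, W = ‖Λ‖ * ‖BB‖ := ⟨_, rfl⟩
  have hW0 : 0 ≤ W := by
    rw [hW]
    positivity
  obtain ⟨r₁, hr₁, hb₁⟩ := e_exp₁ P (e' := e' / 8) (by positivity)
  obtain ⟨e₂, he₂⟩ : ∃ e₂, e₂ = min 1 (e' / (6 * (W + 1))) := ⟨_, rfl⟩
  have he₂0 : 0 < e₂ := by
    rw [he₂]
    positivity
  have he₂1 : e₂ ≤ 1 := by rw [he₂]; exact min_le_left _ _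
  have he₂2 : e₂ * (6 * (W + 1)) ≤ e' := by
    have h1 : e₂ ≤ e' / (6 * (W + 1)) := by rw [he₂]; exact min_le_right _ _
    rwa [le_div_iff₀ (by positivity)] at h1
  obtain ⟨r₂, hr₂, hb₂⟩ := minimizer_exp P he₂0
  obtain ⟨η₀, hη₀, hb₀⟩ := P.isM_near hr₁
  refine ⟨min r₂ (η₀ / (‖HH‖ + 1)), by positivity,
    fun η y₁ a₁ y₂ t t₂ hη hηr hm₁ hy₂ ht hu ht₂ hp => ?_⟩
  have hη₁ : ‖η‖ < r₂ := hηr.trans_le (min_le_left _ _)
  have hη₂ : ‖η‖ * (‖HH‖ + 1) < η₀ := by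
    have := hηr.trans_le (min_le_right _ _)
    rwa [lt_div_iff₀ (by positivity)] at this
  have hHη : ‖HH η‖ < η₀ := by
    refine (HH.le_opNorm η).trans_lt ?_
    nlinarith [norm_nonneg HH, norm_nonneg η]
  have hd := hb₀ _ y₁ a₁ (P.H_x' η) hHη hm₁
  have hdη := hb₂ η y₁ a₁ hη hη₁ hm₁
  have h1 := hb₁ y₁ y₂ t t₂ hm₁.aff hy₂ hd ht hu ht₂ hp
  obtain ⟨d, hddef⟩ : ∃ d, d = y₁ - x₀ := ⟨_, rfl⟩
  rw [← hddef] at h1 hdη
  have hηn : 0 ≤ ‖η‖ := norm_nonneg η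
  have hdn : ‖d‖ ≤ 2 * ‖η‖ := by
    have e1 : d = (d - η) + η := by abel
    have h2 : ‖d‖ ≤ ‖d - η‖ + ‖η‖ := by
      conv_lhs => rw [e1]
      exact norm_add_le _ _
    nlinarith
  have hdsq : ‖d‖ ^ 2 ≤ 4 * ‖η‖ ^ 2 := by
    have := pow_le_pow_left₀ (norm_nonneg d) hdn 2
    nlinarith
  have hsplit : BB d d - BB η η = BB (d - η) (d + η) := by
    simp only [map_sub, map_add, _root_.sub_apply, P.B_sym η d]
    abel
  have e1 : Λ y₂ - y₁ - Λ (BB η η) = (Λ y₂ - y₁ - Λ (BB d d)) + Λ (BB (d - η) (d + η)) := by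
    rw [← hsplit, map_sub]
    abel
  rw [e1]
  refine (norm_add_le _ _).trans ?_
  have h2 : ‖Λ (BB (d - η) (d + η))‖ ≤ W * (‖d - η‖ * ‖d + η‖) := by
    have h3 := Λ.le_opNorm (BB (d - η) (d + η))
    have h4 := (BB (d - η)).le_opNorm (d + η)
    have h5 := BB.le_opNorm (d - η)
    have h6 : ‖BB (d - η)‖ * ‖d + η‖ ≤ ‖BB‖ * ‖d - η‖ * ‖d + η‖ :=
      mul_le_mul_of_nonneg_right h5 (norm_nonneg _)
    rw [hW]
    calc _ ≤ ‖Λ‖ * ‖BB (d - η) (d + η)‖ := h3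
      _ ≤ ‖Λ‖ * (‖BB‖ * ‖d - η‖ * ‖d + η‖) :=
        mul_le_mul_of_nonneg_left (h4.trans h6) (norm_nonneg _)
      _ = _ := by ring
  have h7 : ‖d + η‖ ≤ 3 * ‖η‖ := by
    refine (norm_add_le _ _).trans ?_
    linarith
  have h8 : ‖d - η‖ * ‖d + η‖ ≤ (e₂ * ‖η‖) * (3 * ‖η‖) :=
    mul_le_mul hdη h7 (norm_nonneg _) (by positivity)
  have h9 : W * (‖d - η‖ * ‖d + η‖) ≤ W * ((e₂ * ‖η‖) * (3 * ‖η‖)) :=
    mul_le_mul_of_nonneg_left h8 hW0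
  have h10 : W * ((e₂ * ‖η‖) * (3 * ‖η‖)) ≤ e' / 2 * ‖η‖ ^ 2 := by
    have h11 : W * e₂ * 3 ≤ e' / 2 := by nlinarith
    have h12 := mul_le_mul_of_nonneg_right h11 (by positivity : 0 ≤ ‖η‖ ^ 2)
    calc _ = W * e₂ * 3 * ‖η‖ ^ 2 := by ring
      _ ≤ _ := h12
  have h13 : e' / 8 * ‖d‖ ^ 2 ≤ e' / 8 * (4 * ‖η‖ ^ 2) :=
    mul_le_mul_of_nonneg_left hdsq (by positivity)
  linarith

/-- Families of minimisers for functionals given by small tangent vectors. -/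
lemma exists_H_families (P : GPeano g h x₀ A Λ χ₀ BB HH) :
    ∃ (r₀ : ℝ) (y₁ : X → X) (y₂ : X → Y) (a₁ a₂ t t₂ : X → ℝ), 0 < r₀ ∧ ∀ η, χ₀ η = 0 → ‖η‖ < r₀ →
      IsM χ₀ (HH η) (y₁ η) (a₁ η) ∧ IsM (χ₀.comp Λ) ((HH η).comp Λ) (y₂ η) (a₂ η) ∧
      0 < t η ∧ ‖x₀ - t η • y₁ η‖ = 1 ∧ 0 < t₂ η ∧ g x₀ - g (x₀ - t η • y₁ η) = t₂ η • y₂ η := by
  have hF := P.toFst
  obtain ⟨r₀, hr₀⟩ : ∃ r₀, r₀ = 1 / (2 * (‖HH‖ + 1)) := ⟨_, rfl⟩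
  have hr₀0 : 0 < r₀ := by
    rw [hr₀]
    positivity
  have hex : ∀ η : X, ∃ q : X × Y × ℝ × ℝ × ℝ × ℝ, χ₀ η = 0 → ‖η‖ < r₀ →
      IsM χ₀ (HH η) q.1 q.2.2.1 ∧ IsM (χ₀.comp Λ) ((HH η).comp Λ) q.2.1 q.2.2.2.1 ∧
      0 < q.2.2.2.2.1 ∧ ‖x₀ - q.2.2.2.2.1 • q.1‖ = 1 ∧ 0 < q.2.2.2.2.2 ∧
      g x₀ - g (x₀ - q.2.2.2.2.1 • q.1) = q.2.2.2.2.2 • q.2.1 := by
    intro η
    by_cases hη : χ₀ η = 0 ∧ ‖η‖ < r₀
    · have hξ0 : HH η x₀ = 0 := P.H_x' η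
      have hsmall : ‖HH‖ * ‖η‖ ≤ 1 / 2 := by
        have h1 : ‖η‖ * (2 * (‖HH‖ + 1)) < 1 := by
          have := hη.2
          rw [hr₀, lt_div_iff₀ (by positivity)] at this
          exact this
        nlinarith [norm_nonneg HH, norm_nonneg η]
      obtain ⟨y, a, hm⟩ := exists_isM hF.unit hF.self hξ0 (θ := 1 / 2) (by norm_num)
        (fun w _ => by
          have h1 := (HH η).le_opNorm w
          have h2 := HH.le_opNorm η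
          rw [Real.norm_eq_abs] at h1
          have h3 : ‖HH η‖ * ‖w‖ ≤ 1 / 2 * ‖w‖ :=
            mul_le_mul_of_nonneg_right (h2.trans hsmall) (norm_nonneg w)
          exact (le_abs_self _).trans (h1.trans h3))
      obtain ⟨t, ht, hu⟩ := hF.exit hm.aff
      obtain ⟨t₂, b, y₂, ht₂, hp, hm₂⟩ := P.chord hm ht hu
      exact ⟨⟨y, y₂, a, b, t, t₂⟩, fun _ _ => ⟨hm, hm₂, ht, hu, ht₂, hp⟩⟩
    · exact ⟨⟨0, 0, 0, 0, 0, 0⟩, fun h1 h2 => absurd ⟨h1, h2⟩ hη⟩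
  choose q hq using hex
  exact ⟨r₀, fun η => (q η).1, fun η => (q η).2.1, fun η => (q η).2.2.1, fun η => (q η).2.2.2.1,
    fun η => (q η).2.2.2.2.1, fun η => (q η).2.2.2.2.2, hr₀0, fun η h1 h2 => hq η h1 h2⟩

/-- The tangent hyperplane. -/
noncomputable abbrev TanG (χ₀ : StrongDual ℝ X) : Submodule ℝ X :=
  LinearMap.ker ((χ₀ : X →L[ℝ] ℝ) : X →ₗ[ℝ] ℝ)

omit [FiniteDimensional ℝ X] [FiniteDimensional ℝ Y] in
lemma mem_TanG {v : X} : v ∈ TanG χ₀ ↔ χ₀ v = 0 := by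
  simp [LinearMap.mem_ker]

/-- The second derivative as a map into the tangent hyperplane. -/
lemma exists_Delta (P : GPeano g h x₀ A Λ χ₀ BB HH) :
    ∃ Δ : TanG χ₀ →L[ℝ] TanG χ₀ →L[ℝ] TanG χ₀, ∀ a b : TanG χ₀,
      ((Δ a b : TanG χ₀) : X) = Λ (BB a b) := by
  have hF := P.toFst
  let f : X →L[ℝ] X := ContinuousLinearMap.id ℝ X - χ₀.smulRight x₀
  have hf : ∀ z, f z ∈ TanG χ₀ := by
    intro z
    rw [mem_TanG]
    simp [f, hF.self]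
  let π : X →L[ℝ] TanG χ₀ := f.codRestrict (TanG χ₀) hf
  let ι : TanG χ₀ →L[ℝ] X := (TanG χ₀).subtypeL
  refine ⟨((ContinuousLinearMap.compL ℝ (TanG χ₀) Y (TanG χ₀)) (π.comp Λ)).comp
    (BB.bilinearComp ι ι), fun a b => ?_⟩
  have h1 : χ₀ (Λ (BB a b)) = 0 := Phi_B P (mem_TanG.1 a.2) (mem_TanG.1 b.2)
  change f (Λ (BB a b)) = _
  simp [f, h1]

/-- The increment inequality for the difference of the two values. -/
lemma omega_upper (P : GPeano g h x₀ A Λ χ₀ BB HH) {y₁ y₁' : X} {y₂ : Y} {y₂' : Y}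
    {a₁ a₁' a₂ a₂' : ℝ} {η c : X}
    (h1 : IsM χ₀ (HH η) y₁ a₁) (h2 : IsM (χ₀.comp Λ) ((HH η).comp Λ) y₂ a₂)
    (h1' : IsM χ₀ (HH (η + c)) y₁' a₁') (h2' : IsM (χ₀.comp Λ) ((HH (η + c)).comp Λ) y₂' a₂') :
    (a₂' - a₁') - (a₂ - a₁) ≤ -HH c (Λ y₂) + HH c y₁' := by
  have e1 := h1.le y₁' h1'.aff
  have e2 := h1'.val
  have e3 := h2'.le y₂ h2.aff
  have e4 := h2.val
  simp only [map_add, _root_.add_apply, ContinuousLinearMap.comp_apply] at e2 e3 e4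
  linarith

/-- **Total symmetry.** -/
theorem sym_C (P : GPeano g h x₀ A Λ χ₀ BB HH) {a b c : X} (ha : χ₀ a = 0) (hb : χ₀ b = 0)
    (hc : χ₀ c = 0) : HH (Λ (BB a b)) c = HH (Λ (BB a c)) b := by
  have hF := P.toFst
  obtain ⟨Δ, hΔ⟩ := exists_Delta P
  obtain ⟨r₀, y₁, y₂, a₁, a₂, t, t₂, hr₀, hfam⟩ := exists_H_families P
  let ι : TanG χ₀ →L[ℝ] X := (TanG χ₀).subtypeL
  let hh : TanG χ₀ →L[ℝ] TanG χ₀ →L[ℝ] ℝ := HH.bilinearComp ι ι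
  let C : TanG χ₀ →L[ℝ] TanG χ₀ →L[ℝ] TanG χ₀ →L[ℝ] ℝ :=
    (ContinuousLinearMap.compL ℝ (TanG χ₀) (TanG χ₀) (TanG χ₀ →L[ℝ] ℝ) hh).comp Δ
  have hC : ∀ p q r : TanG χ₀, C p q r = HH (Λ (BB p q)) r := by
    intro p q r
    change HH ((Δ p q : TanG χ₀) : X) r = _
    rw [hΔ]
  have hC1 : ∀ p q r, C p q r = C q p r := by
    intro p q r
    rw [hC, hC, P.B_sym]
  -- boundedness of the minimisers
  obtain ⟨η₀, hη₀, hnear⟩ := P.isM_near (r := 1) one_pos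
  obtain ⟨r₁, hr₁⟩ : ∃ r₁, r₁ = min r₀ (η₀ / (‖HH‖ + 1)) := ⟨_, rfl⟩
  have hr₁0 : 0 < r₁ := by
    rw [hr₁]
    positivity
  have hr₁1 : r₁ ≤ r₀ := hr₁ ▸ min_le_left _ _
  have hbd : ∀ η : X, χ₀ η = 0 → ‖η‖ < r₁ → ‖y₁ η‖ ≤ 2 := by
    intro η hη hηr
    have h1 := (hfam η hη (hηr.trans_le hr₁1)).1
    have h2 : ‖η‖ * (‖HH‖ + 1) < η₀ := by
      have : ‖η‖ < η₀ / (‖HH‖ + 1) := hηr.trans_le (hr₁ ▸ min_le_right _ _)
      rwa [lt_div_iff₀ (by positivity)] at this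
    have hHη : ‖HH η‖ < η₀ := by
      refine (HH.le_opNorm η).trans_lt ?_
      nlinarith [norm_nonneg HH, norm_nonneg η]
    have h3 := hnear _ _ _ (P.H_x' η) hHη h1
    have e : y₁ η = x₀ + (y₁ η - x₀) := by abel
    rw [e]
    refine (norm_add_le _ _).trans ?_
    rw [hF.unit]
    linarith
  have hkey : ∀ p q : TanG χ₀, C p p q = C p q p := by
    refine two_path' (ω := fun v : TanG χ₀ => a₂ v - a₁ v)
      (G := fun η c : TanG χ₀ => HH c (y₁ η)) C hC1 (r₀ := r₁) (M := 2 * ‖HH‖) hr₁0 (by positivity)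
      ?_ ?_
    · intro η hη c
      have h1 := hbd η (mem_TanG.1 η.2) hη
      have h2 := (HH (c : X)).le_opNorm (y₁ η)
      have h3 := HH.le_opNorm (c : X)
      rw [Real.norm_eq_abs] at h2
      refine h2.trans ?_
      have h4 : ‖HH (c : X)‖ * ‖y₁ η‖ ≤ (‖HH‖ * ‖(c : X)‖) * 2 :=
        mul_le_mul h3 h1 (norm_nonneg _) (by positivity)
      have h5 : ‖(c : TanG χ₀)‖ = ‖(c : X)‖ := rfl
      rw [h5]
      linarith
    · intro e he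
      obtain ⟨r, hr, hb'⟩ := e_exp₂ P (e' := e / (‖HH‖ + 1)) (by positivity)
      refine ⟨min r r₁, by positivity, min_le_right _ _, fun η c hη hηc => ?_⟩
      have hη₁ : ‖(η : X)‖ < r := hη.trans_le (min_le_left _ _)
      have hη₂ : ‖(η : X)‖ < r₀ := (hη.trans_le (min_le_right _ _)).trans_le hr₁1
      have hηc₂ : ‖((η + c : TanG χ₀) : X)‖ < r₀ := (hηc.trans_le (min_le_right _ _)).trans_le hr₁1
      obtain ⟨h1, h2, h3, h4, h5, h6⟩ := hfam η (mem_TanG.1 η.2) hη₂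
      obtain ⟨h1', h2', _⟩ := hfam (η + c : TanG χ₀) (mem_TanG.1 (η + c : TanG χ₀).2) hηc₂
      have h7 := hb' η _ _ _ _ _ (mem_TanG.1 η.2) hη₁ h1 h2.aff h3 h4 h5 h6
      have h8 := omega_upper P (η := (η : X)) (c := (c : X)) h1 h2 h1' h2'
      rw [hC]
      obtain ⟨E, hE⟩ : ∃ E, E = Λ (y₂ η) - y₁ η - Λ (BB η η) := ⟨_, rfl⟩
      rw [← hE] at h7
      have e1 : HH (c : X) (Λ (y₂ η)) = HH (c : X) (y₁ η) + HH (Λ (BB η η)) c + HH (c : X) E := by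
        rw [P.H_sym (Λ (BB η η)) c, hE]
        simp only [map_sub]
        ring
      have h9 := (HH (c : X)).le_opNorm E
      have h10 := HH.le_opNorm (c : X)
      rw [Real.norm_eq_abs] at h9
      have h11 : ‖HH (c : X)‖ * ‖E‖ ≤ (‖HH‖ * ‖(c : X)‖) * (e / (‖HH‖ + 1) * ‖(η : X)‖ ^ 2) :=
        mul_le_mul h10 h7 (norm_nonneg _) (by positivity)
      have h12 : (‖HH‖ * ‖(c : X)‖) * (e / (‖HH‖ + 1) * ‖(η : X)‖ ^ 2) =
          e * ‖(η : X)‖ ^ 2 * ‖(c : X)‖ * (‖HH‖ / (‖HH‖ + 1)) := by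
        field_simp
      have h13 : ‖HH‖ / (‖HH‖ + 1) ≤ 1 := by
        rw [div_le_one (by positivity)]
        linarith
      have h14 : 0 ≤ e * ‖(η : X)‖ ^ 2 * ‖(c : X)‖ := by positivity
      have h15 : ‖(η : TanG χ₀)‖ = ‖(η : X)‖ := rfl
      have h16 : ‖(c : TanG χ₀)‖ = ‖(c : X)‖ := rfl
      rw [h15, h16]
      have h17 := (abs_le.1 h9).1
      have h18 : ((η + c : TanG χ₀) : X) = (η : X) + (c : X) := rfl
      nlinarith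
  have hfin := Str.tri_symm C hC1 hkey ⟨a, mem_TanG.2 ha⟩ ⟨b, mem_TanG.2 hb⟩ ⟨c, mem_TanG.2 hc⟩
  rw [hC, hC] at hfin
  exact hfin

/-- **The second derivative vanishes on the tangent hyperplane.** -/
theorem B_zero (P : GPeano g h x₀ A Λ χ₀ BB HH) (hdim : 3 ≤ Module.finrank ℝ X) {a b : X}
    (ha : χ₀ a = 0) (hb : χ₀ b = 0) : BB a b = 0 := by
  have hF := P.toFst
  obtain ⟨Δ, hΔ⟩ := exists_Delta P
  let ι : TanG χ₀ →L[ℝ] X := (TanG χ₀).subtypeL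
  let hh : TanG χ₀ →L[ℝ] TanG χ₀ →L[ℝ] ℝ := HH.bilinearComp ι ι
  have hfr : 2 ≤ Module.finrank ℝ (TanG χ₀) := by
    have h1 := LinearMap.finrank_range_add_finrank_ker ((χ₀ : X →L[ℝ] ℝ) : X →ₗ[ℝ] ℝ)
    have h2 : Module.finrank ℝ (LinearMap.range ((χ₀ : X →L[ℝ] ℝ) : X →ₗ[ℝ] ℝ)) ≤
        Module.finrank ℝ ℝ := Submodule.finrank_le _
    rw [Module.finrank_self] at h2
    have h3 : Module.finrank ℝ (TanG χ₀) =
        Module.finrank ℝ (LinearMap.ker ((χ₀ : X →L[ℝ] ℝ) : X →ₗ[ℝ] ℝ)) := rfl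
    omega
  have hzero := cubic_rigid' (V := TanG χ₀) (h := hh) hfr
    (fun p q => P.H_sym p q)
    (fun p hp => P.H_pos p (mem_TanG.1 p.2) (fun h0 => hp (Subtype.ext h0)))
    Δ (fun p q => Subtype.ext (by rw [hΔ, hΔ, P.B_sym]))
    (fun p q r => by
      change HH ((Δ p q : TanG χ₀) : X) r = HH ((Δ p r : TanG χ₀) : X) q
      rw [hΔ, hΔ]
      exact sym_C P (mem_TanG.1 p.2) (mem_TanG.1 q.2) (mem_TanG.1 r.2))
    (fun u w hwu => by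
      have h1 := star P (mem_TanG.1 u.2) (mem_TanG.1 w.2) hwu
      refine h1.congr_of_eventuallyEq (Filter.Eventually.of_forall fun s => ?_)
      have e1 : ‖u + s • Δ w u‖ = ‖(u : X) + s • ((Δ w u : TanG χ₀) : X)‖ := rfl
      simp only
      rw [e1, hΔ])
  have h1 := hΔ ⟨a, mem_TanG.2 ha⟩ ⟨b, mem_TanG.2 hb⟩
  rw [hzero] at h1
  have h2 : Λ (BB a b) = 0 := h1.symm
  have h3 := hF.right (BB a b)
  rw [h2, map_zero] at h3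
  exact h3.symm

/-- **From Peano data to a base point.** -/
theorem bas_of_gpeano (P : GPeano g h x₀ A Λ χ₀ BB HH) (hdim : 3 ≤ Module.finrank ℝ X) :
    Bas g h x₀ A Λ χ₀ := by
  have hF := P.toFst
  refine { toFst := hF, b1 := fun ε hε => ?_, b2 := curved_bound P }
  obtain ⟨ρ, hρ, hb⟩ := P.sphere_exp hε
  refine Metric.eventually_nhds_iff.2 ⟨ρ, hρ, fun {y} hy hy1 => ?_⟩
  rw [dist_eq_norm] at hy
  obtain ⟨-, h2⟩ := hb y hy1 hy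
  have hwP : χ₀ (y - χ₀ y • x₀) = 0 := hF.tan y
  rw [B_zero P hdim hwP hwP, smul_zero, sub_zero] at h2
  exact h2

end Exp

end Vale.Agent.Lib.P084.Gen
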