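import Mathlib
import Vale.Agent.Lib.P084.Gen.Exp
import Vale.Agent.Lib.P084.Dens.Good
import Vale.Agent.Lib.P084.Cartan.Main
import Vale.Agent.Lib.P084.Tingley

/-! The final assembly: all finite dimensional norms. -/

namespace Vale.Agent.Lib.P084.Gen

open Set Metric Filter Topology
open Vale.Agent.Lib.P084

section Final

variable {X Y : Type*} [NormedAddCommGroup X] [NormedSpace ℝ X]
  [NormedAddCommGroup Y] [NormedSpace ℝ Y] {g : X → Y} {h : Y → X}
  [FiniteDimensional ℝ X] [FiniteDimensional ℝ Y]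

omit [FiniteDimensional ℝ X] [FiniteDimensional ℝ Y] in
/-- A bound for a quadratic form. -/
lemma quad_bound {F : Type*} [NormedAddCommGroup F] [NormedSpace ℝ F] (B : X →L[ℝ] X →L[ℝ] F) (d : X) :
    ‖B d d‖ ≤ ‖B‖ * ‖d‖ ^ 2 := by
  have h1 := (B d).le_opNorm d
  have h2 := B.le_opNorm d
  have h3 : ‖B d‖ * ‖d‖ ≤ ‖B‖ * ‖d‖ * ‖d‖ := mul_le_mul_of_nonneg_right h2 (norm_nonneg _)
  calc _ ≤ _ := h1.trans h3
    _ = _ := by ring

/-- Good points give Peano data. -/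
theorem gpeano_of_good (H : SphereIso g h) {p : X} {A : X →L[ℝ] Y} {BB : X →L[ℝ] X →L[ℝ] Y}
    {HH : X →L[ℝ] X →L[ℝ] ℝ} (P : Dens.Good g p A BB HH) :
    ∃ Λ : Y →L[ℝ] X, GPeano g h p A Λ (chi p) BB HH := by
  have hd := Dens.reg_differentiable P.unit P.reg
  have hder : HasFDerivAt (fun z : X => ‖z‖) (chi p) p := hd.hasFDerivAt
  have hself : chi p p = 1 := Dens.chi_self_unit hd P.unit
  have hbig : Str.BigO g p A := by
    refine ⟨‖BB‖ + 1, ?_⟩
    filter_upwards [P.T_unit one_pos] with y hy hy1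
    have h1 := hy hy1
    have h2 := quad_bound BB (y - p)
    have e : g y - A y = (g y - A y - (1 / 2 : ℝ) • BB (y - p) (y - p)) +
        (1 / 2 : ℝ) • BB (y - p) (y - p) := by abel
    rw [e]
    refine (norm_add_le _ _).trans ?_
    rw [norm_smul]
    have h3 : ‖(1 / 2 : ℝ)‖ = 1 / 2 := by norm_num
    rw [h3]
    have h4 : 0 ≤ ‖BB‖ * ‖y - p‖ ^ 2 := by positivity
    nlinarith
  have hPre : Pre g h p A (chi p) := ⟨H, P.unit, P.Ax, hder, hbig⟩
  obtain ⟨Λ, hl, hr⟩ := hPre.inverse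
  have hFst : Fst g h p A Λ (chi p) := ⟨hPre, hl, hr⟩
  refine ⟨Λ, ⟨hFst, P.B_sym, P.B_x, P.H_sym, P.H_x, P.H_pos, fun ε hε => P.T_unit hε,
    fun ε hε => ?_⟩⟩
  obtain ⟨ρ, hρ, hb⟩ := P.N_exp ε hε
  refine Metric.eventually_nhds_iff.2 ⟨ρ, hρ, fun {y} hy => ?_⟩
  have h1 := hb y (by rwa [dist_eq_norm] at hy)
  simp only [] at h1
  rw [P.unit, map_sub, hself, Real.norm_eq_abs, smul_eq_mul] at h1
  have e : ‖y‖ - 1 - (chi p y - 1) - 1 / 2 * HH (y - p) (y - p) =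
      ‖y‖ - chi p y - 1 / 2 * HH (y - p) (y - p) := by ring
  rwa [e] at h1

/-- Exact relations near an extreme point. -/
theorem exists_exact_near (H : SphereIso g h) (hdim : 3 ≤ Module.finrank ℝ X) {e : X}
    (he : e ∈ (closedBall (0 : X) 1).extremePoints ℝ) {ρ : ℝ} (hρ : 0 < ρ) :
    ∃ p : X, ‖p‖ = 1 ∧ ‖p - e‖ < ρ ∧ ∃ L, Cartan.Exact g p L := by
  have : Nontrivial X := Module.nontrivial_of_finrank_pos (R := ℝ) (by omega)
  have h1 := extreme_subset_closure_exposed he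
  obtain ⟨x, hx, hxe⟩ := Metric.mem_closure_iff.1 h1 (ρ / 2) (by positivity)
  obtain ⟨hx1, ψ, hψ1, hψx, hψe⟩ := hx
  obtain ⟨p, hp, hpx, hcase⟩ := Dens.exists_good_or_rough (Y := Y) H hx1 hψ1 hψx hψe
    (ρ := ρ / 2) (by positivity)
  refine ⟨p, hp, ?_, ?_⟩
  · have e1 : p - e = (p - x) + (x - e) := by abel
    rw [e1]
    refine (norm_add_le _ _).trans_lt ?_
    rw [dist_comm, dist_eq_norm] at hxe
    linarith
  · rcases hcase with hR | ⟨A, BB, HH, hG⟩
    · obtain ⟨L, hL⟩ := Far.exists_exact H hp hR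
      exact ⟨L, hL⟩
    · obtain ⟨Λ, hP⟩ := gpeano_of_good H hG
      have hB := bas_of_gpeano hP hdim
      exact ⟨A, fun u φ Φ hc z => hB.exact hc z⟩

/-- **Every isometry of the unit sphere of a finite dimensional space of dimension at least three
extends to a linear isometry.** -/
theorem linear_all (hdim : 3 ≤ Module.finrank ℝ X) (f : sphere (0 : X) 1 ≃ᵢ sphere (0 : Y) 1) :
    ∃ T : X ≃ₗᵢ[ℝ] Y, ∀ x : sphere (0 : X) 1, T x = f x := by
  have : Nontrivial X := Module.nontrivial_of_finrank_pos (R := ℝ) (by omega)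
  obtain ⟨g, h, H, hgf⟩ := exists_sphereIso f
  exact Cartan.linear_of_exact (by omega) f H hgf fun e he ρ hρ =>
    exists_exact_near H hdim he hρ

end Final

end Vale.Agent.Lib.P084.Gen
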